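import Vale.Agent.P179.R2.H967.Eig
import Vale.Agent.P179.R2.H443.Defs
import Vale.Agent.P179.R2.H854.Ph3

/-!
# The numbers `nT` of the subgroups of a wreath product: conjugation, products, blocks
-/

namespace P179H967

open Subgroup P179H524 P179C P179A P179R P179N P179H443 P179H854 MonoidAlgebra
  RegularWreathProduct

open scoped Classical

universe u

section Conj

variable {k : Type u} [Field k] {G : Type} [Group G] [Finite G]

omit [Finite G] in
theorem mem_center_coeff {z : MonoidAlgebra k G}
    (hz : z ∈ Subalgebra.center k (MonoidAlgebra k G)) (g x : G) :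
    z.coeff (g * x * g⁻¹) = z.coeff x := (P179C.mem_center_iff z).1 hz g x

omit [Finite G] in
/-- conjugation of a subgroup -/
noncomputable def conjEquiv (g : G) (H : Subgroup G) :
    H ≃* H.map (MulAut.conj g).toMonoidHom :=
  H.equivMapOfInjective _ (MulAut.conj g).injective

/-- (A3) invariance under conjugation -/
theorem nT_conj {f : MonoidAlgebra k G} (hf : f ∈ Subalgebra.center k (MonoidAlgebra k G))
    (g : G) (H : Subgroup G) : nT f (H.map (MulAut.conj g).toMonoidHom) = nT f H := by
  symm
  refine numSimpleIn_congr (conjEquiv g H) fun x => ?_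
  rw [coeff_trunc, coeff_trunc]
  exact mem_center_coeff hf g x

theorem wt_conj {f : MonoidAlgebra k G} (hf : f ∈ Subalgebra.center k (MonoidAlgebra k G))
    (g : G) (H : Subgroup G) : wt f (H.map (MulAut.conj g).toMonoidHom) = wt f H := by
  unfold wt
  rw [nT_conj hf, ← Nat.card_congr (conjEquiv g H).toEquiv]

/-- (h0) -/
theorem wt_cj {f : MonoidAlgebra k G} (hf : f ∈ Subalgebra.center k (MonoidAlgebra k G))
    (g : G) (H : Subgroup G) : wt f (cj g H) = wt f H := wt_conj hf g H

theorem nT_top (f : MonoidAlgebra k G) : nT f (⊤ : Subgroup G) = numSimpleIn f :=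
  numSimpleIn_congr topEquiv fun x => by rw [coeff_trunc]; rfl

end Conj

section ZO

variable {p : ℕ} [hp : Fact p.Prime] {k : Type u} [Field k] [IsAlgClosed k] [CharP k p]
  {G : Type} [Group G] [Finite G]

/-- (A4) the truncation of a central idempotent to a subgroup `K` between `x C(x)` and `N(x)`
acts as `0` or `1` on each simple module -/
theorem zo_good {B : MonoidAlgebra k G} (hB : B ∈ Subalgebra.center k (MonoidAlgebra k G))
    (hBB : B * B = B) {K x : Subgroup G} (h : Good p K x) : ZO (trunc K B) := by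
  intro a
  have := Fintype.ofFinite G
  obtain ⟨L, hL⟩ := exists_chi a
  have h1 : resHom (p := p) x K h.1 h.2.1 h.2.2.1 h.2.2.2 L ⟨B, hB⟩ =
      L ⟨trunc K B, trunc_mem K hB⟩ := rfl
  have h2 := apply_idem (resHom (p := p) x K h.1 h.2.1 h.2.2.1 h.2.2.2 L)
    (e := (⟨B, hB⟩ : Subalgebra.center k (MonoidAlgebra k G))) (Subtype.ext hBB)
  have h3 := hL ⟨trunc K B, trunc_mem K hB⟩
  rw [h1] at h2
  rcases h2 with h2 | h2
  · left
    rw [h2, zero_smul] at h3
    exact h3
  · right
    rw [h2, one_smul] at h3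
    exact h3

/-- (A4) for the stabilisers of the normal chains -/
theorem zo_stab {B : MonoidAlgebra k G} (hB : B ∈ Subalgebra.center k (MonoidAlgebra k G))
    (hBB : B * B = B) {s : Finset (Subgroup G)} (hs : IsPChain p s) (hn : Nml s) :
    ZO (trunc (stab s) B) := by
  rcases s.eq_empty_or_nonempty with h | h
  · subst h
    refine zo_good hB hBB (x := (⊥ : Subgroup G)) ⟨IsPGroup.of_bot, bot_le, ?_, ?_⟩
    · rw [show normalizer ((⊥ : Subgroup G) : Set G) = ⊤ from
        normalizer_eq_top_iff.2 inferInstance]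
      exact le_top
    · rw [P179A.stab_empty]
      exact le_top
  · obtain ⟨M, hM, hmax⟩ := exists_largest hs.2 h
    refine zo_good hB hBB (x := M) ⟨(hs.1 M hM).1, ?_, ?_, ?_⟩
    · rw [le_stab]
      exact fun Q hQ => hn Q hQ M hM
    · intro x hx
      exact mem_stab.1 hx M hM
    · intro x hx
      rw [mem_stab]
      intro Q hQ
      have hxc : ∀ q ∈ Q, q * x = x * q := fun q hq => mem_centralizer_iff.1 hx q (hmax Q hQ hq)
      rw [mem_normalizer_iff]
      intro y
      constructor
      · intro hy
        rw [← hxc y hy, mul_inv_cancel_right]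
        exact hy
      · intro hy
        have h2 := hxc _ hy
        have h3 : x * y = x * (x * y * x⁻¹) := by
          rw [← h2, mul_assoc, inv_mul_cancel, mul_one]
        rw [mul_left_cancel h3]
        exact hy

end ZO

section Pi

variable {G Q : Type} [Group G] [Group Q]

/-- the subgroup `∏ H_q` of the base group -/
def piEquiv (H : Q → Subgroup G) : (∀ q, H q) ≃* prodSub H where
  toFun y := ⟨incl G Q (fun q => (y q : G)), ⟨rfl, fun q => (y q).2⟩⟩
  invFun x := fun q => ⟨x.1.left q, x.2.2 q⟩
  left_inv _ := rfl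
  right_inv x := Subtype.ext (eq_incl x.2.1).symm
  map_mul' y y' := Subtype.ext (map_mul (incl G Q) (fun q => (y q : G)) fun q => (y' q : G))

theorem PP_eq (H : Q → Subgroup G) : PP H = prodSub H := by
  ext w
  rw [mem_PP, mem_prodSub]

variable {p : ℕ} [hp : Fact p.Prime] {k : Type u} [Field k] [IsAlgClosed k] [CharP k p]
  [Fintype G] [Fintype Q]

include hp in
/-- (A2) -/
theorem nT_prodSub {e : MonoidAlgebra k G} (he : e ∈ Subalgebra.center k (MonoidAlgebra k G))
    (H : Q → Subgroup G) (hH : ∀ q, ZO (trunc (H q) e)) :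
    nT (ehat Q e) (prodSub H) = ∏ q, nT e (H q) := by
  have := Fintype.ofFinite (G ≀ᵣ Q)
  let Z : MonoidAlgebra k (∀ q, H q) :=
    ∑ᶠ y : (∀ q, H q), MonoidAlgebra.single y (∏ q, e.coeff (y q : G))
  have hZ : ∀ y, Z.coeff y = ∏ q, (trunc (H q) e).coeff (y q) := by
    intro y
    have := Fintype.ofFinite (∀ q, H q)
    simp only [coeff_trunc]
    change (∑ᶠ y : (∀ q, H q), MonoidAlgebra.single y (∏ q, e.coeff (y q : G))).coeff y = _
    rw [coeff_finsum_single, Finset.sum_eq_single y]
    · rw [if_pos rfl]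
    · intro y' _ hy'
      rw [if_neg hy']
    · intro h; exact absurd (Finset.mem_univ _) h
  have h1 := numSimpleIn_pi p (fun q => trunc (H q) e) (fun q => trunc_mem (H q) he) hH Z hZ
  have h2 : numSimpleIn Z = numSimpleIn (trunc (prodSub H) (ehat Q e)) := by
    refine numSimpleIn_congr (piEquiv H) fun y => ?_
    rw [coeff_trunc, coeff_ehat, hZ]
    change wcoef e (incl G Q fun q => (y q : G)) = _
    rw [wcoef_incl]
    exact Finset.prod_congr rfl fun q _ => (coeff_trunc _ _ _).symm
  exact h2.symm.trans h1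

omit hp [IsAlgClosed k] [CharP k p] [Fintype G] in
theorem card_prodSub (H : Q → Subgroup G) :
    Nat.card (prodSub H) = ∏ q, Nat.card (H q) := by
  rw [← Nat.card_congr (piEquiv H).toEquiv, Nat.card_pi]

include hp in
/-- (h1) -/
theorem wt_PP {e : MonoidAlgebra k G} (he : e ∈ Subalgebra.center k (MonoidAlgebra k G))
    (H : Q → Subgroup G) (hH : ∀ q, ZO (trunc (H q) e)) :
    wt (ehat Q e) (PP H) = ∏ q, wt e (H q) := by
  unfold wt
  rw [PP_eq, nT_prodSub (p := p) he H hH, card_prodSub, Finset.prod_mul_distrib]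
  push_cast
  rfl

end Pi

end P179H967
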