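import Vale.Agent.P179.R2.H725.Ind

/-!
# The cosets `w ^ i Y`, `i ≡ 1 mod p`, are disjoint modulo the inertial group
-/

namespace P179H967

open Subgroup

section

variable {p : ℕ} [hp : Fact p.Prime]

/-- `p ^ s ∣ i ^ e - 1`, `i ≡ 1 mod p` and `p ∤ e` give `p ^ s ∣ i - 1` -/
theorem dvd_sub_one {i : ℤ} {e s : ℕ} (hi : (p : ℤ) ∣ i - 1) (he : ¬ p ∣ e)
    (h : (p : ℤ) ^ s ∣ i ^ e - 1) : (p : ℤ) ^ s ∣ i - 1 := by
  have h1 : i ^ e - 1 = (∑ j ∈ Finset.range e, i ^ j) * (i - 1) := (geom_sum_mul i e).symm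
  have h2 : ¬ (p : ℤ) ∣ ∑ j ∈ Finset.range e, i ^ j := by
    intro hd
    apply he
    have h3 : (p : ℤ) ∣ ∑ j ∈ Finset.range e, (i ^ j - 1) := by
      refine Finset.dvd_sum fun j _ => ?_
      exact hi.trans (by simpa using sub_dvd_pow_sub_pow i 1 j)
    have h4 : (p : ℤ) ∣ (e : ℤ) := by
      have h5 := dvd_sub hd h3
      rwa [← Finset.sum_sub_distrib, Finset.sum_congr rfl (fun j _ => sub_sub_cancel (i ^ j) 1),
        Finset.sum_const, Finset.card_range, nsmul_eq_mul, mul_one] at h5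
    exact_mod_cast h4
  rw [h1] at h
  have h3 : IsCoprime ((p : ℤ) ^ s) (∑ j ∈ Finset.range e, i ^ j) := by
    apply IsCoprime.pow_left
    exact (Int.prime_iff_natAbs_prime.2 (by simpa using hp.out)).coprime_iff_not_dvd.2 h2
  exact h3.dvd_of_dvd_mul_left h

variable {G : Type*} [Group G]

theorem cos_one {D T : Subgroup G} (hD : IsPGroup p D)
    (hab : ∀ x ∈ D, ∀ y ∈ D, x * y = y * x) (hT : T ≤ normalizer (D : Set G))
    (he : ¬ p ∣ (centralizer (D : Set G)).relIndex T) {Y : Subgroup G}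
    (hY : ∀ n ∈ T, ∀ y ∈ Y, n * y * n⁻¹ ∈ Y) {w : G} (hw : w ∈ D)
    {i : ℤ} (hi : (p : ℤ) ∣ i - 1) {n : G} (hn : n ∈ T)
    (h : n * w * n⁻¹ * (w ^ i)⁻¹ ∈ Y) : n * w * n⁻¹ * w⁻¹ ∈ Y := by
  have hne := P179H725.pow_relIndex_mem (P179H725.subgroupOf_centralizer_normal hT) hn
  set e := (centralizer (D : Set G)).relIndex T with he'
  have hc : ∀ x ∈ D, n * x * n⁻¹ ∈ D := fun x hx => (mem_normalizer_iff.1 (hT hn) x).1 hx
  -- iteration
  have hit : ∀ j : ℕ, n ^ j * w * (n ^ j)⁻¹ * (w ^ (i ^ j))⁻¹ ∈ Y := by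
    intro j
    induction j with
    | zero => simp
    | succ j ih =>
      have h1 := hY n hn _ ih
      -- n * (n^j w n^-j w^{-i^j}) n⁻¹ = n^{j+1} w n^{-(j+1)} * (n w n⁻¹)^{-i^j}
      have h2 : n * (n ^ j * w * (n ^ j)⁻¹ * (w ^ (i ^ j))⁻¹) * n⁻¹ =
          n ^ (j + 1) * w * (n ^ (j + 1))⁻¹ * ((n * w * n⁻¹) ^ (i ^ j))⁻¹ := by
        rw [conj_zpow, pow_succ']; group
      rw [h2] at h1
      have hwc : n * w * n⁻¹ ∈ D := hc w hw
      have h3 : (n * w * n⁻¹) ^ (i ^ j) * (w ^ (i ^ (j + 1)))⁻¹ ∈ Y := by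
        have h4 : Commute (n * w * n⁻¹) (w ^ i)⁻¹ :=
          hab _ hwc _ (inv_mem (zpow_mem hw i))
        have h5 := zpow_mem h (i ^ j)
        rw [h4.mul_zpow, inv_zpow, ← zpow_mul, ← pow_succ'] at h5
        exact h5
      have h6 := mul_mem h1 h3
      have h7 : n ^ (j + 1) * w * (n ^ (j + 1))⁻¹ * ((n * w * n⁻¹) ^ (i ^ j))⁻¹ *
          ((n * w * n⁻¹) ^ (i ^ j) * (w ^ (i ^ (j + 1)))⁻¹) =
          n ^ (j + 1) * w * (n ^ (j + 1))⁻¹ * (w ^ (i ^ (j + 1)))⁻¹ := by group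
      rwa [h7] at h6
  have h1 := hit e
  have h2 : n ^ e * w * (n ^ e)⁻¹ = w := by
    have := mem_centralizer_iff.1 hne w hw
    rw [← this]; group
  rw [h2] at h1
  have h3 : w ^ (i ^ e - 1) ∈ Y := by
    have h4 := inv_mem h1
    have h5 : (w * (w ^ i ^ e)⁻¹)⁻¹ = w ^ (i ^ e - 1) := by
      rw [mul_inv_rev, inv_inv, zpow_sub_one]
    rwa [h5] at h4
  -- the order of `w` is a power of `p`
  obtain ⟨m, hm⟩ := hD ⟨w, hw⟩
  have hm' : w ^ p ^ m = 1 := congrArg Subtype.val hm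
  -- the gcd of `i ^ e - 1` and `p ^ m` is a power of `p` dividing `i - 1`
  obtain ⟨s, hs, hgcd⟩ : ∃ s ≤ m, Int.gcd (i ^ e - 1) ((p ^ m : ℕ) : ℤ) = p ^ s := by
    have h6 : Int.gcd (i ^ e - 1) ((p ^ m : ℕ) : ℤ) ∣ p ^ m := by
      have := Int.gcd_dvd_right (a := i ^ e - 1) (b := ((p ^ m : ℕ) : ℤ))
      exact_mod_cast this
    exact (Nat.dvd_prime_pow hp.out).1 h6
  have h7 : w ^ (((p : ℤ)) ^ s) ∈ Y := by
    have h8 := Int.gcd_eq_gcd_ab (i ^ e - 1) ((p ^ m : ℕ) : ℤ)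
    rw [hgcd] at h8
    have h9 : ((p : ℤ)) ^ s = (i ^ e - 1) * Int.gcdA (i ^ e - 1) ((p ^ m : ℕ) : ℤ) +
        ((p ^ m : ℕ) : ℤ) * Int.gcdB (i ^ e - 1) ((p ^ m : ℕ) : ℤ) := by
      rw [← h8]; push_cast; rfl
    rw [h9, zpow_add, zpow_mul, zpow_mul, zpow_natCast w (p ^ m), hm', one_zpow, mul_one]
    exact zpow_mem h3 _
  have h8 : (p : ℤ) ^ s ∣ i - 1 := by
    refine dvd_sub_one hi he ?_
    have := Int.gcd_dvd_left (a := i ^ e - 1) (b := ((p ^ m : ℕ) : ℤ))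
    rw [hgcd] at this
    exact_mod_cast this
  have h9 : w ^ (i - 1) ∈ Y := by
    obtain ⟨c, hc⟩ := h8
    rw [hc, zpow_mul]
    exact zpow_mem h7 c
  have h10 := mul_mem h h9
  have h11 : n * w * n⁻¹ * (w ^ i)⁻¹ * w ^ (i - 1) = n * w * n⁻¹ * w⁻¹ := by
    rw [zpow_sub_one]; group
  rwa [h11] at h10

/-- `a` and `b` prime to `p`, `a ≡ b mod p`: if `n w ^ a n⁻¹ ∈ w ^ b Y` then `n` centralises `D`
and the two cosets are equal -/
theorem cos_reg {D T : Subgroup G} (hD : IsPGroup p D)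
    (hab : ∀ x ∈ D, ∀ y ∈ D, x * y = y * x) (hT : T ≤ normalizer (D : Set G))
    (he : ¬ p ∣ (centralizer (D : Set G)).relIndex T) {Y : Subgroup G}
    (hY : ∀ n ∈ T, ∀ y ∈ Y, n * y * n⁻¹ ∈ Y) {w : G} (hw : w ∈ D)
    (hreg : ∀ n ∈ T, n * w * n⁻¹ * w⁻¹ ∈ Y → n ∈ centralizer (D : Set G))
    {a b : ℕ} (ha : ¬ p ∣ a) (hab2 : a ≡ b [MOD p]) {n : G} (hn : n ∈ T)
    (h : n * w ^ a * n⁻¹ * (w ^ b)⁻¹ ∈ Y) :
    n ∈ centralizer (D : Set G) ∧ w ^ a * (w ^ b)⁻¹ ∈ Y := by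
  have hnc : n ∈ centralizer (D : Set G) := by
    obtain ⟨m, hm⟩ := hD ⟨w, hw⟩
    have hm' : w ^ p ^ m = 1 := congrArg Subtype.val hm
    -- the inverse of `a` modulo `p ^ (m + 1)`
    have hco : Nat.Coprime a (p ^ (m + 1)) := by
      apply Nat.Coprime.pow_right
      exact ((Nat.Prime.coprime_iff_not_dvd hp.out).2 ha).symm
    obtain ⟨t, ht⟩ : ∃ t : ℕ, a * t ≡ 1 [MOD p ^ (m + 1)] := by
      obtain ⟨t, ht⟩ := Nat.exists_mul_mod_eq_one_of_coprime hco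
        (Nat.one_lt_pow (Nat.succ_ne_zero m) hp.out.one_lt)
      refine ⟨t, ?_⟩
      rw [Nat.ModEq, ht.2, Nat.mod_eq_of_lt (Nat.one_lt_pow (Nat.succ_ne_zero m) hp.out.one_lt)]
    have hwt : w ^ (a * t) = w := by
      have h1 : a * t ≡ 1 [MOD p ^ m] := ht.of_dvd (pow_dvd_pow p (Nat.le_succ m))
      have h2 : orderOf w ∣ p ^ m := orderOf_dvd_of_pow_eq_one hm'
      have h3 := pow_eq_pow_iff_modEq.2 (h1.of_dvd h2)
      rwa [pow_one] at h3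
    have hc : n * w ^ a * n⁻¹ ∈ D := (mem_normalizer_iff.1 (hT hn) _).1 (pow_mem hw a)
    have hcom : Commute (n * w ^ a * n⁻¹) (w ^ b)⁻¹ :=
      hab _ hc _ (inv_mem (pow_mem hw b))
    have h1 := pow_mem h t
    rw [hcom.mul_pow, conj_pow, ← pow_mul, hwt, inv_pow, ← pow_mul] at h1
    refine hreg n hn (cos_one hD hab hT he hY hw (i := ((b * t : ℕ) : ℤ)) ?_ hn ?_)
    · have h2 : b * t ≡ 1 [MOD p] :=
        (hab2.symm.mul_right t).trans (ht.of_dvd (dvd_pow_self p (Nat.succ_ne_zero m)))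
      have h3 := (Nat.modEq_iff_dvd.1 h2.symm)
      simpa using h3
    · rwa [zpow_natCast]
  refine ⟨hnc, ?_⟩
  have h1 := mem_centralizer_iff.1 hnc _ (pow_mem hw a)
  have h2 : n * w ^ a * n⁻¹ = w ^ a := by rw [← h1]; group
  rwa [h2] at h

/-- the same for elements of the cosets -/
theorem cos_eq {D T : Subgroup G} (hD : IsPGroup p D)
    (hab : ∀ x ∈ D, ∀ y ∈ D, x * y = y * x) (hT : T ≤ normalizer (D : Set G))
    (he : ¬ p ∣ (centralizer (D : Set G)).relIndex T) {Y : Subgroup G} (hYD : Y ≤ D)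
    (hY : ∀ n ∈ T, ∀ y ∈ Y, n * y * n⁻¹ ∈ Y) {w : G} (hw : w ∈ D)
    (hreg : ∀ n ∈ T, n * w * n⁻¹ * w⁻¹ ∈ Y → n ∈ centralizer (D : Set G))
    {a b : ℕ} (ha : ¬ p ∣ a) (hab2 : a ≡ b [MOD p]) {n y y' : G} (hn : n ∈ T)
    (hy : y ∈ Y) (hy' : y' ∈ Y) (h : n * (w ^ a * y) * n⁻¹ = w ^ b * y') :
    n ∈ centralizer (D : Set G) ∧ w ^ a * (w ^ b)⁻¹ ∈ Y ∧ w ^ a * y = w ^ b * y' := by
  have h1 : n * w ^ a * n⁻¹ * (w ^ b)⁻¹ ∈ Y := by
    have h2 : n * w ^ a * n⁻¹ * (w ^ b)⁻¹ = w ^ b * (y' * (n * y * n⁻¹)⁻¹) * (w ^ b)⁻¹ := by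
      calc n * w ^ a * n⁻¹ * (w ^ b)⁻¹
          = n * (w ^ a * y) * n⁻¹ * (n * y * n⁻¹)⁻¹ * (w ^ b)⁻¹ := by group
        _ = w ^ b * (y' * (n * y * n⁻¹)⁻¹) * (w ^ b)⁻¹ := by rw [h]; group
    have h3 : y' * (n * y * n⁻¹)⁻¹ ∈ Y := mul_mem hy' (inv_mem (hY n hn y hy))
    have h4 := hab _ (pow_mem hw b) _ (hYD h3)
    rw [h2, h4]
    have h5 : y' * (n * y * n⁻¹)⁻¹ * w ^ b * (w ^ b)⁻¹ = y' * (n * y * n⁻¹)⁻¹ := by group
    rwa [h5]
  obtain ⟨h2, h3⟩ := cos_reg hD hab hT he hY hw hreg ha hab2 hn h1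
  refine ⟨h2, h3, ?_⟩
  have h4 := mem_centralizer_iff.1 h2 _ (mul_mem (pow_mem hw a) (hYD hy))
  rw [← h, ← h4]; group

/-- the exponents `i < o`, `i ≡ 1 mod p` -/
def expo (p o : ℕ) : Finset ℕ := (Finset.range o).filter fun i => i ≡ 1 [MOD p]

theorem mem_expo {p o i : ℕ} : i ∈ expo p o ↔ i < o ∧ i ≡ 1 [MOD p] := by
  rw [expo, Finset.mem_filter, Finset.mem_range]

theorem card_expo {o : ℕ} (ho : p ∣ o) : (expo p o).card * p = o := by
  obtain ⟨c, rfl⟩ := ho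
  have h1 : (expo p (p * c)).card = c := by
    have h2 : expo p (p * c) = (Finset.range c).image fun j => p * j + 1 := by
      ext i
      rw [mem_expo, Finset.mem_image]
      constructor
      · rintro ⟨h3, h4⟩
        have h5 : 1 % p = 1 := Nat.mod_eq_of_lt hp.out.one_lt
        have h6 : i % p = 1 := by rw [h4, h5]
        refine ⟨i / p, ?_, ?_⟩
        · rw [Finset.mem_range]
          exact Nat.div_lt_of_lt_mul h3
        · have := Nat.div_add_mod i p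
          omega
      · rintro ⟨j, hj, rfl⟩
        rw [Finset.mem_range] at hj
        refine ⟨?_, ?_⟩
        · have h3 : p * (j + 1) ≤ p * c := Nat.mul_le_mul_left p hj
          have h4 := hp.out.one_lt
          rw [mul_add, mul_one] at h3
          omega
        · rw [Nat.ModEq, Nat.mul_add_mod]
    rw [h2, Finset.card_image_of_injective _ (fun a b hab => by
      have : p * a = p * b := Nat.add_right_cancel hab
      exact Nat.eq_of_mul_eq_mul_left hp.out.pos this), Finset.card_range]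
  rw [h1, mul_comm]

/-- distinct exponents give distinct cosets, also modulo `T` -/
theorem cos_expo {D T : Subgroup G} (hD : IsPGroup p D)
    (hab : ∀ x ∈ D, ∀ y ∈ D, x * y = y * x) (hT : T ≤ normalizer (D : Set G))
    (he : ¬ p ∣ (centralizer (D : Set G)).relIndex T) {Y : Subgroup G} (hYD : Y ≤ D)
    (hY : ∀ n ∈ T, ∀ y ∈ Y, n * y * n⁻¹ ∈ Y) {w : G} (hw : w ∈ D)
    (hreg : ∀ n ∈ T, n * w * n⁻¹ * w⁻¹ ∈ Y → n ∈ centralizer (D : Set G))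
    {o : ℕ} (ho : ∀ i : ℕ, w ^ i ∈ Y → o ∣ i) {δ : ℕ} (hδ : ¬ p ∣ δ) {i j : ℕ}
    (hi : i ∈ expo p o) (hj : j ∈ expo p o) {n y y' : G} (hn : n ∈ T)
    (hy : y ∈ Y) (hy' : y' ∈ Y) (h : n * (w ^ (i * δ) * y) * n⁻¹ = w ^ (j * δ) * y') :
    n ∈ centralizer (D : Set G) ∧ i = j ∧ y = y' := by
  obtain ⟨hio, hi1⟩ := mem_expo.1 hi
  obtain ⟨hjo, hj1⟩ := mem_expo.1 hj
  have hip : ¬ p ∣ i := by
    intro hd
    have h1 := (Nat.modEq_zero_iff_dvd.2 hd).symm.trans hi1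
    have h2 := (Nat.modEq_zero_iff_dvd.1 h1.symm)
    exact hp.out.one_lt.ne' (Nat.dvd_one.1 h2)
  have ha : ¬ p ∣ i * δ := fun hd => by
    rcases (Nat.Prime.dvd_mul hp.out).1 hd with h1 | h1
    · exact hip h1
    · exact hδ h1
  obtain ⟨h1, h2, h3⟩ := cos_eq hD hab hT he hYD hY hw hreg ha
    ((hi1.trans hj1.symm).mul_right δ) hn hy hy' h
  -- `w ^ ((i - j) δ) ∈ Y`
  have key : ∀ i j : ℕ, i < o → j < o → i ≤ j → w ^ (i * δ) * (w ^ (j * δ))⁻¹ ∈ Y → i = j := by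
    intro i j hi hj hij h2
    have h4 : w ^ ((j - i) * δ) ∈ Y := by
      have h5 := inv_mem h2
      have h6 : (w ^ (i * δ) * (w ^ (j * δ))⁻¹)⁻¹ = w ^ ((j - i) * δ) := by
        rw [mul_inv_rev, inv_inv, Nat.sub_mul, pow_sub w (Nat.mul_le_mul_right δ hij)]
      rwa [h6] at h5
    -- remove `δ`
    obtain ⟨m, hm⟩ := hD ⟨w, hw⟩
    have hm' : w ^ p ^ m = 1 := congrArg Subtype.val hm
    have hco : Nat.Coprime δ (p ^ (m + 1)) := by
      apply Nat.Coprime.pow_right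
      exact ((Nat.Prime.coprime_iff_not_dvd hp.out).2 hδ).symm
    obtain ⟨t, ht⟩ := Nat.exists_mul_mod_eq_one_of_coprime hco
        (Nat.one_lt_pow (Nat.succ_ne_zero m) hp.out.one_lt)
    have ht' : δ * t ≡ 1 [MOD p ^ m] := by
      have : δ * t ≡ 1 [MOD p ^ (m + 1)] := by
        rw [Nat.ModEq, ht.2,
          Nat.mod_eq_of_lt (Nat.one_lt_pow (Nat.succ_ne_zero m) hp.out.one_lt)]
      exact this.of_dvd (pow_dvd_pow p (Nat.le_succ m))
    have h5 := pow_mem h4 t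
    rw [← pow_mul, mul_assoc] at h5
    have h6 : w ^ ((j - i) * (δ * t)) = w ^ (j - i) := by
      have h7 : (j - i) * (δ * t) ≡ (j - i) * 1 [MOD p ^ m] := ht'.mul_left _
      rw [mul_one] at h7
      exact pow_eq_pow_iff_modEq.2 (h7.of_dvd (orderOf_dvd_of_pow_eq_one hm'))
    rw [h6] at h5
    have h7 := Nat.eq_zero_of_dvd_of_lt (ho _ h5) (by omega)
    omega
  have h4 : i = j := by
    rcases le_total i j with hij | hij
    · exact key i j hio hjo hij h2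
    · refine (key j i hjo hio hij ?_).symm
      have h5 := inv_mem h2
      rwa [mul_inv_rev, inv_inv] at h5
  refine ⟨h1, h4, ?_⟩
  rw [h4] at h3
  exact mul_left_cancel h3

end

end P179H967
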