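import Vale.Agent.P179.R2.H967.Sur1

/-!
# The trace of a central element of `k C_G(x)` in the block below, `x` fixed by the inertial group
-/

namespace P179H967

open Subgroup Finset P179H524 P179C P179A P179P P179Y P179I P179H12 P179H452

open scoped Classical

universe u

section

variable {p : ℕ} [hp : Fact p.Prime] {k : Type u} [Field k] [IsAlgClosed k] [CharP k p]
  {G : Type} [Group G] [Fintype G]

omit hp [CharP k p] in
/-- the conjugate block, with its function -/
theorem exists_conj_block' {l : (G → k) → k} {g u v : G} (h : g * u * g⁻¹ = v)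
    (hl : MulH (centralizer {u}) l) {b : MonoidAlgebra k (centralizer {u})} (hb : IsBlock b)
    (hlb : Low (centralizer {u}) l b) :
    ∃ b' : MonoidAlgebra k (centralizer {v}), IsBlock b' ∧ Low (centralizer {v}) (mu l g) b' ∧
      bF (centralizer {v}) b' = cj g (bF (centralizer {u}) b) := by
  obtain ⟨b', hb', hlb'⟩ := exists_blk (mulH_mu h hl)
  set θ := cEq g u v h with hθ
  have h1 : IsBlock (MonoidAlgebra.domCongr k k θ b) := P179H443.isBlock_map' _ hb
  have hco : ∀ x, (MonoidAlgebra.domCongr k k θ b).coeff (θ x) = b.coeff x := by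
    intro x
    refine (MonoidAlgebra.coeff_domCongr _ _ _).trans ?_
    rw [MulEquiv.symm_apply_apply]
  have h2 : bF (centralizer {v}) (MonoidAlgebra.domCongr k k θ b) =
      cj g (bF (centralizer {u}) b) := by
    have h3 : MonoidAlgebra.domCongr k k θ b =
        mkF fun x : centralizer {v} => cj g (bF (centralizer {u}) b) x := by
      ext y
      rw [coeff_mkF]
      refine (MonoidAlgebra.coeff_domCongr _ _ _).trans ?_
      unfold cj
      exact (P179Y.ext_coe (centralizer {u}) (fun h => b.coeff h) (θ.symm y)).symm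
    rw [h3]
    exact bF_mkF _ (invOn_cjc' h (invOn_bF hb.1)).2
  have h3 : MonoidAlgebra.domCongr k k θ b = b' := by
    refine hlb'.unique hb' h1 ?_
    unfold mu
    rw [h2, ← cj_mul, inv_mul_cancel, cj_one, hlb.one hb]
    exact one_ne_zero
  exact ⟨b', hb', hlb', by rw [← h3]; exact h2⟩

/-- the functional of a pair `(Q, e)` on the functions invariant under `C_G(v)`, `v ∈ Q` -/
theorem pair_eq {Q : Subgroup G} (hQ : IsPGroup p Q) (hQab : Q ≤ centralizer (Q : Set G))
    {e : MonoidAlgebra k (centralizer (Q : Set G) : Subgroup G)} (he : IsBlock e)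
    {R : Subgroup G} {m : (G → k) → k} (hm : BP p R m)
    (hme : ∀ z : G → k, IsCF (fun h : (centralizer (Q : Set G) : Subgroup G) => z h) →
        m z = centralChar e (mkF fun h : (centralizer (Q : Set G) : Subgroup G) => z h))
    {v : G} (hv : v ∈ Q) {m' : (G → k) → k}
    {b' : MonoidAlgebra k (centralizer {v} : Subgroup G)} (hb' : IsBlock b')
    (hlb' : Low (centralizer {v}) m' b')
    (hne : e * mkF (fun h : (centralizer (Q : Set G) : Subgroup G) =>
      bF (centralizer {v}) b' h) ≠ 0) :
    ∀ z, InvOn (centralizer {v}) z → m z = m' z := by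
  have hQK : Q ≤ centralizer {v} := by
    intro q hq
    rw [mem_cz]
    exact (mem_centralizer_iff.1 (hQab hq) v hv).symm
  have hCK : centralizer (Q : Set G) ≤ centralizer {v} := by
    intro q hq
    rw [mem_cz]
    exact (mem_centralizer_iff.1 hq v hv).symm
  have hM := mulH_pair hQ he hm hme hQK hCK
  have hinv := invOn_bF (H := centralizer {v}) hb'.1
  have hcf : IsCF (fun h : (centralizer (Q : Set G) : Subgroup G) =>
      bF (centralizer {v}) b' h) := fun c x => hinv.1 c (hCK c.2) x
  refine hlb'.eq_of_ne hM hb' ?_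
  rw [hme _ hcf, (centralChar_of_mul_ne he (mkF_mem hcf) ?_ hne).1]
  · exact one_ne_zero
  · rw [← mkF_conv, ← conv_restr hQ (fun d hd => hinv.1 d (hQK hd))
      (fun d hd => hinv.1 d (hQK hd)), conv_bF_self hb']

variable {D : Subgroup G} {l : (G → k) → k}

/-- **the trace from `C_G(x)`, `x ∈ D` fixed by `T`, followed by the projection to `B`, is injective
on the centre of the block below** -/
theorem trace_inj (hl : BP p D l) (hD : IsPGroup p D) (hab : D ≤ centralizer (D : Set G))
    (hT : ¬ p ∣ (centralizer (D : Set G)).relIndex (stabT D l)) {x : G} (hx : x ∈ D)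
    (hxT : ∀ t ∈ stabT D l, t * x * t⁻¹ = x) {B : MonoidAlgebra k G} (hB : IsBlock B)
    (hlB : ∀ z : G → k, IsCF z → l z = centralChar B (mkF z))
    {b : MonoidAlgebra k (centralizer {x} : Subgroup G)} (hb : IsBlock b)
    (hlb : Low (centralizer {x}) l b) {f : G → k} (hf : InvOn (centralizer {x}) f)
    (hbf : conv (bF (centralizer {x}) b) f = f)
    (h0 : conv (fun g => B.coeff g) (trG (centralizer {x}) f) = 0) : f = 0 := by
  by_contra hf0
  set K : Subgroup G := centralizer {x} with hK
  have hDab : ∀ a ∈ D, ∀ b ∈ D, a * b = b * a := fun a ha b hb =>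
    mem_centralizer_iff.1 (hab hb) a ha
  have hCDK : centralizer (D : Set G) ≤ K := by
    intro c hc
    rw [hK, mem_cz]
    exact (mem_centralizer_iff.1 hc x hx).symm
  have hmlK : MulH K l := BP.mulH hl hD hab hCDK
  have hxK : x ∈ K := by rw [hK, mem_cz]
  have hxp : ∃ n : ℕ, x ^ p ^ n = 1 := by
    obtain ⟨n, hn⟩ := hD ⟨x, hx⟩
    exact ⟨n, by simpa using congrArg Subtype.val hn⟩
  -- a maximal subgroup
  set P : Subgroup G → Prop := fun Q => IsPGroup p Q ∧ Q ≤ centralizer (Q : Set G) ∧ Q ≤ K ∧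
    ∃ y ∈ centralizer (Q : Set G), f y ≠ 0 with hP
  obtain ⟨Q, hQP, hQmax⟩ := (univ.filter P).exists_max_image (fun Q => Nat.card Q) (by
    refine ⟨⊥, mem_filter.2 ⟨mem_univ _, IsPGroup.of_bot, bot_le, bot_le, ?_⟩⟩
    obtain ⟨y, hy⟩ := Function.ne_iff.1 hf0
    refine ⟨y, ?_, hy⟩
    rw [mem_centralizer_iff]
    rintro h hh
    rw [SetLike.mem_coe, Subgroup.mem_bot] at hh
    rw [hh, one_mul, mul_one])
  obtain ⟨-, hQ, hQab, hQK, y₀, hy₀, hfy₀⟩ := mem_filter.1 hQP
  have hmaxx : ∀ Q' : Subgroup G, P Q' → Nat.card Q' = Nat.card Q → x ∈ Q' := by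
    rintro Q' ⟨h1, h2, h3, y, hy, hfy⟩ hcard
    have hzx : IsPGroup p (zpowers x) := by
      obtain ⟨n, hn⟩ := hxp
      rintro ⟨_, i, rfl⟩
      refine ⟨n, Subtype.ext ?_⟩
      change (x ^ i) ^ p ^ n = 1
      rw [← zpow_natCast, ← zpow_mul, _root_.mul_comm, zpow_mul, zpow_natCast, hn, one_zpow]
    have hcomm : ∀ q ∈ Q', q * x = x * q := fun q hq => mem_cz.1 (h3 hq)
    have hQn : Q' ≤ normalizer (zpowers x : Set G) := by
      intro q hq
      rw [mem_normalizer_iff]
      have h4 : ∀ w, w ∈ zpowers x → q * w * q⁻¹ = w := by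
        rintro _ ⟨i, rfl⟩
        have h5 : Commute q (x ^ i) := (show Commute q x from hcomm q hq).zpow_right i
        change q * x ^ i * q⁻¹ = x ^ i
        rw [h5.eq]; group
      intro w
      constructor
      · intro hw
        rw [h4 w hw]
        exact hw
      · intro hw
        obtain ⟨i, hi⟩ := hw
        have h5 : Commute q (x ^ i) := (show Commute q x from hcomm q hq).zpow_right i
        have h6 : w = x ^ i := by
          have h7 : w = q⁻¹ * (q * w * q⁻¹) * q := by group
          rw [h7, ← hi]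
          change q⁻¹ * x ^ i * q = x ^ i
          rw [_root_.mul_assoc, ← h5.eq]; group
        rw [h6]
        exact ⟨i, rfl⟩
    have hp2 : IsPGroup p (Q' ⊔ zpowers x : Subgroup G) :=
      IsPGroup.to_sup_of_normal_right' h1 hzx hQn
    have hsup : Q' ⊔ zpowers x = closure ((Q' : Set G) ∪ {x}) := by
      rw [Subgroup.closure_union, Subgroup.closure_eq, ← zpowers_eq_closure]
    have hcl : ∀ c : G, (∀ q ∈ Q', q * c = c * q) → x * c = c * x →
        c ∈ centralizer ((Q' ⊔ zpowers x : Subgroup G) : Set G) := by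
      intro c hc hcx
      rw [hsup, mem_centralizer_iff]
      intro w hw
      have h8 : closure ((Q' : Set G) ∪ {x}) ≤ centralizer {c} := by
        rw [closure_le]
        rintro w (hw | hw)
        · exact mem_cz.2 (hc w hw)
        · rw [Set.mem_singleton_iff] at hw
          subst hw
          exact mem_cz.2 hcx
      exact mem_cz.1 (h8 hw)
    have hP2 : P (Q' ⊔ zpowers x) := by
      refine ⟨hp2, ?_, ?_, y, ?_, hfy⟩
      · refine sup_le ?_ ?_
        · intro q hq
          exact hcl q (fun q' hq' => mem_centralizer_iff.1 (h2 hq) q' hq') (hcomm q hq).symm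
        · rw [zpowers_le]
          exact hcl x hcomm rfl
      · refine sup_le h3 ?_
        rw [zpowers_le]
        exact hxK
      · refine hcl y (fun q hq => mem_centralizer_iff.1 hy q hq) ?_
        have h9 : y ∈ K := by
          by_contra hcon
          exact hfy (hf.2 y hcon)
        exact (mem_cz.1 h9).symm
    have h10 := hQmax _ (mem_filter.2 ⟨mem_univ _, hP2⟩)
    rw [← hcard] at h10
    have h11 := Subgroup.eq_of_le_of_card_ge (le_sup_left : Q' ≤ Q' ⊔ zpowers x) h10
    rw [h11]
    exact (le_sup_right : zpowers x ≤ Q' ⊔ zpowers x) (mem_zpowers x)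
  have hxQ : x ∈ Q := hmaxx Q ⟨hQ, hQab, hQK, y₀, hy₀, hfy₀⟩ rfl
  have hCQK : centralizer (Q : Set G) ≤ K := by
    intro c hc
    rw [hK, mem_cz]
    exact (mem_centralizer_iff.1 hc x hxQ).symm
  set C : Subgroup G := centralizer (Q : Set G) with hC
  -- a block
  obtain ⟨e, he, hef⟩ := exists_block_mul (p := p) (y := mkF fun h : C => f h) (by
    intro h
    apply hfy₀
    have h1 : (mkF fun h : C => f h).coeff ⟨y₀, hy₀⟩ = 0 := by rw [h]; rfl
    rwa [coeff_mkF] at h1)
  obtain ⟨R, m, hm, hR, hQR, hCRQ, hme⟩ := exists_pair hQ hQab he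
  have hbinv := invOn_bF (H := K) hb.1
  -- the pair contains `(x, b)`
  have hres : ∀ a c : G → k, (∀ d ∈ Q, ∀ x, a (d * x * d⁻¹) = a x) →
      (∀ d ∈ Q, ∀ x, c (d * x * d⁻¹) = c x) →
      mkF (fun h : C => conv a c h) = mkF (fun h : C => a h) * mkF (fun h : C => c h) := by
    intro a c ha hc
    rw [← mkF_conv]
    congr 1
    exact conv_restr hQ ha hc
  have hmx : ∀ z, InvOn (centralizer {x}) z → m z = l z := by
    refine pair_eq hQ hQab he hm hme hxQ hb hlb ?_
    intro h
    apply hef
    rw [← hbf, hres _ _ (fun d hd => hbinv.1 d (hQK hd)) (fun d hd => hf.1 d (hQK hd)),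
      ← _root_.mul_assoc, h, zero_mul]
  have hml : ∀ z, IsCF z → m z = l z := by
    intro z hz
    have h1 : InvOn K (fun y => if y ∈ K then z y else 0) := by
      refine ⟨fun c hc y => ?_, fun y hy => if_neg hy⟩
      have h2 : c * y * c⁻¹ ∈ K ↔ y ∈ K := by
        constructor
        · intro h
          have := mul_mem (mul_mem (inv_mem hc) h) hc
          have h3 : c⁻¹ * (c * y * c⁻¹) * c = y := by group
          rwa [h3] at this
        · intro h
          exact mul_mem (mul_mem hc h) (inv_mem hc)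
      simp only [h2, hz c y]
    have h2 := hmx _ h1
    rw [hm.congr (b := z) (fun y hy => if_pos (hCQK (hCRQ hy))),
      hl.congr (b := z) (fun y hy => if_pos (hCDK hy))] at h2
    exact h2
  obtain ⟨g₀, hg₀, hg₀l⟩ := P179Y.FDc hl hD hDab hT hm hR hml
  -- the functional of the pair on the functions invariant under `C_G(v)`, `v ∈ Q`
  have hmg₀ : ∀ v ∈ Q, ∀ z, InvOn (centralizer {v}) z → m z = mu l g₀ z := by
    intro v hv z hz
    have hvR := hQR hv
    have hvD : g₀⁻¹ * v * g₀ ∈ D := (hg₀ v).1 hvR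
    have hCv : centralizer (D : Set G) ≤ centralizer {g₀⁻¹ * v * g₀} := by
      intro c hc
      rw [mem_cz]
      exact (mem_centralizer_iff.1 hc _ hvD).symm
    have he : g₀ * (g₀⁻¹ * v * g₀) * g₀⁻¹ = v := by group
    have hz' := invOn_cjc he hz
    have h1 : InvOn (centralizer (D : Set G)) (cutC D (cj g₀⁻¹ z)) := by
      refine ⟨fun c hc y => ?_, fun y hy => if_neg hy⟩
      have h2 : c * y * c⁻¹ ∈ centralizer (D : Set G) ↔ y ∈ centralizer (D : Set G) := by
        constructor
        · intro h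
          have := mul_mem (mul_mem (inv_mem hc) h) hc
          have h3 : c⁻¹ * (c * y * c⁻¹) * c = y := by group
          rwa [h3] at this
        · intro h
          exact mul_mem (mul_mem hc h) (inv_mem hc)
      unfold cutC
      simp only [h2, hz'.1 c (hCv hc) y]
    have h2 := hg₀l _ h1
    rw [hl.cut] at h2
    unfold mu
    rw [← h2]
    refine hm.congr fun y hy => ?_
    have h3 : g₀⁻¹ * y * g₀ ∈ centralizer (D : Set G) := by
      rw [mem_centralizer_iff]
      intro d hd
      have hdR : g₀ * d * g₀⁻¹ ∈ R := by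
        rw [hg₀]
        have h4 : g₀⁻¹ * (g₀ * d * g₀⁻¹) * g₀ = d := by group
        rw [h4]
        exact hd
      have h5 := mem_centralizer_iff.1 hy _ hdR
      calc d * (g₀⁻¹ * y * g₀) = g₀⁻¹ * (g₀ * d * g₀⁻¹ * y) * g₀ := by group
        _ = g₀⁻¹ * y * g₀ * d := by rw [h5]; group
    change z y = cutC D (cj g₀⁻¹ z) (g₀⁻¹ * y * g₀)
    have h6 : cutC D (cj g₀⁻¹ z) (g₀⁻¹ * y * g₀) = cj g₀⁻¹ z (g₀⁻¹ * y * g₀) := if_pos h3
    rw [h6]
    unfold cj
    congr 1
    group
  -- fusion
  have hfus : ∀ g : G, g * x * g⁻¹ ∈ Q → (∀ z, InvOn (centralizer {g * x * g⁻¹}) z →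
      m z = mu l g z) → g₀ * x * g₀⁻¹ = g * x * g⁻¹ := by
    intro g hg hz
    set v := g * x * g⁻¹ with hv
    have h1 : g⁻¹ * v * g = x := by rw [hv]; group
    have hvD : g₀⁻¹ * v * g₀ ∈ D := (hg₀ v).1 (hQR hg)
    obtain ⟨t, ht, hc⟩ := fuse hl hD hab hT (v := v) (g := g) (g' := g₀) (by rw [h1]; exact hx) hvD
      fun z hz' => by rw [← hz z hz', hmg₀ v hg z hz']
    have h2 := mem_cz.1 hc
    have h3 : t⁻¹ * x * t = x := by
      have := hxT _ (inv_mem ht)
      rwa [inv_inv] at this
    have h4 : g₀ * t⁻¹ * g⁻¹ * v * (g₀ * t⁻¹ * g⁻¹)⁻¹ = v := by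
      rw [h2]; group
    have h5 : g₀ * t⁻¹ * g⁻¹ * v * (g₀ * t⁻¹ * g⁻¹)⁻¹ = g₀ * (t⁻¹ * (g⁻¹ * v * g) * t) * g₀⁻¹ := by
      group
    rw [h5, h1, h3] at h4
    exact h4
  have hg₀x : g₀ * x * g₀⁻¹ = x := by
    have h1 := hfus 1 (by rw [one_mul, inv_one, mul_one]; exact hxQ) (fun z hz => by
      rw [one_mul, inv_one, mul_one] at hz
      unfold mu
      rw [inv_one, cj_one]
      exact hmx z hz)
    rw [one_mul, inv_one, mul_one] at h1
    exact h1
  -- the summands
  have hzero : ∀ g : G, (∀ q ∈ Q, g⁻¹ * q * g ∈ K) → g ∉ K →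
      e * mkF (fun h : C => cj g f h) = 0 := by
    intro g hgQ hgK
    by_contra hne
    apply hgK
    -- the conjugate of `Q`
    have hex : ∃ h : C, cj g f h ≠ 0 := by
      by_contra hcon
      push Not at hcon
      apply hne
      have : (fun h : C => cj g f h) = 0 := funext hcon
      rw [this]
      have h0' : mkF (0 : C → k) = 0 := by
        ext y
        rw [coeff_mkF]; rfl
      rw [h0', mul_zero]
    obtain ⟨h, hh⟩ := hex
    set Q' : Subgroup G := Q.map (MulAut.conj g⁻¹).toMonoidHom with hQ'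
    have hmemQ' : ∀ w, w ∈ Q' ↔ g * w * g⁻¹ ∈ Q := by
      intro w
      rw [hQ']
      constructor
      · rintro ⟨q, hq, rfl⟩
        have h1 : g * ((MulAut.conj g⁻¹).toMonoidHom q) * g⁻¹ = q := by
          change g * (g⁻¹ * q * g⁻¹⁻¹) * g⁻¹ = q
          group
        rw [h1]
        exact hq
      · intro hw
        refine ⟨_, hw, ?_⟩
        change g⁻¹ * (g * w * g⁻¹) * g⁻¹⁻¹ = w
        group
    have hcardQ' : Nat.card Q' = Nat.card Q :=
      Nat.card_congr (Q.equivMapOfInjective _ (MulAut.conj g⁻¹).injective).symm.toEquiv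
    have hcent : ∀ c, c ∈ centralizer (Q' : Set G) ↔ g * c * g⁻¹ ∈ centralizer (Q : Set G) := by
      intro c
      rw [mem_centralizer_iff, mem_centralizer_iff]
      constructor
      · intro h1 q hq
        have h2 : g⁻¹ * q * g ∈ Q' := by
          rw [hmemQ']
          have : g * (g⁻¹ * q * g) * g⁻¹ = q := by group
          rwa [this]
        have h3 := h1 _ h2
        calc q * (g * c * g⁻¹) = g * (g⁻¹ * q * g * c) * g⁻¹ := by group
          _ = g * c * g⁻¹ * q := by rw [h3]; group
      · intro h1 w hw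
        have h3 := h1 _ ((hmemQ' w).1 hw)
        calc w * c = g⁻¹ * (g * w * g⁻¹ * (g * c * g⁻¹)) * g := by group
          _ = c * w := by rw [h3]; group
    have hPQ' : P Q' := by
      refine ⟨hQ.map _, ?_, ?_, g⁻¹ * h * g, ?_, ?_⟩
      · intro w hw
        rw [hcent]
        exact hQab ((hmemQ' w).1 hw)
      · intro w hw
        have h1 := hgQ _ ((hmemQ' w).1 hw)
        have h2 : g⁻¹ * (g * w * g⁻¹) * g = w := by group
        rwa [h2] at h1
      · rw [hcent]
        have h1 : g * (g⁻¹ * (h : G) * g) * g⁻¹ = h := by group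
        rw [h1]
        exact h.2
      · exact hh
    have hv : g * x * g⁻¹ ∈ Q := (hmemQ' x).1 (hmaxx Q' hPQ' hcardQ')
    obtain ⟨b', hb', hlb', hbb'⟩ := exists_conj_block' (rfl : g * x * g⁻¹ = g * x * g⁻¹) hmlK hb hlb
    have hb'inv := invOn_bF (H := centralizer {g * x * g⁻¹}) hb'.1
    have hQv : Q ≤ centralizer {g * x * g⁻¹} := by
      intro q hq
      rw [mem_cz]
      exact (mem_centralizer_iff.1 (hQab hq) _ hv).symm
    have hcjf : ∀ d ∈ Q, ∀ y, cj g f (d * y * d⁻¹) = cj g f y := by
      intro d hd y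
      unfold cj
      have h1 := hf.1 _ (hgQ d hd) (g⁻¹ * y * g)
      rw [← h1]
      congr 1
      group
    have h1 := pair_eq hQ hQab he hm hme hv hb' hlb' (by
      intro h2
      apply hne
      have h3 : cj g f = conv (bF (centralizer {g * x * g⁻¹}) b') (cj g f) := by
        rw [hbb', ← cj_conv, hbf]
      rw [h3, hres _ _ (fun d hd => hb'inv.1 d (hQv hd)) hcjf, ← _root_.mul_assoc, h2, zero_mul])
    have h2 := hfus g hv h1
    rw [hg₀x] at h2
    rw [hK, mem_cz]
    calc g * x = g * x * g⁻¹ * g := by group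
      _ = x * g := by rw [← h2]
  -- the sum
  have hBcf : IsCF (fun g => B.coeff g) := (P179C.mem_center_iff _).1 hB.1
  have hF : IsCF (trG K f) := isCF_trG K hf.1
  have heB : e * mkF (fun h : C => B.coeff h) = e := by
    have h1 : IsCF (fun h : C => B.coeff (h : G)) := fun c y => hBcf c y
    have h2 := hme (fun g => B.coeff g) h1
    rw [hml _ hBcf, hlB _ hBcf, mkF_coeff, centralChar_self B hB] at h2
    refine P179R.mul_eq_self_of_centralChar he (mkF_mem h1) ?_ h2.symm
    rw [← hres _ _ (fun d _ => hBcf d) (fun d _ => hBcf d)]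
    congr 1
    funext y
    rw [← coeff_mul_eq_conv, hB.2.1]
  have h1 : e * mkF (fun h : C => trG K f h) = 0 := by
    have h2 := hres (fun g => B.coeff g) (trG K f) (fun d _ => hBcf d) (fun d _ => hF d)
    rw [h0] at h2
    have h0' : mkF (fun h : C => (0 : G → k) h) = 0 := by
      ext y
      rw [coeff_mkF]; rfl
    rw [h0'] at h2
    calc e * mkF (fun h : C => trG K f h)
        = e * mkF (fun h : C => B.coeff h) * mkF (fun h : C => trG K f h) := by rw [heB]
      _ = 0 := by rw [_root_.mul_assoc, ← h2, mul_zero]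
  have h2 : mkF (fun h : C => trG K f h) = ∑ t : G ⧸ K, mkF (fun h : C => cj t.out f h) := by
    ext y
    rw [coeff_mkF, MonoidAlgebra.coeff_sum, Finsupp.finsetSum_apply]
    simp only [coeff_mkF]
    rfl
  rw [h2, Finset.mul_sum] at h1
  apply hef
  have h3 : e * mkF (fun h : C => f h) = e * mkF (fun h : C => cj ((1 : G) : G ⧸ K).out f h) := by
    congr 2
    funext y
    unfold cj
    rw [apply_out hf.1 1 (y : G)]
    simp
  rw [h3]
  ext y
  have h4 := congrArg (fun z : MonoidAlgebra k C => z.coeff y) h1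
  simp only [MonoidAlgebra.coeff_sum, Finsupp.finsetSum_apply] at h4
  change _ = (0 : k)
  have hout : ∀ (g : G), (fun h : C => cj ((g : G) : G ⧸ K).out f h) =
      fun h : C => cj g f h := by
    intro g
    funext h
    exact apply_out hf.1 g (h : G)
  have hQ1 : ∀ q ∈ Q, ((q : G) : G ⧸ K) = ((1 : G) : G ⧸ K) := by
    intro q hq
    rw [QuotientGroup.eq]
    simpa using inv_mem (hQK hq)
  have h5 : ∑ t : G ⧸ K, (if t = ((1 : G) : G ⧸ K) then 0 else
      (e * mkF (fun h : C => cj t.out f h)).coeff y) = 0 := by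
    refine sum_eq_zero_of_perm p hQ
      ((MulAction.toPermHom G (G ⧸ K)).comp Q.subtype) _ ?_ ?_
    · intro q t
      induction t using QuotientGroup.induction_on with
      | H g =>
      have e1 : ((MulAction.toPermHom G (G ⧸ K)).comp Q.subtype) q (g : G ⧸ K) =
          ((q * g : G) : G ⧸ K) := rfl
      rw [e1, hout, hout]
      have e2 : ((q * g : G) : G ⧸ K) = ((1 : G) : G ⧸ K) ↔ (g : G ⧸ K) = ((1 : G) : G ⧸ K) := by
        rw [QuotientGroup.eq, QuotientGroup.eq, mul_one, mul_one, inv_mem_iff, inv_mem_iff]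
        constructor
        · intro h
          have := mul_mem (inv_mem (hQK q.2)) h
          rwa [inv_mul_cancel_left] at this
        · intro h
          exact mul_mem (hQK q.2) h
      have e3 : (fun h : C => cj ((q : G) * g) f h) = fun h : C => cj g f h := by
        funext h
        unfold cj
        congr 1
        have e4 := mem_centralizer_iff.1 h.2 _ q.2
        calc ((q : G) * g)⁻¹ * h * ((q : G) * g) = g⁻¹ * ((q : G)⁻¹ * ((h : G) * q)) * g := by group
          _ = g⁻¹ * h * g := by rw [← e4]; group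
      simp only [e2, e3]
    · intro t ht
      induction t using QuotientGroup.induction_on with
      | H g =>
      by_cases hg : (g : G ⧸ K) = ((1 : G) : G ⧸ K)
      · rw [if_pos hg]
      · rw [if_neg hg, hout]
        have e1 : ∀ q ∈ Q, g⁻¹ * q * g ∈ K := by
          intro q hq
          have e2 : ((q * g : G) : G ⧸ K) = (g : G ⧸ K) := ht ⟨q, hq⟩
          rw [QuotientGroup.eq] at e2
          have e3 := inv_mem e2
          have e4 : ((q * g)⁻¹ * g)⁻¹ = g⁻¹ * q * g := by group
          rwa [e4] at e3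
        rw [hzero g e1 (fun h => hg (by
          rw [QuotientGroup.eq, mul_one]
          exact inv_mem h))]
        rfl
  have h6 : ∑ t : G ⧸ K, (e * mkF (fun h : C => cj t.out f h)).coeff y =
      (∑ t : G ⧸ K, (if t = ((1 : G) : G ⧸ K) then 0 else
        (e * mkF (fun h : C => cj t.out f h)).coeff y)) +
      (e * mkF (fun h : C => cj ((1 : G) : G ⧸ K).out f h)).coeff y := by
    rw [← Finset.sum_erase_add _ _ (mem_univ ((1 : G) : G ⧸ K)),
      ← Finset.sum_erase_add _ _ (mem_univ ((1 : G) : G ⧸ K)), if_pos rfl, add_zero]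
    congr 1
    refine Finset.sum_congr rfl fun t ht => ?_
    rw [if_neg (Finset.ne_of_mem_erase ht)]
  rw [h6, h5, zero_add] at h4
  exact h4

end

end P179H967
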