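import Vale.Agent.P179.H905.K4

/-!
# Equality when the elements which are not regular lie in one proper subgroup
-/

namespace P179H967

open P179H524 P179C P179A Finset P179P Subgroup P179Y P179I

open P179B (inertialGroup inertialIndex regularElements)

open scoped Classical IsMulCommutative

section

variable {p : ℕ} [hp : Fact p.Prime] {k : Type*} [Field k] [IsAlgClosed k] [CharP k p]
  (red : integralClosure ℤ ℂ →+* k) {G : Type} [Group G] [Fintype G]

theorem numWeights_le {B : MonoidAlgebra k G} (hB : IsBlock B) {D : Subgroup G}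
    (hD : IsDefectGroup B D) (hab : ∀ a ∈ D, ∀ b ∈ D, a * b = b * a)
    {b : MonoidAlgebra k (centralizer (D : Set G))} (hb : IsBlock b) (hbB : InducesTo b B) :
    numWeightsIn p red B ≤ inertialIndex D b := by
  obtain ⟨hDp, -⟩ := exists_BP_of_block (p := p) B hB D hD
  obtain ⟨l, hl, hlz, hlb⟩ := exists_BP_of_subblock (p := p) hB hD hab hb hbB
  have hT := stabT_eq_inertialGroup hb hlb
  have hab' : D ≤ centralizer (D : Set G) := by
    intro x hx
    rw [mem_centralizer_iff]
    intro y hy
    exact hab y hy x hx
  have hdiv := hT_of_block hB hD hDp hab hl hlz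
  have hw := K6plus red hl hDp hab' hdiv hlz
  rw [hT] at hw
  exact hw

/-- **(WAT), small index**: the elements which are not regular lie in one proper subgroup and
`e + 2 ≤ p` -/
theorem wat_small {B : MonoidAlgebra k G} (hB : IsBlock B) {D : Subgroup G}
    (hD : IsDefectGroup B D) (hab : ∀ a ∈ D, ∀ b ∈ D, a * b = b * a)
    {b : MonoidAlgebra k (centralizer (D : Set G))} (hb : IsBlock b) (hbB : InducesTo b B)
    {K : Subgroup G} (hK : ¬ D ≤ K)
    (hcov : ∀ u ∈ D, u ≠ 1 → u ∉ regularElements D b → u ∈ K)
    (he : inertialIndex D b + 2 ≤ p) :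
    numSimpleIn B = numWeightsIn p red B ∧ numSimpleIn B ≤ p - 1 := by
  have h1 := equality_cover red hB hD hab hb hbB (s := 1) (fun _ => K) (fun _ => hK)
    (fun u hu hu1 hun => ⟨0, hcov u hu hu1 hun⟩) (by omega)
  have h2 := numWeights_le red hB hD hab hb hbB
  exact ⟨h1, by omega⟩

end

end P179H967
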