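import Vale.Agent.P179.R2.H725.Ind
import Vale.Agent.P179.H905.K1

/-!
# An element regular modulo `D ^ p`
-/

namespace P179H967

open Subgroup

open scoped Classical IsMulCommutative

section

variable {p : ℕ} [hp : Fact p.Prime] {G : Type} [Group G] [Finite G]

/-- the elements of `D` fixed by `T` -/
def fixS (D T : Subgroup G) : Subgroup G := D ⊓ centralizer (T : Set G)

omit [Finite G] in
theorem mem_fixS {D T : Subgroup G} {u : G} :
    u ∈ fixS D T ↔ u ∈ D ∧ ∀ s ∈ T, s * u * s⁻¹ = u := by
  unfold fixS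
  rw [mem_inf, mem_centralizer_iff]
  refine and_congr_right fun _ => forall_congr' fun s => imp_congr_right fun _ => ?_
  constructor
  · intro h
    rw [h]; group
  · intro h
    exact mul_inv_eq_iff_eq_mul.1 h

/-- an element of `D` regular modulo `D ^ p` -/
theorem exists_w {D T : Subgroup G} (hD : IsPGroup p D)
    (hab : ∀ x ∈ D, ∀ y ∈ D, x * y = y * x) (hT : T ≤ normalizer (D : Set G))
    (he : ¬ p ∣ (centralizer (D : Set G)).relIndex T)
    (hfix : ∀ u ∈ D, u ≠ 1 → ∀ t ∈ T, t ∉ centralizer (D : Set G) → t * u * t⁻¹ = u →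
      ∀ s ∈ T, s * u * s⁻¹ = u)
    (hne : ¬ D ≤ fixS D T) :
    ∃ w ∈ D, (∀ n ∈ T, (∃ d ∈ D, n * w * n⁻¹ * w⁻¹ = d ^ p) → n ∈ centralizer (D : Set G)) ∧
      ¬ ∃ d ∈ D, d ^ p = w := by
  have hcomm : IsMulCommutative D := ⟨⟨fun a b => Subtype.ext (hab a a.2 b b.2)⟩⟩
  obtain ⟨f, hf, hfK⟩ := P179I.exists_hom_of_lt hD hne
  obtain ⟨w, hw⟩ : ∃ w : D, f (Additive.ofMul w) ≠ 0 := by
    by_contra hcon
    push Not at hcon
    apply hf
    ext x
    exact congrArg _ (hcon x)
  have hfp : ∀ d : D, f (Additive.ofMul (d ^ p)) = 0 := by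
    intro d
    rw [ofMul_pow, map_nsmul, nsmul_eq_mul, CharP.cast_eq_zero, zero_mul]
  refine ⟨w, w.2, ?_, ?_⟩
  · intro n hn hd
    by_contra hnC
    obtain ⟨d, hdD, hd⟩ := hd
    set e := (centralizer (D : Set G)).relIndex T with hedef
    have hne' : n ^ e ∈ centralizer (D : Set G) :=
      P179H725.pow_relIndex_mem (P179H725.subgroupOf_centralizer_normal hT) hn
    let φ : D →* D :=
      { toFun := fun x => ⟨n * x * n⁻¹, (mem_normalizer_iff.1 (hT hn) x).1 x.2⟩
        map_one' := Subtype.ext (by simp)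
        map_mul' := fun x y => Subtype.ext (by simp [mul_assoc]) }
    have hφ : ∀ x : D, ((φ x : D) : G) = n * x * n⁻¹ := fun _ => rfl
    set a : ℕ → D := fun j => (φ^[j]) w with ha
    have ha0 : a 0 = w := rfl
    have hasucc : ∀ j, a (j + 1) = φ (a j) := fun j => Function.iterate_succ_apply' φ j w
    have hacoe : ∀ j, ((a j : D) : G) = n ^ j * w * (n ^ j)⁻¹ := by
      intro j
      induction j with
      | zero => rw [ha0]; simp
      | succ j ih =>
        rw [hasucc, hφ, ih, pow_succ']
        group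
    have hae : a e = w := by
      apply Subtype.ext
      rw [hacoe, ← mem_centralizer_iff.1 hne' w w.2]
      group
    have hfa : ∀ j, f (Additive.ofMul (a j)) = f (Additive.ofMul w) := by
      have h1 : ∀ j, ∃ y : D, a j = w * y ^ p := by
        intro j
        induction j with
        | zero => exact ⟨1, by rw [ha0, one_pow, mul_one]⟩
        | succ j ih =>
          obtain ⟨y, hy⟩ := ih
          refine ⟨⟨d, hdD⟩ * φ y, ?_⟩
          rw [hasucc, hy, map_mul, map_pow]
          have h2 : φ w = w * (⟨d, hdD⟩ : D) ^ p := by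
            apply Subtype.ext
            rw [hφ]
            push_cast
            rw [hab _ w.2 _ (pow_mem hdD p), ← hd]
            group
          rw [h2, mul_assoc, (mul_pow (⟨d, hdD⟩ : D) (φ y) p)]
      intro j
      obtain ⟨y, hy⟩ := h1 j
      rw [hy, ofMul_mul, map_add, hfp, add_zero]
    set w' : D := ∏ j ∈ Finset.range e, a j with hw'
    have hfw' : f (Additive.ofMul w') = (e : ZMod p) * f (Additive.ofMul w) := by
      rw [hw', ofMul_prod, map_sum, Finset.sum_congr rfl fun j _ => hfa j, Finset.sum_const,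
        Finset.card_range, nsmul_eq_mul]
    have hfw0 : f (Additive.ofMul w') ≠ 0 := by
      rw [hfw']
      refine mul_ne_zero ?_ hw
      rw [Ne, CharP.cast_eq_zero_iff (ZMod p) p]
      exact he
    have hφw' : φ w' = w' := by
      have h1 : φ w' = ∏ j ∈ Finset.range e, a (j + 1) := by
        rw [hw', map_prod]
        exact Finset.prod_congr rfl fun j _ => (hasucc j).symm
      have h2 := Finset.prod_range_succ a e
      rw [Finset.prod_range_succ' a e, hae, ha0] at h2
      rw [h1]
      exact mul_right_cancel h2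
    have hw1 : (w' : G) ≠ 1 := by
      intro h
      apply hfw0
      have : w' = 1 := Subtype.ext h
      rw [this, ofMul_one, map_zero]
    have hfix' := hfix w' w'.2 hw1 n hn hnC (congrArg Subtype.val hφw')
    exact hfw0 (hfK (Additive.ofMul w') (mem_fixS.2 ⟨w'.2, hfix'⟩))
  · rintro ⟨d, hd, hdw⟩
    apply hw
    have : w = (⟨d, hd⟩ : D) ^ p := Subtype.ext hdw.symm
    rw [this, hfp]

end

end P179H967
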