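import Vale.Agent.P179.R2.H967.Sub4
import Vale.Agent.P179.R2.H967.WatG
import Vale.Agent.P179.R2.H967.Wat
import Vale.Agent.P179.R2.H452.M7
import Vale.Agent.P179.R2.H12.We
import Vale.Agent.P179.R2.H12.Tr4
import Vale.Agent.P179.R2.H854.LocR2

/-!
# Blocks with abelian defect groups of rank two, cyclic inertial quotient and fixed points
-/

namespace P179H967

open Subgroup Finset P179H524 P179C P179A P179P P179Y P179I P179H12 P179H452 P179H854

open P179B (inertialGroup inertialIndex regularElements)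

open scoped Classical

universe u

section Top

variable {k : Type u} [Field k] [IsAlgClosed k] {G : Type} [Group G] [Fintype G]

/-- the block of the whole group, as a subgroup -/
theorem numSimpleIn_top {l : (G → k) → k} {B : MonoidAlgebra k G} (hB : IsBlock B)
    (hlz : ∀ z : G → k, IsCF z → l z = centralChar B (mkF z)) {H : Subgroup G}
    (hH : ∀ g, g ∈ H) {b : MonoidAlgebra k H} (hb : IsBlock b) (hlb : Low H l b) :
    numSimpleIn b = numSimpleIn B := by
  let θ : H ≃* G :=
    { toFun := fun x => x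
      invFun := fun x => ⟨x, hH x⟩
      left_inv := fun _ => rfl
      right_inv := fun _ => rfl
      map_mul' := fun _ _ => rfl }
  have h1 : IsBlock (MonoidAlgebra.domCongr k k θ b) := P179H443.isBlock_map' _ hb
  have hco : ∀ x, (MonoidAlgebra.domCongr k k θ b).coeff (θ x) = b.coeff x := by
    intro x
    refine (MonoidAlgebra.coeff_domCongr _ _ _).trans ?_
    rw [MulEquiv.symm_apply_apply]
  have h2 : (fun g => (MonoidAlgebra.domCongr k k θ b).coeff g) = bF H b := by
    funext g
    have h3 := hco ⟨g, hH g⟩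
    have h4 : bF H b g = b.coeff ⟨g, hH g⟩ := ext_of_mem H _ (hH g)
    rw [h4, ← h3]
    rfl
  have hBb : B = MonoidAlgebra.domCongr k k θ b := by
    by_contra hcon
    have h3 := hlb.one hb
    rw [← h2, hlz _ ((P179C.mem_center_iff _).1 h1.1), mkF_coeff,
      charBlockStmt B _ hB h1, if_neg hcon] at h3
    exact zero_ne_one h3
  rw [hBb]
  exact numSimpleIn_congr θ hco

end Top

section

variable {p : ℕ} [hp : Fact p.Prime] {k : Type u} [Field k] [IsAlgClosed k] [CharP k p]
  (red : integralClosure ℤ ℂ →+* k) {G : Type} [Group G] [Fintype G]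

include red in
/-- the blocks of the centralisers of the elements fixed by the inertial group -/
theorem le_numSimpleIn_low {D : Subgroup G} {l : (G → k) → k} (hl : BP p D l)
    (hD : IsPGroup p D) (hab : ∀ a ∈ D, ∀ b ∈ D, a * b = b * a)
    (hT : ¬ p ∣ (centralizer (D : Set G)).relIndex (stabT D l))
    (hcyc : ∃ z ∈ stabT D l, ∀ x ∈ stabT D l, x ∈ centralizer (D : Set G) ⊔ zpowers z)
    (he : (centralizer (D : Set G)).relIndex (stabT D l) = p - 1) {H : Subgroup G}
    (hDH : D ≤ H) (hTH : stabT D l ≤ H)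
    {b : MonoidAlgebra k H} (hb : IsBlock b) (hlb : Low H l b) : p - 1 ≤ numSimpleIn b := by
  have hCH : centralizer (D : Set G) ≤ H := (cent_le_stabT D l).trans hTH
  have hab' : D ≤ centralizer (D : Set G) := by
    intro x hx
    rw [mem_centralizer_iff]
    intro y hy
    exact hab y hy x hx
  have hdef := isDefectGroup_low hl hD hab hT hDH hCH hb hlb
  have habH : ∀ x ∈ D.subgroupOf H, ∀ y ∈ D.subgroupOf H, x * y = y * x := fun x hx y hy =>
    Subtype.ext (hab _ (mem_subgroupOf.1 hx) _ (mem_subgroupOf.1 hy))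
  have h1 := P179C.theoremC p red b hb (D.subgroupOf H) hdef habH
  obtain ⟨z, hz, hz1⟩ := hcyc
  have h2 := numWeightsIn_eq_index red hb hdef habH (hl.restrict hDH hCH) (Low.char hlb)
    ⟨⟨z, hTH hz⟩, (mem_stabT_lres hDH hCH _).2 hz, fun x hx => by
      rw [cent_subgroupOf_eq hDH]
      exact mem_sup_aux hCH le_rfl (hTH hz) x.2 (one_mem _)
        (show (x : G) = (1 : G)⁻¹ * x by group) (hz1 x ((mem_stabT_lres hDH hCH _).1 hx))⟩
  rw [relIndex_stabT_lres hDH hCH, inf_eq_left.2 hTH, he] at h2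
  rw [h2] at h1
  have h3 : numSimpleIn b % p = p - 1 := by
    rw [h1, Nat.mod_eq_of_lt (Nat.sub_lt hp.out.pos one_pos)]
  rw [← h3]
  exact Nat.mod_le _ _

include red in
/-- **(WAT), the index `p - 1`** -/
theorem wat_big {B : MonoidAlgebra k G} (hB : IsBlock B) {D : Subgroup G}
    (hDB : IsDefectGroup B D) (hab : ∀ a ∈ D, ∀ b ∈ D, a * b = b * a)
    {l : (G → k) → k} (hl : BP p D l) (hlz : ∀ z : G → k, IsCF z → l z = centralChar B (mkF z))
    (hp2 : p ≠ 2) (h1 : Nat.card {x : G // x ∈ D ∧ x ^ p = 1} = p ^ 2)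
    (hcyc : ∃ z ∈ stabT D l, ∀ x ∈ stabT D l, x ∈ centralizer (D : Set G) ⊔ zpowers z)
    (he : (centralizer (D : Set G)).relIndex (stabT D l) = p - 1)
    (hfix : ∀ u ∈ D, u ≠ 1 → ∀ t ∈ stabT D l, t ∉ centralizer (D : Set G) → t * u * t⁻¹ = u →
      ∀ s ∈ stabT D l, s * u * s⁻¹ = u)
    (hne : ∃ d ∈ D, ∃ s ∈ stabT D l, s * d * s⁻¹ ≠ d)
    (hK : ∃ u ∈ D, u ≠ 1 ∧ ∀ s ∈ stabT D l, s * u * s⁻¹ = u) : numSimpleIn B ≤ p - 1 := by
  have hD : IsPGroup p D := (exists_BP_of_block (p := p) B hB D hDB).1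
  have hT := hT_of_block hB hDB hD hab hl hlz
  have hab' : D ≤ centralizer (D : Set G) := by
    intro x hx
    rw [mem_centralizer_iff]
    intro y hy
    exact hab y hy x hx
  set T : Subgroup G := stabT D l with hTdef
  set C : Subgroup G := centralizer (D : Set G) with hCdef
  have hTN : T ≤ normalizer (D : Set G) := stabT_le_norm D l
  have hCT : C ≤ T := cent_le_stabT D l
  have hcomm : IsMulCommutative D := ⟨⟨fun a b => Subtype.ext (hab a a.2 b b.2)⟩⟩
  have hp3 : 3 ≤ p := by
    have := hp.out.two_le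
    omega
  -- `K`
  set K : Subgroup G := fixS D T with hKdef
  have hKD : K ≤ D := fun x hx => (mem_fixS.1 hx).1
  have hneK : ¬ D ≤ K := by
    obtain ⟨d, hd, s, hs, hsd⟩ := hne
    exact fun h => hsd ((mem_fixS.1 (h hd)).2 s hs)
  have hreg : ∀ u ∈ D, u ∉ K → RegT D l u ∧ u ≠ 1 := by
    intro u hu huK
    have hu1 : u ≠ 1 := fun h => huK (by rw [h]; exact one_mem _)
    refine ⟨⟨hu, fun n hn hnu => ?_⟩, hu1⟩
    by_contra hnC
    exact huK (mem_fixS.2 ⟨hu, hfix u hu hu1 n hn hnC hnu⟩)
  -- the element `w`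
  obtain ⟨w, hwD, hwreg, hwp⟩ := exists_w hD hab hTN hT hfix hneK
  -- the subgroup of the `p`-th powers
  let Y : Subgroup D :=
    { carrier := {y | ∃ d : D, d ^ p ^ 1 = y}
      one_mem' := ⟨1, one_pow _⟩
      mul_mem' := by
        rintro _ _ ⟨a, rfl⟩ ⟨b, rfl⟩
        have hcab : Commute a b := Subtype.ext (hab a a.2 b b.2)
        exact ⟨a * b, hcab.mul_pow _⟩
      inv_mem' := by
        rintro _ ⟨a, rfl⟩
        exact ⟨a⁻¹, inv_pow _ _⟩ }
  have hYj : ∀ y : D, y ∈ Y ↔ ∃ d : D, d ^ p ^ 1 = y := fun y => Iff.rfl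
  -- the cardinality of `D`
  have hcardY : Nat.card D = p ^ 2 * Nat.card Y := by
    let f : D →* D :=
      { toFun := fun d => d ^ p
        map_one' := one_pow _
        map_mul' := fun a b => by
          have hcab : Commute a b := Subtype.ext (hab a a.2 b b.2)
          exact hcab.mul_pow _ }
    have h2 : Nat.card f.range = Nat.card Y := by
      congr 1
      have : f.range = Y := by
        ext y
        rw [MonoidHom.mem_range, hYj]
        simp only [pow_one]
        rfl
      rw [this]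
    have h3 : Nat.card f.ker = p ^ 2 := by
      rw [← h1]
      refine Nat.card_congr
        { toFun := fun x => ⟨(x : D), x.1.2, congrArg Subtype.val (MonoidHom.mem_ker.1 x.2)⟩
          invFun := fun x => ⟨⟨x.1, x.2.1⟩, MonoidHom.mem_ker.2 (Subtype.ext x.2.2)⟩
          left_inv := fun x => rfl
          right_inv := fun x => rfl }
    have h4 := Subgroup.card_mul_index f.ker
    rw [Subgroup.index_ker, h3, h2] at h4
    exact h4.symm
  -- the regular elements
  have hKp : Nat.card K * p ≤ Nat.card D := by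
    have h2 : (K.subgroupOf D).index ≠ 1 := fun h => hneK (relIndex_eq_one.1 h)
    obtain ⟨n, hn⟩ := (IsPGroup.iff_card (p := p)).1 hD
    have h3 : (K.subgroupOf D).index ∣ p ^ n := hn ▸ index_dvd_card _
    obtain ⟨i, -, hi⟩ := (Nat.dvd_prime_pow hp.out).1 h3
    have hi0 : i ≠ 0 := by
      rintro rfl
      exact h2 (by rw [hi, pow_zero])
    have h4 := Subgroup.card_mul_index (K.subgroupOf D)
    have h5 : Nat.card (K.subgroupOf D) = Nat.card K :=
      Nat.card_congr (Subgroup.subgroupOfEquivOfLe hKD).toEquiv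
    rw [h5, hi] at h4
    rw [← h4]
    exact Nat.mul_le_mul_left _ (Nat.le_self_pow hi0 p)
  have hWr : Nat.card D ≤ Nat.card (Wr D l) + Nat.card K := by
    have h2 : Nat.card D ≤ Nat.card (Wr D l ⊕ K) := by
      refine Nat.card_le_card_of_injective
        (fun d : D => if h : (d : G) ∈ K then Sum.inr ⟨d, h⟩ else
          Sum.inl ⟨d, hreg d d.2 h⟩) ?_
      intro a b hab2
      by_cases ha : (a : G) ∈ K <;> by_cases hb : (b : G) ∈ K
      · simp only [dif_pos ha, dif_pos hb, Sum.inr.injEq, Subtype.mk.injEq] at hab2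
        exact Subtype.ext hab2
      · simp only [dif_pos ha, dif_neg hb, reduceCtorEq] at hab2
      · simp only [dif_neg ha, dif_pos hb, reduceCtorEq] at hab2
      · simp only [dif_neg ha, dif_neg hb] at hab2
        have h9 := Sum.inl_injective hab2
        have h10 : (a : G) = b := congrArg (fun x : Wr D l => x.1) h9
        exact Subtype.ext h10
    rwa [Nat.card_sum] at h2
  have hDpos : 0 < Nat.card D := Nat.card_pos
  have hj : C.relIndex T * Nat.card D < p ^ (2 * 1) * Nat.card (Wr D l) := by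
    rw [he, mul_one]
    obtain ⟨q, hq⟩ : ∃ q, p = q + 1 := ⟨p - 1, by omega⟩
    have hq1 : p - 1 = q := by omega
    rw [hq1]
    have h2 : Nat.card D * q ≤ p * Nat.card (Wr D l) := by
      have h3 : p * Nat.card D ≤ p * Nat.card (Wr D l) + Nat.card D := by
        calc p * Nat.card D ≤ p * (Nat.card (Wr D l) + Nat.card K) := Nat.mul_le_mul_left _ hWr
          _ = p * Nat.card (Wr D l) + Nat.card K * p := by ring
          _ ≤ _ := Nat.add_le_add_left hKp _
      have h4 : p * Nat.card D = Nat.card D * q + Nat.card D := by rw [hq]; ring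
      omega
    have h5 : p * (Nat.card D * q) ≤ p ^ 2 * Nat.card (Wr D l) := by
      rw [pow_two, mul_assoc]
      exact Nat.mul_le_mul_left _ h2
    refine lt_of_lt_of_le ?_ h5
    have h6 : 0 < Nat.card D * q := Nat.mul_pos hDpos (by omega)
    calc q * Nat.card D = 1 * (Nat.card D * q) := by ring
      _ < p * (Nat.card D * q) := Nat.mul_lt_mul_of_pos_right hp.out.one_lt h6
  obtain ⟨m, hmc, hm1, hmp, hgen⟩ := P179Y.exists_exp1 (p := p) hp2 (Nat.card G) Nat.card_pos.ne'
  -- the number of characters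
  have hX : (X1 red l m).card ≤ p ^ 2 := by
    have h2 := X1_card_le red hl hD hab' hp2 hT hmc hm1 hgen (j := 1) (o := p) Y hYj ⟨w, hwD⟩ (by
      rintro t ht ⟨y, ⟨d, hd⟩, e⟩
      refine hwreg t ht ⟨d, d.2, ?_⟩
      rw [pow_one] at hd
      rw [e, ← hd]
      rfl) (by
      rintro ⟨d, hd⟩
      rw [pow_one] at hd
      exact hwp ⟨d, d.2, congrArg Subtype.val hd⟩) (by
      intro i hi
      by_contra hpi
      obtain ⟨d, hd⟩ := hi
      rw [pow_one] at hd
      apply hwp
      obtain ⟨n, hn⟩ := hD ⟨w, hwD⟩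
      have hco : Nat.Coprime i (p ^ n) :=
        Nat.Coprime.pow_right _ ((Nat.Prime.coprime_iff_not_dvd hp.out).2 hpi).symm
      have h3 : ((i : ℤ)) * Int.gcdA i (p ^ n : ℕ) + ((p ^ n : ℕ) : ℤ) * Int.gcdB i (p ^ n : ℕ) = 1 := by
        have := Int.gcd_eq_gcd_ab i (p ^ n : ℕ)
        rw [← this]
        exact_mod_cast hco
      refine ⟨((d ^ Int.gcdA i (p ^ n : ℕ) : D) : G), (d ^ Int.gcdA i (p ^ n : ℕ)).2, ?_⟩
      have h4 : (d ^ Int.gcdA i (p ^ n : ℕ)) ^ p = (⟨w, hwD⟩ : D) := by
        have hn' : (⟨w, hwD⟩ : D) ^ p ^ n = 1 := hn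
        calc (d ^ Int.gcdA i (p ^ n : ℕ)) ^ p = (d ^ p) ^ Int.gcdA i (p ^ n : ℕ) := by
              rw [← zpow_natCast, ← zpow_natCast, ← zpow_mul, ← zpow_mul, mul_comm]
          _ = ((⟨w, hwD⟩ : D) ^ i) ^ Int.gcdA i (p ^ n : ℕ) := by rw [hd]
          _ = (⟨w, hwD⟩ : D) ^ ((i : ℤ) * Int.gcdA i (p ^ n : ℕ)) := by
              rw [← zpow_natCast, ← zpow_mul]
          _ = (⟨w, hwD⟩ : D) ^ ((i : ℤ) * Int.gcdA i (p ^ n : ℕ)) *
                ((⟨w, hwD⟩ : D) ^ p ^ n) ^ Int.gcdB i (p ^ n : ℕ) := by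
              rw [hn', one_zpow, mul_one]
          _ = (⟨w, hwD⟩ : D) ^ (1 : ℤ) := by
              rw [← h3, zpow_add, zpow_mul (⟨w, hwD⟩ : D) ((p ^ n : ℕ) : ℤ), zpow_natCast]
          _ = _ := zpow_one _
      exact congrArg Subtype.val h4) hj
    have hYpos : 0 < Nat.card Y := Nat.card_pos
    have h3 : (X1 red l m).card * (Nat.card Y * p) ≤ p ^ 2 * (Nat.card Y * p) := by
      calc (X1 red l m).card * (Nat.card Y * p) = (X1 red l m).card * Nat.card Y * p := by ring
        _ ≤ Nat.card D * p := h2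
        _ = p ^ 2 * (Nat.card Y * p) := by rw [hcardY]; ring
    exact Nat.le_of_mul_le_mul_right h3 (Nat.mul_pos hYpos hp.out.pos)
  -- the elements of order `p`
  set P : Finset G := univ.filter (fun u => u ∈ D ∧ u ^ p = 1) with hPdef
  have hPcard : P.card = p ^ 2 := by
    rw [← h1, Nat.card_eq_fintype_card, Fintype.card_subtype]
  set PK : Finset G := P.filter (fun u => u ∈ K) with hPK
  have hPKcard : PK.card = p := by
    set S : Subgroup G := P179H292.omS hab p ⊓ K with hS
    have h2 : PK.card = Nat.card S := by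
      rw [Nat.card_eq_fintype_card]
      symm
      refine Fintype.card_of_subtype PK fun x => ?_
      rw [hPK, hPdef, mem_filter, mem_filter, hS, Subgroup.mem_inf, P179H292.mem_omS]
      exact ⟨fun h => ⟨h.1.2, h.2⟩, fun h => ⟨⟨mem_univ _, h.1⟩, h.2⟩⟩
    have h3 : Nat.card (P179H292.omS hab p) = p ^ 2 := h1
    have h4 : Nat.card S ∣ p ^ 2 := h3 ▸ Subgroup.card_dvd_of_le inf_le_left
    obtain ⟨i, hi2, hi⟩ := (Nat.dvd_prime_pow hp.out).1 h4
    have hi0 : i ≠ 0 := by
      rintro rfl
      rw [pow_zero] at hi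
      have hS1 : S = ⊥ := Subgroup.card_eq_one.1 hi
      obtain ⟨u, huD, hu1, hus⟩ := hK
      obtain ⟨n, hn⟩ := hD ⟨u, huD⟩
      have hn' : u ^ p ^ n = 1 := congrArg Subtype.val hn
      have hdvd : orderOf u ∣ p ^ n := orderOf_dvd_of_pow_eq_one hn'
      obtain ⟨j, -, hj⟩ := (Nat.dvd_prime_pow hp.out).1 hdvd
      have hj0 : j ≠ 0 := by
        rintro rfl
        exact hu1 (orderOf_eq_one_iff.1 (by rw [hj, pow_zero]))
      obtain ⟨j', rfl⟩ := Nat.exists_eq_succ_of_ne_zero hj0
      have hmem : u ^ p ^ j' ∈ S := by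
        refine Subgroup.mem_inf.2 ⟨P179H292.mem_omS (hab := hab) |>.2 ⟨pow_mem huD _, ?_⟩,
          pow_mem (mem_fixS.2 ⟨huD, hus⟩) _⟩
        rw [← pow_mul, ← pow_succ, ← hj, pow_orderOf_eq_one]
      rw [hS1, mem_bot] at hmem
      have h5 := orderOf_dvd_of_pow_eq_one hmem
      rw [hj] at h5
      have h6 := (Nat.pow_dvd_pow_iff_le_right hp.out.one_lt).1 h5
      omega
    have hi3 : i ≠ 2 := by
      rintro rfl
      have h5 : S = P179H292.omS hab p := Subgroup.eq_of_le_of_card_ge inf_le_left (by rw [h3, hi])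
      have h6 : ∀ x ∈ P179H292.omS hab p, x ∈ K := fun x hx => by
        rw [← h5] at hx
        exact (Subgroup.mem_inf.1 hx).2
      obtain ⟨d, hd, s, hs, hsd⟩ := hne
      have h7 := P179H292.centralises_of_omega hab hD (hTN hs) hT
        (P179H725.pow_relIndex_mem (P179H725.subgroupOf_centralizer_normal hTN) hs)
        (fun x hx => (mem_fixS.1 (h6 x hx)).2 s hs)
      apply hsd
      rw [← mem_centralizer_iff.1 h7 d hd]
      group
    have hi1 : i = 1 := by omega
    rw [h2, hi, hi1, pow_one]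
  have h1PK : (1 : G) ∈ PK := by
    rw [hPK, hPdef, mem_filter, mem_filter]
    exact ⟨⟨mem_univ _, one_mem _, one_pow _⟩, one_mem _⟩
  -- the weights
  let L : G → ℕ := fun u => if u = 1 then numSimpleIn B else if u ∈ K then p - 1 else 1
  have hsub := sub_count red hB hD hab hl hlz hT hmc hm1 hmp P (by
    intro u hu
    rw [hPdef, mem_filter] at hu
    refine ⟨hu.2.1, ?_⟩
    have h2 : orderOf u ∣ p := orderOf_dvd_of_pow_eq_one hu.2.2
    have h3 := pow_eq_pow_iff_modEq.2 (hmp.of_dvd h2)
    rwa [pow_one] at h3) L (by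
    intro u hu b hb hlb
    rw [hPdef, mem_filter] at hu
    simp only [L]
    split_ifs with h2 h3
    · rw [numSimpleIn_top hB hlz (fun g => by rw [h2, mem_cz, mul_one, one_mul]) hb hlb]
    · refine le_numSimpleIn_low red hl hD hab hT hcyc he ?_ ?_ hb hlb
      · intro x hx
        rw [mem_cz]
        exact hab _ hx _ hu.2.1
      · intro s hs
        rw [mem_cz]
        exact mul_inv_eq_iff_eq_mul.1 ((mem_fixS.1 h3).2 s hs)
    · exact numSimpleIn_pos b hb)
  have hTC : Nat.card T = Nat.card C * (p - 1) := by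
    rw [← he]
    have h2 := Subgroup.card_mul_index (C.subgroupOf T)
    rw [Nat.card_congr (Subgroup.subgroupOfEquivOfLe hCT).toEquiv] at h2
    exact h2.symm
  have hsplit : ∑ u ∈ P, Nat.card (T ⊓ centralizer {u} : Subgroup G) * L u =
      Nat.card T * (numSimpleIn B + (p - 1) * (p - 1)) + Nat.card C * (p ^ 2 - p) := by
    rw [← Finset.sum_filter_add_sum_filter_not P (fun u => u ∈ K)]
    congr 1
    · have h2 : ∀ u ∈ PK, Nat.card (T ⊓ centralizer {u} : Subgroup G) * L u =
          Nat.card T * (if u = 1 then numSimpleIn B else p - 1) := by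
        intro u hu
        rw [hPK, mem_filter] at hu
        have h3 : T ⊓ centralizer {u} = T := inf_eq_left.2 fun s hs => by
          rw [mem_cz]
          exact mul_inv_eq_iff_eq_mul.1 ((mem_fixS.1 hu.2).2 s hs)
        rw [h3]
        simp only [L, if_pos hu.2]
      rw [Finset.sum_congr rfl h2, ← Finset.mul_sum]
      congr 1
      rw [← Finset.add_sum_erase _ _ h1PK, if_pos rfl]
      congr 1
      rw [Finset.sum_congr rfl fun u hu => if_neg (Finset.ne_of_mem_erase hu), Finset.sum_const,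
        Finset.card_erase_of_mem h1PK, hPKcard, smul_eq_mul]
    · have h2 : ∀ u ∈ P.filter (fun u => ¬ u ∈ K),
          Nat.card (T ⊓ centralizer {u} : Subgroup G) * L u = Nat.card C := by
        intro u hu
        rw [hPdef, mem_filter, mem_filter] at hu
        obtain ⟨hr, hu1⟩ := hreg u hu.1.2.1 hu.2
        have h3 : T ⊓ centralizer {u} = C := by
          apply le_antisymm
          · intro s hs
            refine hr.2 s (Subgroup.mem_inf.1 hs).1 ?_
            have := mem_cz.1 (Subgroup.mem_inf.1 hs).2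
            rw [this]; group
          · refine le_inf hCT fun s hs => ?_
            rw [mem_cz]
            exact (mem_centralizer_iff.1 hs u hu.1.2.1).symm
        rw [h3]
        simp only [L, if_neg hu1, if_neg hu.2, mul_one]
      rw [Finset.sum_congr rfl h2, Finset.sum_const, smul_eq_mul, mul_comm]
      congr 1
      have h3 := Finset.card_filter_add_card_filter_not (s := P) (fun u => u ∈ K)
      rw [hPcard] at h3
      change PK.card + _ = _ at h3
      rw [hPKcard] at h3
      omega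
  rw [hsplit] at hsub
  have hfin := hsub.trans (Nat.mul_le_mul_left _ hX)
  rw [hTC] at hfin
  have hCpos : 0 < Nat.card C := Nat.card_pos
  obtain ⟨q, hq⟩ : ∃ q, p = q + 1 := ⟨p - 1, by omega⟩
  have hq1 : p - 1 = q := by omega
  have hq2 : p ^ 2 - p = q * (q + 1) := by
    rw [hq]
    have : (q + 1) ^ 2 = q * (q + 1) + (q + 1) := by ring
    omega
  rw [hq1, hq2, hq] at hfin
  rw [hq1]
  have h5 : (Nat.card C * q) * (numSimpleIn B + q * q + (q + 1)) ≤
      (Nat.card C * q) * (q + 1) ^ 2 := by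
    calc (Nat.card C * q) * (numSimpleIn B + q * q + (q + 1))
        = Nat.card C * q * (numSimpleIn B + q * q) + Nat.card C * (q * (q + 1)) := by ring
      _ ≤ _ := hfin
  have h6 := Nat.le_of_mul_le_mul_left h5 (Nat.mul_pos hCpos (by omega))
  have h7 : (q + 1) ^ 2 = q + q * q + (q + 1) := by ring
  rw [h7] at h6
  omega

omit [Fintype G] in
/-- **(WAT)** -/
theorem watStmt : WatStmt p k red := by
  intro G _ _ B D β hB hDB hab hβ hβB h1 hcyc hdvd hfix hne
  obtain ⟨hD, -⟩ := exists_BP_of_block (p := p) B hB D hDB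
  obtain ⟨l, hl, hlz, hlb⟩ := exists_BP_of_subblock (p := p) hB hDB hab hβ hβB
  have hST : stabT D l = inertialGroup D β := stabT_eq_inertialGroup hβ hlb
  have he : inertialIndex D β = (centralizer (D : Set G)).relIndex (stabT D l) := by
    rw [hST]
    rfl
  have hTN : stabT D l ≤ normalizer (D : Set G) := stabT_le_norm D l
  have hT := hT_of_block hB hDB hD hab hl hlz
  -- `e` is not `1`
  have he1 : inertialIndex D β ≠ 1 := by
    intro h
    obtain ⟨d, hd, s, hs, hsd⟩ := hne
    have h2 : inertialGroup D β ≤ centralizer (D : Set G) := relIndex_eq_one.1 h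
    apply hsd
    rw [← mem_centralizer_iff.1 (h2 hs) d hd]
    group
  have hp2 : p ≠ 2 := by
    rintro rfl
    exact he1 (Nat.dvd_one.1 hdvd)
  have hp3 : 3 ≤ p := by
    have := hp.out.two_le
    omega
  have hele : inertialIndex D β ≤ p - 1 := Nat.le_of_dvd (by omega) hdvd
  by_cases hebig : inertialIndex D β = p - 1
  · have hmod := P179C.theoremC p red B hB D hDB hab
    have hw : numWeightsIn p red B = p - 1 := by
      rw [numWeightsIn_eq_index red hB hDB hab hl hlz (hST ▸ hcyc), ← he, hebig]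
    by_cases hK : ∃ u ∈ D, u ≠ 1 ∧ ∀ s ∈ stabT D l, s * u * s⁻¹ = u
    · have h2 := wat_big red hB hDB hab hl hlz hp2 h1 (hST ▸ hcyc) (he ▸ hebig) (hST ▸ hfix)
        (hST ▸ hne) hK
      refine ⟨?_, h2⟩
      rw [hw] at hmod ⊢
      exact hmod.eq_of_lt_of_lt (by omega) (by omega)
    · push Not at hK
      have hfree : ∀ u ∈ D, u ≠ 1 → u ∈ regularElements D β := by
        intro u hu hu1
        refine ⟨hu, fun n hn hnu => ?_⟩
        by_contra hnC
        obtain ⟨s, hs, hsu⟩ := hK u hu hu1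
        rw [hST] at hs
        exact hsu (hfix u hu hu1 n hn hnC hnu s hs)
      have h2 := equality_free red hB hDB hab hβ hβB hp2 hfree (by omega)
      exact ⟨h2, by rw [h2, hw]⟩
  · -- small index
    have hedvd2 : inertialIndex D β + 2 ≤ p := by
      obtain ⟨c, hc⟩ := hdvd
      have hc1 : c ≠ 1 := by
        rintro rfl
        exact hebig (by rw [hc, mul_one])
      have hc0 : c ≠ 0 := by
        rintro rfl
        rw [mul_zero] at hc
        omega
      have hc2 : 2 ≤ c := by omega
      have he0 : 0 < inertialIndex D β := by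
        rcases Nat.eq_zero_or_pos (inertialIndex D β) with h | h
        · rw [h, zero_mul] at hc
          omega
        · exact h
      have h3 : inertialIndex D β * 2 ≤ p - 1 := by
        rw [hc]
        exact Nat.mul_le_mul_left _ hc2
      omega
    refine wat_small red hB hDB hab hβ hβB (K := fixS D (stabT D l)) ?_ ?_ hedvd2
    · obtain ⟨d, hd, s, hs, hsd⟩ := hne
      rw [← hST] at hs
      exact fun h => hsd ((mem_fixS.1 (h hd)).2 s hs)
    · intro u hu hu1 hun
      by_contra huK
      apply hun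
      refine ⟨hu, fun n hn hnu => ?_⟩
      by_contra hnC
      exact huK (mem_fixS.2 ⟨hu, fun s hs => hfix u hu hu1 n hn hnC hnu s (hST ▸ hs)⟩)

end

end P179H967
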