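import Vale.Agent.P179.R2.H843.Inj3

/-!
# The spaces of class functions on a coset: the definition
-/

namespace P179H967

open Subgroup Finset P179H524 P179A P179P P179Y P179C

open scoped Classical

universe u

section Defs

variable {k : Type u} [Field k] {G : Type} [Group G] [Fintype G]

/-- the `N`-invariant functions on the coset `g N`, depending only on the regular parts and fixed
by the convolution with `e` -/
noncomputable def VG (p : ℕ) (N : Subgroup G) (e : G → k) (g : G) : Submodule k (G → k) where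
  carrier := {z | (∀ h, g⁻¹ * h ∉ N → z h = 0) ∧ (∀ m ∈ N, ∀ h, z (m * h * m⁻¹) = z h) ∧
    (∀ h, g⁻¹ * h ∈ N → z (pr p h) = z h) ∧ conv z e = z}
  add_mem' := by
    rintro a b ⟨ha, ha', ha'', ha'''⟩ ⟨hb, hb', hb'', hb'''⟩
    refine ⟨fun h hh => ?_, fun m hm h => ?_, fun h hh => ?_, ?_⟩
    · rw [Pi.add_apply, ha h hh, hb h hh, add_zero]
    · rw [Pi.add_apply, Pi.add_apply, ha' m hm, hb' m hm]
    · rw [Pi.add_apply, Pi.add_apply, ha'' h hh, hb'' h hh]
    · conv_rhs => rw [← ha''', ← hb''']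
      funext x
      unfold conv
      rw [Pi.add_apply, ← Finset.sum_add_distrib]
      exact Finset.sum_congr rfl fun y _ => by rw [Pi.add_apply, add_mul]
  zero_mem' := ⟨fun _ _ => rfl, fun _ _ _ => rfl, fun _ _ => rfl, by
    funext x
    unfold conv
    exact Finset.sum_eq_zero fun y _ => by rw [Pi.zero_apply, zero_mul]⟩
  smul_mem' := by
    rintro c a ⟨ha, ha', ha'', ha'''⟩
    refine ⟨fun h hh => ?_, fun m hm h => ?_, fun h hh => ?_, ?_⟩
    · rw [Pi.smul_apply, ha h hh, smul_zero]
    · rw [Pi.smul_apply, Pi.smul_apply, ha' m hm]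
    · rw [Pi.smul_apply, Pi.smul_apply, ha'' h hh]
    · conv_rhs => rw [← ha''']
      funext x
      unfold conv
      rw [Pi.smul_apply, smul_eq_mul, Finset.mul_sum]
      exact Finset.sum_congr rfl fun y _ => by rw [Pi.smul_apply, smul_eq_mul, mul_assoc]

theorem mem_VG {p : ℕ} {N : Subgroup G} {e : G → k} {g : G} {z : G → k} : z ∈ VG p N e g ↔
    (∀ h, g⁻¹ * h ∉ N → z h = 0) ∧ (∀ m ∈ N, ∀ h, z (m * h * m⁻¹) = z h) ∧
    (∀ h, g⁻¹ * h ∈ N → z (pr p h) = z h) ∧ conv z e = z := Iff.rfl

/-- restriction to a subgroup -/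
noncomputable def cutH' (K : Subgroup G) (z : G → k) : G → k := fun g => if g ∈ K then z g else 0

omit [Fintype G] in
theorem cutH'_pos {K : Subgroup G} {z : G → k} {g : G} (h : g ∈ K) : cutH' K z g = z g := if_pos h

omit [Fintype G] in
theorem cutH'_neg {K : Subgroup G} {z : G → k} {g : G} (h : g ∉ K) : cutH' K z g = 0 := if_neg h

/-- the values of a convolution with a function supported on `K` -/
theorem conv_cutH {H C K : Subgroup G} (hK : ∀ x, x ∈ K ↔ x ∈ H ∧ x ∈ C) {z e : G → k}
    (hz : ∀ x, x ∉ H → z x = 0) (he : ∀ x, x ∉ K → e x = 0) :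
    conv (cutH' C z) e = cutH' K (conv z e) := by
  funext x
  by_cases hx : x ∈ K
  · rw [cutH'_pos hx]
    unfold conv
    refine Finset.sum_congr rfl fun y _ => ?_
    by_cases h1 : y⁻¹ * x ∈ K
    · have h2 : y ∈ K := by
        have h3 := mul_mem hx (inv_mem h1)
        have e1 : x * (y⁻¹ * x)⁻¹ = y := by group
        rwa [e1] at h3
      rw [cutH'_pos ((hK y).1 h2).2]
    · rw [he _ h1, mul_zero, mul_zero]
  · rw [cutH'_neg hx]
    unfold conv
    refine Finset.sum_eq_zero fun y _ => ?_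
    by_cases h1 : y⁻¹ * x ∈ K
    · by_cases h2 : y ∈ C
      · rw [cutH'_pos h2]
        by_cases h3 : y ∈ H
        · exfalso
          apply hx
          have h4 := mul_mem ((hK y).2 ⟨h3, h2⟩) h1
          rwa [mul_inv_cancel_left] at h4
        · rw [hz y h3, zero_mul]
      · rw [cutH'_neg h2, zero_mul]
    · rw [he _ h1, mul_zero]

end Defs

end P179H967
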