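import Vale.Agent.P179.R2.H967.W1d
import Vale.Agent.P179.R2.H46.W1S

/-!
# The graded Watanabe theorem
-/

namespace P179H967

universe u

/-- **the graded Watanabe theorem** -/
theorem w1S (p : ℕ) [Fact p.Prime] (k : Type u) [Field k] [IsAlgClosed k] [CharP k p] :
    P179H854.W1S p k :=
  P179H46.w1_of fun _ _ _ _ _ _ hl hD hab hT hPD _ ha haP _ hx hax hxT =>
    stepS hl hD hab hT hPD ha haP hx hax hxT

end P179H967
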