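import Vale.Agent.P179.R2.H967.SmB3

/-!
# The number of simple modules in terms of commuting pairs: conclusion
-/

namespace P179H967

open P179H524 P179C P179A P179R P179H872 P179H843 P179P P179H12 Finset MonoidAlgebra P179H854 P179Y

open scoped Classical

universe u

/-- **(W2.1)** the number of the simple modules in terms of commuting pairs -/
theorem sumS (p : ℕ) [hp : Fact p.Prime] (k : Type u) [Field k] [IsAlgClosed k] [CharP k p] :
    P179H854.SumS p k := by
  intro L ζ G _ _ N hN e hidx heN hcf hee hL hζ r hr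
  set c : MonoidAlgebra k N := mkF fun x : N => e x with hcdef
  have hincN : inc N c = mkF e := P179H12.inc_mkF N e heN
  have hcen : inc N c ∈ Subalgebra.center k (MonoidAlgebra k G) := by
    rw [hincN]
    exact mkF_mem hcf
  have hcen' : mkF e ∈ Subalgebra.center k (MonoidAlgebra k G) := mkF_mem hcf
  have hc : ∀ g : G, cjA g c = c := fun g => cjA_fix hcen g
  have hcc : c ∈ Subalgebra.center k (MonoidAlgebra k N) :=
    mkF_mem fun t x => hcf (t : G) (x : G)
  have hc2 : c * c = c := by
    apply inc_injective N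
    rw [map_mul, hincN, ← mkF_conv, hee]
  have hee' : mkF e * mkF e = mkF e := by
    rw [← mkF_conv, hee]
  have := finite_XK hcc hc2
  have := Fintype.ofFinite (XK c)
  let iA : MulAction (G ⧸ N) (XK c) := actQ hc
  obtain ⟨v, κ, hli, hv, hκ, hspan, hmem⟩ := sm_exists hcc hc2 p hidx hc r hr
  have hcard : Nat.card (G ⧸ N) = N.index := rfl
  have hA : ((N.index : ℕ) : k) ≠ 0 := by
    intro h
    exact hidx ((CharP.cast_eq_zero_iff k p _).1 h)
  -- conjugation by a representative
  have hcjm : ∀ {a : G ⧸ N} {ψ : G → k}, ψ ∈ LX p c (r a) → ∀ m ∈ N, cjF m ψ = ψ :=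
    fun hψ m hm => sm_cj_of_mem hψ hm
  have hCe : ∀ (y : G) (ψ : G → k), cjL y ψ = cjF y ψ := fun _ _ => rfl
  have hC1 : ∀ z, cjL (r 1) (v z) = v z := by
    intro z
    rw [hCe]
    refine hcjm (hv z).1 _ ?_
    rw [← QuotientGroup.eq_one_iff, hr]
  have hCm : ∀ q q' z, cjL (r (q * q')) (v z) = cjL (r q) (cjL (r q') (v z)) := by
    intro q q' z
    have hm : (r q * r q')⁻¹ * r (q * q') ∈ N := by
      rw [← QuotientGroup.eq, QuotientGroup.mk_mul, hr, hr, hr]
    have h2 : r (q * q') = r q * r q' * ((r q * r q')⁻¹ * r (q * q')) := by group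
    rw [hCe, hCe, hCe, h2, cjF_mul, hcjm (hv z).1 _ hm, cjF_mul]
  have hI : ∀ w : G → k, w ∈ FB p (mkF e) ↔ w ∈ Submodule.span k (Set.range v) ∧
      ∀ q, cjL (r q) w = w := by
    intro w
    rw [hmem, hincN]
    constructor
    · rintro ⟨h1, h2, h3⟩
      refine ⟨⟨fun m _ g => h1 m g, h2, h3⟩, fun q => ?_⟩
      funext h
      have h4 := h1 (r q)⁻¹ h
      rw [inv_inv] at h4
      exact h4
    · rintro ⟨⟨h1, h2, h3⟩, h4⟩
      refine ⟨fun g x => ?_, h2, h3⟩
      have hm : (r (g⁻¹ : G))⁻¹ * g⁻¹ ∈ N := by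
        rw [← QuotientGroup.eq, hr]
      have h5 : cjF (g⁻¹ : G) w = w := by
        have h6 : (g⁻¹ : G) = r (g⁻¹ : G) * ((r (g⁻¹ : G))⁻¹ * g⁻¹) := by group
        have h7 : cjF ((r (g⁻¹ : G))⁻¹ * g⁻¹) w = w := by
          funext h
          have h8 := h1 _ (inv_mem hm) h
          rw [inv_inv] at h8
          exact h8
        conv_lhs => rw [h6]
        rw [cjF_mul, h7]
        exact h4 _
      have h6 := congrFun h5 x
      unfold cjF at h6
      rw [inv_inv] at h6
      exact h6
  have h1 := abs_inv (C := fun q => cjL (r q)) hli hC1 hCm hκ (by rw [hcard]; exact hA)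
    (by rw [hcard]; exact hL) hI
  rw [hcard, finrank_FB p hcen' hee'] at h1
  rw [h1]
  refine (abs_sum (fun q z => L (κ q z)) (fun a q => bt L ζ N.index (LG p N e (r a)) (r q))
    fun a q haq => ?_).trans (finsum_congr fun z => by congr)
  rw [sm_LG_eq hidx heN, hspan]
  have hmemr : (r q * r a * (r q)⁻¹)⁻¹ * r a ∈ N := by
    rw [← QuotientGroup.eq, QuotientGroup.mk_mul, QuotientGroup.mk_mul, QuotientGroup.mk_inv, hr,
      hr, ← haq, mul_inv_cancel_right]
  have hst : ∀ w ∈ Submodule.span k (Set.range (va v a)),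
      cjL (r q) w ∈ Submodule.span k (Set.range (va v a)) := by
    intro w hw
    rw [← hspan] at hw ⊢
    exact sm_LX_coset hmemr (sm_cj_LX hc (r q) hw)
  let f : Submodule.span k (Set.range (va v a)) →ₗ[k] Submodule.span k (Set.range (va v a)) :=
    (cjL (r q)).restrict hst
  have hf : ∀ w, (f w : G → k) = cjL (r q) w := fun w => rfl
  obtain ⟨h2, h3⟩ := abs_trL (C := fun q => cjL (r q)) hli hκ hL.zero haq f hf
  choose σ hσ using h2
  have key : ∀ (Y : Type u) (iY : Fintype Y) (b : Module.Basis Y k (Submodule.span k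
      (Set.range (va v a)))) (σ : Y → Y), (∀ i, ∃ c : k, f (b i) = c • b (σ i)) →
      f ^ N.index = 1 → trL L b f = bt L ζ N.index (Submodule.span k (Set.range (va v a))) (r q) :=
    fun Y iY b σ hσ hn => trL_eq_bt hL hA hζ b f (r q) hf hn σ hσ
  refine (key _ _ _ σ hσ ?_).symm.trans h3
  have hpow : ∀ (i : ℕ) (w : Submodule.span k (Set.range (va v a))),
      (((f ^ i) w : Submodule.span k (Set.range (va v a))) : G → k) = cjF (r q ^ i) w := by
    intro i
    induction i with
    | zero =>
      intro w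
      rw [pow_zero, pow_zero, cjF_one]
      rfl
    | succ i ih =>
      intro w
      rw [pow_succ, pow_succ, Module.End.mul_apply, ih, cjF_mul]
      rfl
  ext1 w
  apply Subtype.ext
  rw [hpow]
  have hw : (w : G → k) ∈ LX p c (r a) := by
    rw [hspan]
    exact w.2
  refine hcjm hw _ ?_
  rw [← QuotientGroup.eq_one_iff, QuotientGroup.mk_pow, hr, ← hcard, pow_card_eq_one']

end P179H967
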