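import Vale.Agent.P179.R2.H12.Blk

/-!
# The dual of a Brauer pair and of a block
-/

namespace P179H967

open Subgroup Finset P179H524 P179C P179A P179P P179Y P179H12 MonoidAlgebra

open scoped Classical

universe u

section Fun

variable {k : Type u} [Field k] {G : Type} [Group G] [Fintype G]

/-- the dual function -/
def du (a : G → k) : G → k := fun g => a g⁻¹

/-- the dual functional -/
def dl (l : (G → k) → k) : (G → k) → k := fun a => l (du a)

omit [Field k] [Fintype G] in
theorem du_du (a : G → k) : du (du a) = a := by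
  funext g
  simp [du]

omit [Field k] [Fintype G] in
theorem dl_dl (l : (G → k) → k) : dl (dl l) = l := by
  funext a
  unfold dl
  rw [du_du]

omit [Field k] [Fintype G] in
theorem du_cj (n : G) (a : G → k) : du (cj n a) = cj n (du a) := by
  funext g
  unfold du cj
  congr 1
  group

omit [Fintype G] in
theorem invOn_du {H : Subgroup G} {a : G → k} (ha : InvOn H a) : InvOn H (du a) := by
  refine ⟨fun h hh x => ?_, fun x hx => ha.2 _ fun h => hx ?_⟩
  · unfold du
    rw [← ha.1 h hh x⁻¹]
    congr 1
    group
  · have := inv_mem h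
    rwa [inv_inv] at this

omit [Field k] [Fintype G] in
theorem isCF_du {a : G → k} (ha : IsCF a) : IsCF (du a) := by
  intro g x
  unfold du
  rw [← ha g x⁻¹]
  congr 1
  group

theorem du_conv (a b : G → k) : du (conv a b) = conv (du b) (du a) := by
  funext g
  unfold du conv
  rw [← Equiv.sum_comp (Equiv.mulLeft g⁻¹)]
  refine Finset.sum_congr rfl fun t _ => ?_
  simp only [Equiv.coe_mulLeft, mul_inv_rev, inv_inv]
  rw [_root_.mul_comm (b _) (a _)]
  congr 2
  group

omit [Fintype G] in
theorem du_one : du (fun g : G => if g = 1 then (1 : k) else 0) =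
    fun g => if g = 1 then 1 else 0 := by
  funext g
  unfold du
  simp only [inv_eq_one]

variable {p : ℕ} {D : Subgroup G} {l : (G → k) → k}

/-- the dual of a Brauer pair -/
theorem bp_dl (hl : BP p D l) : BP p D (dl l) where
  add a b := hl.add _ _
  smul c a := hl.smul c _
  supp a ha := hl.supp _ fun x hx => ha _ (inv_mem hx)
  one := by
    unfold dl
    rw [du_one, hl.one]
  mul a b ha hb := by
    unfold dl
    rw [du_conv, hl.mul _ _ (invOn_du hb) (invOn_du ha), _root_.mul_comm]
  dfct := by
    obtain ⟨a, ha, hla, hP⟩ := hl.dfct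
    refine ⟨du a, invOn_du ha, ?_, fun x hx P hP1 hP2 hP3 => hP x⁻¹ hx P hP1 ?_ hP3⟩
    · unfold dl
      rw [du_du]
      exact hla
    · intro y hy
      have h1 := mem_centralizer_singleton_iff.1 (hP2 hy)
      rw [mem_centralizer_singleton_iff]
      have h2 : y = x * y * x⁻¹ := by rw [← h1]; group
      calc y * x⁻¹ = x⁻¹ * (x * y * x⁻¹) := by group
        _ = x⁻¹ * y := by rw [← h2]

omit [Fintype G] in
theorem mem_stabT_dl (P : Subgroup G) (n : G) : n ∈ stabT P (dl l) ↔ n ∈ stabT P l := by
  rw [mem_stabT, mem_stabT]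
  refine and_congr_right fun _ => ?_
  constructor
  · intro h z hz
    have h1 := h (du z) (invOn_du hz)
    unfold dl at h1
    rwa [du_cj, du_du] at h1
  · intro h z hz
    unfold dl
    rw [du_cj]
    exact h _ (invOn_du hz)

omit [Fintype G] in
theorem stabT_dl (P : Subgroup G) : stabT P (dl l) = stabT P l := by
  ext n
  exact mem_stabT_dl P n

theorem mulH_dl {H : Subgroup G} (hl : MulH H l) : MulH H (dl l) where
  add a b := hl.add _ _
  smul c a := hl.smul c _
  one := by
    unfold dl
    rw [du_one, hl.one]
  mul a b ha hb := by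
    unfold dl
    rw [du_conv, hl.mul _ _ (invOn_du hb) (invOn_du ha), _root_.mul_comm]

theorem isHomCF_dl (hl : IsHomCF l) : IsHomCF (dl l) where
  add a b := hl.add _ _
  smul c a := hl.smul c _
  one := by
    unfold dl
    rw [du_one, hl.one]
  mul a b ha hb := by
    unfold dl
    rw [du_conv, hl.mul _ _ (isCF_du hb) (isCF_du ha), _root_.mul_comm]

/-- the dual of an element of the group algebra -/
noncomputable def dual (c : MonoidAlgebra k G) : MonoidAlgebra k G :=
  mkF (du fun g => c.coeff g)

theorem coeff_dual (c : MonoidAlgebra k G) (g : G) : (dual c).coeff g = c.coeff g⁻¹ :=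
  coeff_mkF _ g

theorem dual_mkF (a : G → k) : dual (mkF a) = mkF (du a) := by
  unfold dual
  simp only [coeff_mkF]

theorem dual_dual (c : MonoidAlgebra k G) : dual (dual c) = c := by
  ext g
  rw [coeff_dual, coeff_dual, inv_inv]

theorem dual_mul (a b : MonoidAlgebra k G) : dual (a * b) = dual b * dual a := by
  rw [← mkF_coeff a, ← mkF_coeff b, ← mkF_conv, dual_mkF, dual_mkF, dual_mkF, du_conv, mkF_conv]

theorem dual_mem {c : MonoidAlgebra k G} (hc : c ∈ Subalgebra.center k (MonoidAlgebra k G)) :
    dual c ∈ Subalgebra.center k (MonoidAlgebra k G) :=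
  mkF_mem (isCF_du ((P179C.mem_center_iff _).1 hc))

theorem dual_eq_zero {c : MonoidAlgebra k G} (h : dual c = 0) : c = 0 := by
  rw [← dual_dual c, h]
  ext g
  rw [coeff_dual]
  rfl

/-- the dual of a block is a block -/
theorem isBlock_dual {c : MonoidAlgebra k G} (hc : IsBlock c) : IsBlock (dual c) := by
  obtain ⟨h1, h2, h3, h4⟩ := hc
  refine ⟨dual_mem h1, ?_, fun h => h3 (dual_eq_zero h), fun e he hee hec => ?_⟩
  · rw [← dual_mul, h2]
  · have h5 : dual e * dual e = dual e := by rw [← dual_mul, hee]
    have h6 : dual e * c = dual e := by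
      have h7 : c * dual e = dual e := by
        conv_lhs => rw [← dual_dual c]
        rw [← dual_mul, hec]
      rw [Subalgebra.mem_center_iff.1 h1 (dual e)]
      exact h7
    rcases h4 (dual e) (dual_mem he) h5 h6 with h | h
    · exact Or.inl (dual_eq_zero h)
    · right
      rw [← h, dual_dual]

/-- duality on the centre -/
noncomputable def dualC : Subalgebra.center k (MonoidAlgebra k G) →ₐ[k]
    Subalgebra.center k (MonoidAlgebra k G) :=
  AlgHom.ofLinearMap
    { toFun := fun z => ⟨dual z.1, dual_mem z.2⟩
      map_add' := fun a b => by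
        apply Subtype.ext
        ext g
        change (dual (a.1 + b.1)).coeff g = (dual a.1 + dual b.1).coeff g
        rw [coeff_dual, MonoidAlgebra.coeff_add, MonoidAlgebra.coeff_add, Finsupp.add_apply,
          Finsupp.add_apply, coeff_dual, coeff_dual]
      map_smul' := fun c a => by
        apply Subtype.ext
        ext g
        change (dual (c • a.1)).coeff g = (c • dual a.1).coeff g
        rw [coeff_dual, MonoidAlgebra.coeff_smul, MonoidAlgebra.coeff_smul, Finsupp.smul_apply,
          Finsupp.smul_apply, coeff_dual] }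
    (by
      apply Subtype.ext
      change dual (1 : MonoidAlgebra k G) = 1
      rw [← mkF_one, dual_mkF, du_one])
    (fun a b => by
      apply Subtype.ext
      change dual (a.1 * b.1) = dual a.1 * dual b.1
      rw [dual_mul, Subalgebra.mem_center_iff.1 (dual_mem a.2) (dual b.1)])

theorem dualC_coe (z : Subalgebra.center k (MonoidAlgebra k G)) :
    (dualC z : MonoidAlgebra k G) = dual z.1 := rfl

/-- the central character of the dual block -/
theorem centralChar_dual [IsAlgClosed k] {c : MonoidAlgebra k G} (hc : IsBlock c)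
    {y : MonoidAlgebra k G} (hy : y ∈ Subalgebra.center k (MonoidAlgebra k G)) :
    centralChar (dual c) y = centralChar c (dual y) := by
  have hc' := isBlock_dual hc
  obtain ⟨L, hL⟩ := blockHomStmt c hc
  obtain ⟨L', hL'⟩ := blockHomStmt (dual c) hc'
  have hprim := (isBlock_iff_prim ⟨dual c, hc'.1⟩).1 hc'
  have h1 : L' = L.comp dualC := by
    refine eq_of_prim hprim _ _ ?_ ?_
    · rw [hL']
      exact centralChar_self _ hc'
    · change L (dualC ⟨dual c, hc'.1⟩) = 1
      rw [hL, dualC_coe, dual_dual]
      exact centralChar_self _ hc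
  have h2 := hL' ⟨y, hy⟩
  rw [h1] at h2
  change L (dualC ⟨y, hy⟩) = _ at h2
  rw [hL, dualC_coe] at h2
  exact h2.symm

end Fun

section Low

variable {k : Type u} [Field k] {G : Type} [Group G] [Fintype G] {H : Subgroup G}

/-- the function of the dual -/
theorem bF_dual (c : MonoidAlgebra k H) : bF H (dual c) = du (bF H c) := by
  funext g
  unfold bF
  by_cases hg : g ∈ H
  · rw [ext_of_mem H _ hg, coeff_dual]
    unfold du
    rw [ext_of_mem H _ (inv_mem hg)]
    rfl
  · rw [ext_of_not_mem H _ hg]
    unfold du
    rw [ext_of_not_mem H _ fun h => hg (by have := inv_mem h; rwa [inv_inv] at this)]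

/-- the dual block lies below the dual functional -/
theorem low_dual [IsAlgClosed k] {l : (G → k) → k} {c : MonoidAlgebra k H} (hc : IsBlock c)
    (h : Low H l c) : Low H (dl l) (dual c) := by
  intro z hz
  unfold dl
  rw [h _ (invOn_du hz), centralChar_dual hc (mkF_mem (isCF_of_invOn hz)), dual_mkF]
  rfl

theorem low_dual_iff [IsAlgClosed k] {l : (G → k) → k} {c : MonoidAlgebra k H} (hc : IsBlock c) :
    Low H (dl l) (dual c) ↔ Low H l c := by
  refine ⟨fun h => ?_, low_dual hc⟩
  have h1 := low_dual (isBlock_dual hc) h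
  rwa [dl_dl, dual_dual] at h1

end Low

end P179H967
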