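import Vale.Agent.P179.R2.H967.Sub4
import Vale.Agent.P179.R2.H967.Dual
import Vale.Agent.P179.R2.H12.Nor

/-!
# Pairs `(Q, e)`, `Q` abelian, and their functionals
-/

namespace P179H967

open Subgroup Finset P179H524 P179C P179A P179P P179Y P179I P179H12 P179H452

open scoped Classical

universe u

section Blocks

variable {p : ℕ} [hp : Fact p.Prime] {k : Type u} [Field k] [IsAlgClosed k] [CharP k p]
  {K : Type} [Group K] [Finite K]

omit hp [CharP k p] in
/-- the sum of the blocks -/
theorem sum_blocks [Fintype {B : MonoidAlgebra k K // IsBlock B}] :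
    ∑ B : {B : MonoidAlgebra k K // IsBlock B}, B.1 = 1 := by
  have := Fintype.ofFinite K
  set S : Subalgebra.center k (MonoidAlgebra k K) :=
    ∑ B : {B : MonoidAlgebra k K // IsBlock B}, ⟨B.1, B.2.1⟩ with hS
  have hν : ∀ ν : Subalgebra.center k (MonoidAlgebra k K) →ₐ[k] k, ν S = 1 := by
    intro ν
    obtain ⟨B, hB, h⟩ := homBlockStmt ν
    rw [hS, map_sum, Finset.sum_eq_single ⟨B, hB⟩]
    · rw [h]
      exact centralChar_self B hB
    · intro B' _ hne
      rw [h]
      change centralChar B B'.1 = 0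
      rw [charBlockStmt B B'.1 hB B'.2, if_neg]
      intro h'
      exact hne (Subtype.ext h'.symm)
    · intro h'
      exact absurd (mem_univ _) h'
  have hSS : S * S = S := by
    rw [hS, Finset.sum_mul]
    refine Finset.sum_congr rfl fun B _ => ?_
    rw [Finset.mul_sum, Finset.sum_eq_single B]
    · exact Subtype.ext B.2.2.1
    · intro B' _ hne
      apply Subtype.ext
      have h1 : B.1 * B'.1 = 0 := by
        by_contra hcon
        have hc : B.1 * B'.1 = B'.1 * B.1 := (Subalgebra.mem_center_iff.1 B.2.1 B'.1).symm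
        have hmem : B.1 * B'.1 ∈ Subalgebra.center k (MonoidAlgebra k K) := mul_mem B.2.1 B'.2.1
        have hid : B.1 * B'.1 * (B.1 * B'.1) = B.1 * B'.1 := by
          rw [mul_assoc, ← mul_assoc B'.1 B.1 B'.1, ← hc, mul_assoc B.1 B'.1 B'.1, B'.2.2.1,
            ← mul_assoc, B.2.2.1]
        rcases B.2.2.2.2 _ hmem hid (by rw [mul_assoc, ← hc, ← mul_assoc, B.2.2.1]) with h | h
        · exact hcon h
        · rcases B'.2.2.2.2 _ hmem hid (by rw [mul_assoc, B'.2.2.1]) with h' | h'
          · exact hcon h'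
          · exact hne (Subtype.ext (h'.symm.trans h))
      exact h1
    · intro h'
      exact absurd (mem_univ _) h'
  have h1 := idem_eq S 1 hSS (mul_one _) fun ν => by rw [hν, map_one]
  have h2 := congrArg Subtype.val h1
  rw [hS] at h2
  have h3 : ((∑ B : {B : MonoidAlgebra k K // IsBlock B},
      (⟨B.1, B.2.1⟩ : Subalgebra.center k (MonoidAlgebra k K)) :
      Subalgebra.center k (MonoidAlgebra k K)) : MonoidAlgebra k K) =
      ∑ B : {B : MonoidAlgebra k K // IsBlock B}, B.1 := by
    rw [AddSubmonoidClass.coe_finsetSum]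
  rw [← h3]
  exact h2

include hp in
/-- a block which does not kill `y` -/
theorem exists_block_mul {y : MonoidAlgebra k K} (hy : y ≠ 0) :
    ∃ e : MonoidAlgebra k K, IsBlock e ∧ e * y ≠ 0 := by
  have := P179R.finite_blocks p (k := k) (G := K)
  have := Fintype.ofFinite {B : MonoidAlgebra k K // IsBlock B}
  by_contra hcon
  push Not at hcon
  apply hy
  rw [← one_mul y, ← sum_blocks, Finset.sum_mul]
  exact Finset.sum_eq_zero fun B _ => hcon B.1 B.2

omit [CharP k p] in
/-- the central character at a central idempotent not killed by the block -/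
theorem centralChar_of_mul_ne {e E : MonoidAlgebra k K} (he : IsBlock e)
    (hE : E ∈ Subalgebra.center k (MonoidAlgebra k K)) (hEE : E * E = E) (h : e * E ≠ 0) :
    centralChar e E = 1 ∧ e * E = e := by
  have hmem : e * E ∈ Subalgebra.center k (MonoidAlgebra k K) := mul_mem he.1 hE
  have hc : e * E = E * e := (Subalgebra.mem_center_iff.1 he.1 E).symm
  have hid : e * E * (e * E) = e * E := by
    rw [mul_assoc, ← mul_assoc E e E, ← hc, mul_assoc e E E, hEE, ← mul_assoc, he.2.1]
  have h1 : e * E = e := by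
    rcases he.2.2.2 _ hmem hid (by rw [mul_assoc, ← hc, ← mul_assoc, he.2.1]) with h' | h'
    · exact absurd h' h
    · exact h'
  refine ⟨?_, h1⟩
  obtain ⟨L, hL⟩ := blockHomStmt e he
  have h2 : L ⟨e, he.1⟩ = 1 := by
    rw [hL]
    exact centralChar_self e he
  have h3 : (⟨e, he.1⟩ : Subalgebra.center k (MonoidAlgebra k K)) * ⟨E, hE⟩ = ⟨e, he.1⟩ :=
    Subtype.ext h1
  have h4 := congrArg L h3
  rw [map_mul, h2, one_mul, hL] at h4
  exact h4

end Blocks

section Pair

variable {p : ℕ} [hp : Fact p.Prime] {k : Type u} [Field k] [IsAlgClosed k] [CharP k p]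
  {G : Type} [Group G] [Fintype G]

open P179H292 P179H725

/-- the maximal pair over `(Q, e)` -/
theorem exists_pair {Q : Subgroup G} (hQ : IsPGroup p Q) (hQab : Q ≤ centralizer (Q : Set G))
    {e : MonoidAlgebra k (centralizer (Q : Set G) : Subgroup G)} (he : IsBlock e) :
    ∃ (R : Subgroup G) (m : (G → k) → k), BP p R m ∧ IsPGroup p R ∧ Q ≤ R ∧
      centralizer (R : Set G) ≤ centralizer (Q : Set G) ∧
      (∀ z : G → k, IsCF (fun h : (centralizer (Q : Set G) : Subgroup G) => z h) →
        m z = centralChar e (mkF fun h : (centralizer (Q : Set G) : Subgroup G) => z h)) := by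
  obtain ⟨E, hE⟩ := exists_defect he
  obtain ⟨hEp, lE, hlE, hlEz⟩ := exists_BP_of_block (p := p) e he E hE
  have hn : (Q.subgroupOf (centralizer (Q : Set G))).Normal := ⟨fun n hn g => by
    rw [mem_subgroupOf] at hn ⊢
    have h1 := (mem_cent_iff Q (g : G)).1 g.2 _ hn
    have h2 : (g : G) * n * (g : G)⁻¹ = n := by
      have h3 : (n : G) * g = g * n := by
        calc (n : G) * g = n * g * (n : G)⁻¹ * n := by group
          _ = g * n := by rw [h1]
      rw [← h3]; group
    change (g : G) * n * (g : G)⁻¹ ∈ Q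
    rw [h2]
    exact hn⟩
  have h1 := le_defect (p := p) he hE (Q.subgroupOf (centralizer (Q : Set G)))
    (hQ.of_equiv (subgroupOfEquivOfLe hQab).symm)
  have hQR : Q ≤ E.map (centralizer (Q : Set G)).subtype := by
    intro q hq
    exact ⟨⟨q, hQab hq⟩, h1 (mem_subgroupOf.2 hq), rfl⟩
  have hC : centralizer ((E.map (centralizer (Q : Set G)).subtype : Subgroup G) : Set G) ≤
      centralizer (Q : Set G) := centralizer_le hQR
  exact ⟨E.map (centralizer (Q : Set G)).subtype, exL _ lE, P179H292.BP.extend hlE hC, hEp.map _,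
    hQR, hC, fun z hz => hlEz _ hz⟩

omit [IsAlgClosed k] in
/-- restriction of convolutions to the centraliser -/
theorem conv_restr {Q : Subgroup G} (hQ : IsPGroup p Q) {a b : G → k}
    (ha : ∀ d ∈ Q, ∀ x, a (d * x * d⁻¹) = a x) (hb : ∀ d ∈ Q, ∀ x, b (d * x * d⁻¹) = b x) :
    (fun h : (centralizer (Q : Set G) : Subgroup G) => conv a b h) =
      conv (fun h : (centralizer (Q : Set G) : Subgroup G) => a h)
        (fun h : (centralizer (Q : Set G) : Subgroup G) => b h) := by
  have key : ∀ a : G → k, cutC Q a =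
      ext (centralizer (Q : Set G)) (fun h : (centralizer (Q : Set G) : Subgroup G) => a h) := by
    intro a
    funext x
    unfold cutC
    by_cases hx : x ∈ centralizer (Q : Set G)
    · rw [if_pos hx, ext_of_mem _ _ hx]
    · rw [if_neg hx, ext_of_not_mem _ _ hx]
  funext h
  rw [conv_cut p Q hQ ha hb h.2, key, key, ← ext_conv, P179Y.ext_coe]

/-- the functional of a pair is multiplicative on the functions invariant under larger
subgroups -/
theorem mulH_pair {Q : Subgroup G} (hQ : IsPGroup p Q)
    {e : MonoidAlgebra k (centralizer (Q : Set G) : Subgroup G)} (he : IsBlock e)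
    {R : Subgroup G} {m : (G → k) → k} (hm : BP p R m)
    (hme : ∀ z : G → k, IsCF (fun h : (centralizer (Q : Set G) : Subgroup G) => z h) →
        m z = centralChar e (mkF fun h : (centralizer (Q : Set G) : Subgroup G) => z h))
    {K : Subgroup G} (hQK : Q ≤ K) (hCK : centralizer (Q : Set G) ≤ K) : MulH K m where
  add := hm.add
  smul := hm.smul
  one := hm.one
  mul a b ha hb := by
    have hcf : ∀ {z : G → k}, InvOn K z →
        IsCF (fun h : (centralizer (Q : Set G) : Subgroup G) => z h) :=
      fun hz c x => hz.1 c (hCK c.2) x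
    rw [hme _ (hcf (InvOn.conv K ha hb)), hme _ (hcf ha), hme _ (hcf hb),
      conv_restr hQ (fun d hd => ha.1 d (hQK hd)) (fun d hd => hb.1 d (hQK hd)), mkF_conv]
    obtain ⟨L, hL⟩ := blockHomStmt e he
    have h1 := hL (⟨_, mkF_mem (hcf ha)⟩ * ⟨_, mkF_mem (hcf hb)⟩)
    rw [map_mul, hL, hL] at h1
    exact h1.symm

end Pair

end P179H967
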