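import Vale.Agent.P179.R2.H967.Dim
import Vale.Agent.P179.R2.H666.Perm

/-!
# The dimension of the functions on a coset in a block with trivial inertial quotient
-/

namespace P179H967

open Subgroup P179H524 P179C P179A P179P P179Y Finset

open scoped Classical

section Final

variable {p : ℕ} [hp : Fact p.Prime] {k : Type*} [Field k] [IsAlgClosed k] [CharP k p]
  (red : integralClosure ℤ ℂ →+* k) {G : Type} [Group G] [Fintype G]

theorem permLemma : PermLemma p red := by
  intro K _ _ s D l hl hD hab hT hs hls
  rw [P179H666.card_fixed p red hl hD hab hT s hs hls]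
  exact Nat.card_congr
    { toFun := fun u => ⟨u.1.1, u.1.2, u.2⟩
      invFun := fun u => ⟨⟨u.1, u.2.1⟩, u.2.2⟩
      left_inv := fun _ => rfl
      right_inv := fun _ => rfl }

include red in
/-- **(3)** the dimension of `M_z(H, e)` is the number of the fixed points of `z` on `D` -/
theorem finrank_MzG_D {D : Subgroup G} {l : (G → k) → k}
    (hl : BP p D l) (hD : IsPGroup p D) (hab : D ≤ centralizer (D : Set G)) {H : Subgroup G}
    (hCH : centralizer (D : Set G) ≤ H)
    (hnil : ∀ n ∈ stabT D l, n ∈ H → n ∈ centralizer (D : Set G)) {z : G}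
    (hzT : z ∈ stabT D l) (hz : z ∈ normalizer (H : Set G)) {e : G → k}
    (heH : InvOn H e) (hprim : Prim (⟨mkF (fun h : H => e h), mkF_mem fun g x => heH.1 g g.2 x⟩ :
      Subalgebra.center k (MonoidAlgebra k H))) (hle : l e = 1) :
    Module.finrank k (MzG H z e) = Nat.card {u : G // u ∈ D ∧ z * u * z⁻¹ = u} :=
  finrank_MzG_card red (permLemma red) hl hD hab hCH hnil hzT hz heH hprim hle

end Final

end P179H967
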