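import Vale.Agent.P179.R2.H967.TwG
import Vale.Agent.P179.H143.TranspT

/-!
# The dimension of the functions on a coset in a block with trivial inertial quotient
-/

namespace P179H967

open Subgroup P179H524 P179C P179A P179P P179Y Finset

open scoped Classical

/-- the permutation lemma (3c), abstract form -/
def PermLemma (p : ℕ) {k : Type*} [Field k] [IsAlgClosed k] [CharP k p]
    (red : integralClosure ℤ ℂ →+* k) : Prop :=
  ∀ (K : Type) [Group K] [Fintype K] (s : K ≃* K) (D : Subgroup K) (l : (K → k) → k),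
    BP p D l → IsPGroup p D → D ≤ centralizer (D : Set K) → stabT D l ≤ centralizer (D : Set K) →
    D.map s.toMonoidHom = D → (∀ a, InvOn (centralizer (D : Set K)) a → l (fun x => a (s x)) = l a) →
    Nat.card {χ : Irr K // InL red l χ.1 ∧ ∀ x, χ.1 (s x) = χ.1 x} =
      Nat.card {u : K // u ∈ D ∧ s u = u}

section Final

variable {p : ℕ} [hp : Fact p.Prime] {k : Type*} [Field k] [IsAlgClosed k] [CharP k p]
  (red : integralClosure ℤ ℂ →+* k) {G : Type} [Group G] [Fintype G]

/-- **(3)** the dimension of `M_z(H, e)` is the number of the fixed points of `z` on `D` -/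
theorem finrank_MzG_card (h3c : PermLemma p red) {D : Subgroup G} {l : (G → k) → k}
    (hl : BP p D l) (hD : IsPGroup p D) (hab : D ≤ centralizer (D : Set G)) {H : Subgroup G}
    (hCH : centralizer (D : Set G) ≤ H)
    (hnil : ∀ n ∈ stabT D l, n ∈ H → n ∈ centralizer (D : Set G)) {z : G}
    (hzT : z ∈ stabT D l) (hz : z ∈ normalizer (H : Set G)) {e : G → k}
    (heH : InvOn H e) (hprim : Prim (⟨mkF (fun h : H => e h), mkF_mem fun g x => heH.1 g g.2 x⟩ :
      Subalgebra.center k (MonoidAlgebra k H))) (hle : l e = 1) :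
    Module.finrank k (MzG H z e) = Nat.card {u : G // u ∈ D ∧ z * u * z⁻¹ = u} := by
  have hDH : D ≤ H := hab.trans hCH
  have hl' := hl.restrict hDH hCH
  have hD' : IsPGroup p (D.subgroupOf H) := hD.comap_subtype
  have hab' : D.subgroupOf H ≤ centralizer ((D.subgroupOf H : Subgroup H) : Set H) := by
    intro x hx
    rw [mem_cent_subgroupOf hDH]
    exact hab (by simpa [Subgroup.mem_subgroupOf] using hx)
  have hT' : stabT (D.subgroupOf H) (lres H l) ≤
      centralizer ((D.subgroupOf H : Subgroup H) : Set H) := by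
    intro x hx
    rw [mem_cent_subgroupOf hDH]
    exact hnil _ ((mem_stabT_lres hDH hCH x).1 hx) x.2
  obtain ⟨φ, hφ⟩ := thmNT p red H (D.subgroupOf H) (lres H l) hl' hD' hab' hT'
  have hee : ext H (fun h : H => e h) = e := by
    funext g
    by_cases hg : g ∈ H
    · rw [ext_of_mem H _ hg]
    · rw [ext_of_not_mem H _ hg, heH.2 g hg]
  rw [finrank_MzG_eq red hz heH.2 (fun g x => heH.1 g g.2 x) hprim (hl'.isHomCF' hD')
    (by rw [lres, hee, hle]) hφ]
  have hzD := (mem_stabT.1 hzT).1
  have h1 := h3c H (cjH H hz) (D.subgroupOf H) (lres H l) hl' hD' hab' hT' (by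
    ext x
    rw [Subgroup.mem_map, Subgroup.mem_subgroupOf]
    constructor
    · rintro ⟨y, hy, rfl⟩
      rw [Subgroup.mem_subgroupOf] at hy
      exact (mem_normalizer_iff.1 hzD _).1 hy
    · intro hx
      refine ⟨(cjH H hz).symm x, ?_, (cjH H hz).apply_symm_apply x⟩
      rw [Subgroup.mem_subgroupOf, mem_normalizer_iff.1 hzD]
      have h2 : z * (((cjH H hz).symm x : H) : G) * z⁻¹ = x := by
        rw [← coe_cjH H hz, (cjH H hz).apply_symm_apply]
      have h3 : z * (((cjH H hz).symm x : H) : G) * z⁻¹ ∈ D := by rw [h2]; exact hx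
      exact h3) (by
    intro a ha
    have h2 : ext H (fun x => a (cjH H hz x)) = cj z⁻¹ (ext H a) := by
      funext g
      unfold cj
      by_cases hg : g ∈ H
      · have h3 : z⁻¹⁻¹ * g * z⁻¹ ∈ H := by
          rw [inv_inv]
          exact (mem_normalizer_iff.1 hz _).1 hg
        rw [ext_of_mem H _ hg, ext_of_mem H _ h3]
        congr 1
        apply Subtype.ext
        rw [coe_cjH]
        simp
      · have h3 : z⁻¹⁻¹ * g * z⁻¹ ∉ H := by
          rw [inv_inv]
          exact fun h => hg ((mem_normalizer_iff.1 hz _).2 h)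
        rw [ext_of_not_mem H _ hg, ext_of_not_mem H _ h3]
    rw [lres, lres, h2]
    refine (mem_stabT.1 (inv_mem hzT)).2 _ ⟨fun c hc x => ?_, fun x hx => ?_⟩
    · have hcH := hCH hc
      by_cases hx : x ∈ H
      · have h3 : c * x * c⁻¹ ∈ H := mul_mem (mul_mem hcH hx) (inv_mem hcH)
        rw [ext_of_mem H _ hx, ext_of_mem H _ h3]
        exact ha.1 ⟨c, hcH⟩ ((mem_cent_subgroupOf hDH _).2 hc) ⟨x, hx⟩
      · have h3 : c * x * c⁻¹ ∉ H := by
          intro h
          apply hx
          have h4 : x = c⁻¹ * (c * x * c⁻¹) * c := by group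
          rw [h4]
          exact mul_mem (mul_mem (inv_mem hcH) h) hcH
        rw [ext_of_not_mem H _ hx, ext_of_not_mem H _ h3]
    · by_cases hxH : x ∈ H
      · rw [ext_of_mem H _ hxH]
        exact ha.2 _ fun h => hx ((mem_cent_subgroupOf hDH _).1 h)
      · rw [ext_of_not_mem H _ hxH])
  rw [h1]
  exact Nat.card_congr
    { toFun := fun u => ⟨u.1, Subgroup.mem_subgroupOf.1 u.2.1, congrArg Subtype.val u.2.2⟩
      invFun := fun u => ⟨⟨u.1, hDH u.2.1⟩, Subgroup.mem_subgroupOf.2 u.2.1, Subtype.ext u.2.2⟩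
      left_inv := fun _ => rfl
      right_inv := fun _ => rfl }

end Final

end P179H967
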