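import Vale.Agent.P179.H524.Wr3
import Vale.Agent.P179.H525.QuotS

/-!
# Eigenbases for central elements, products of groups, transport
-/

namespace P179H967

open P179H524 P179C P179A P179R Finset MonoidAlgebra

open P179C.C2 (Om cls phi)

universe u

section Lin

variable {k : Type u} [Field k] {V : Type*} [AddCommGroup V] [Module k V]

/-- the dimension of an eigenspace is the number of the eigenvectors of a basis in it -/
theorem finrank_ker_sub_one {ι : Type*} [Finite ι] (b : Module.Basis ι k V) (T : V →ₗ[k] V)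
    (l : ι → k) (h : ∀ i, T (b i) = l i • b i) :
    Module.finrank k (LinearMap.ker (T - LinearMap.id)) = Nat.card {i : ι // l i = 1} := by
  classical
  have := Fintype.ofFinite ι
  have hmem : ∀ i : {i : ι // l i = 1}, b i.1 ∈ LinearMap.ker (T - LinearMap.id) := by
    intro i
    rw [LinearMap.mem_ker, LinearMap.sub_apply, h, i.2, one_smul, LinearMap.id_apply, sub_self]
  have hli : LinearIndependent k
      (fun i : {i : ι // l i = 1} => (⟨b i.1, hmem i⟩ : LinearMap.ker (T - LinearMap.id))) := by
    have h1 : LinearIndependent k (fun i : {i : ι // l i = 1} => b i.1) :=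
      b.linearIndependent.comp _ Subtype.val_injective
    exact LinearIndependent.of_comp (LinearMap.ker (T - LinearMap.id)).subtype h1
  have hsp : ⊤ ≤ Submodule.span k (Set.range
      (fun i : {i : ι // l i = 1} => (⟨b i.1, hmem i⟩ : LinearMap.ker (T - LinearMap.id)))) := by
    rintro ⟨ψ, hψ⟩ -
    have h1 : ψ = ∑ i, b.repr ψ i • b i := (b.sum_repr ψ).symm
    have h2 : ∑ i, (b.repr ψ i * l i) • b i = ψ := by
      rw [LinearMap.mem_ker, LinearMap.sub_apply, LinearMap.id_apply, sub_eq_zero] at hψ
      conv_rhs => rw [← hψ, h1, map_sum]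
      refine Finset.sum_congr rfl fun i _ => ?_
      rw [map_smul, h, mul_smul]
    have h3 : ∀ i, l i ≠ 1 → b.repr ψ i = 0 := by
      intro i hi
      have h4 := congrArg (fun x => b.repr x i) h2
      simp only [map_sum, map_smul, Module.Basis.repr_self, Finsupp.coe_finsetSum,
        Finset.sum_apply, Finsupp.coe_smul, Pi.smul_apply, smul_eq_mul] at h4
      simp only [Finsupp.single_apply, mul_ite, mul_one, mul_zero, Finset.sum_ite_eq',
        Finset.mem_univ, if_true] at h4
      by_contra h5
      exact hi (mul_left_cancel₀ h5 (by rw [h4, mul_one]))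
    have h4 : (⟨ψ, hψ⟩ : LinearMap.ker (T - LinearMap.id)) =
        ∑ i : {i : ι // l i = 1}, b.repr ψ i.1 •
          (⟨b i.1, hmem i⟩ : LinearMap.ker (T - LinearMap.id)) := by
      apply Subtype.ext
      push_cast
      conv_lhs => rw [h1]
      rw [← Finset.sum_subset (Finset.subset_univ (univ.filter fun i => l i = 1))
        (fun i _ hi => by
          rw [mem_filter, not_and] at hi
          rw [h3 i (hi (mem_univ i)), zero_smul])]
      exact Finset.sum_subtype _ (fun i => by simp) _
    rw [h4]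
    exact Submodule.sum_mem _ fun i _ => Submodule.smul_mem _ _ (Submodule.subset_span ⟨i, rfl⟩)
  rw [Module.finrank_eq_card_basis (Module.Basis.mk hli hsp), Nat.card_eq_fintype_card]

end Lin

section Eigen

variable (p : ℕ) [hp : Fact p.Prime] {k : Type u} [Field k] {G : Type} [Group G] [Fintype G]

/-- the operator of a central element on the class functions -/
noncomputable def TZ (z : MonoidAlgebra k G) : (Om p G → k) →ₗ[k] (Om p G → k) where
  toFun ψ ω := ∑ g : G, z.coeff g * ψ (cls p (g * ω.out.1))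
  map_add' := by
    intro ψ ψ'
    funext ω
    simp only [Pi.add_apply, mul_add, Finset.sum_add_distrib]
  map_smul' := by
    intro a ψ
    funext ω
    simp only [Pi.smul_apply, smul_eq_mul, RingHom.id_apply, Finset.mul_sum]
    exact Finset.sum_congr rfl fun g _ => by ring

theorem TZ_eq {z : MonoidAlgebra k G} {ψ : Om p G → k} {c : k}
    (h : ∀ y : G, ∑ g : G, z.coeff g * ψ (cls p (g * y)) = c * ψ (cls p y)) :
    TZ p z ψ = c • ψ := by
  funext ω
  have h1 := h ω.out.1
  have h2 : cls p ω.out.1 = ω := by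
    rw [C2.cls_reg]
    exact Quotient.out_eq' ω
  rw [h2] at h1
  exact h1

variable [IsAlgClosed k] [CharP k p]

/-- the functions attached to the simple modules form a basis of eigenfunctions -/
theorem exists_eigen (z : MonoidAlgebra k G) (hz : z ∈ Subalgebra.center k (MonoidAlgebra k G)) :
    ∃ (r : ℕ) (v : Module.Basis (Fin r) k (Om p G → k)) (l : Fin r → k),
      numSimpleIn z = Nat.card {i // l i = 1} ∧
      (∀ (i : Fin r) (y : G), ∑ g : G, z.coeff g * v i (cls p (g * y)) = l i * v i (cls p y)) ∧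
      ((∀ a : IrrRep k G, a.1.2.asAlgebraHom z = 0 ∨ a.1.2.asAlgebraHom z = 1) →
        ∀ i, l i = 0 ∨ l i = 1) := by
  classical
  obtain ⟨r, d, hd, f, hf, hker⟩ := exists_wedderburn k G
  obtain ⟨l, hl⟩ := C2.exists_scalar f hf z hz
  let e := LinearEquiv.ofBijective (phi p f) (C2.phi_bijective p f hf hker)
  refine ⟨r, (Pi.basisFun k (Fin r)).map e, l, ?_, ?_, ?_⟩
  · exact C2.numSimpleIn_eq_card f hf hker z l hl
  · intro i y
    rw [Module.Basis.map_apply, Pi.basisFun_apply]
    have he : e (Pi.single i 1) = phi p f (Pi.single i 1) := rfl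
    have h1 : ∀ g : G, (phi p f (Pi.single i (1 : k))) (cls p g) = trFun f (Pi.single i 1) g := by
      intro g
      rw [cls, C2.phi_mk]
      exact C2.trFun_pr p f _ _
    rw [he, h1]
    simp only [h1]
    rw [C2.sum_coeff_mul_trFun]
    have h2 : ∀ j, (Pi.single i (1 : k) : Fin r → k) j * (f z j * f (single y 1) j).trace =
        l i * ((Pi.single i (1 : k) : Fin r → k) j * (f (single y 1) j).trace) := by
      intro j
      rw [hl, Matrix.scalar_apply, ← Matrix.smul_eq_diagonal_mul, Matrix.trace_smul, smul_eq_mul]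
      by_cases hj : j = i
      · subst hj; ring
      · rw [Pi.single_eq_of_ne hj]; ring
    rw [Finset.sum_congr rfl fun j _ => h2 j, ← Finset.mul_sum]
    rfl
  · intro hZO i
    rcases hZO (compIrr f hf i) with h | h
    · left
      change (compRep f i).asAlgebraHom z = 0 at h
      rw [compRep_asAlgebraHom, hl] at h
      have h1 : (0 : Module.End k (Fin (d i) → k)) =
          Matrix.toLin' (Matrix.scalar (Fin (d i)) 0) := by
        rw [map_zero, map_zero]
      rw [h1, Matrix.toLin'.injective.eq_iff] at h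
      exact C2.scalar_inj _ _ h
    · right
      exact (C2.inBlock_iff f hf z l hl i).1 h

theorem numSimpleIn_eq_finrank (z : MonoidAlgebra k G)
    (hz : z ∈ Subalgebra.center k (MonoidAlgebra k G)) :
    numSimpleIn z = Module.finrank k (LinearMap.ker (TZ p z - LinearMap.id)) := by
  obtain ⟨r, v, l, h1, h2, -⟩ := exists_eigen p z hz
  rw [h1, finrank_ker_sub_one v (TZ p z) l fun i => TZ_eq p (h2 i)]

theorem numSimpleIn_eq_of_eigen (z : MonoidAlgebra k G)
    (hz : z ∈ Subalgebra.center k (MonoidAlgebra k G)) {ι : Type*} [Finite ι]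
    (w : Module.Basis ι k (Om p G → k)) (m : ι → k)
    (h : ∀ (i : ι) (y : G), ∑ g : G, z.coeff g * w i (cls p (g * y)) = m i * w i (cls p y)) :
    numSimpleIn z = Nat.card {i // m i = 1} := by
  rw [numSimpleIn_eq_finrank p z hz, finrank_ker_sub_one w (TZ p z) m fun i => TZ_eq p (h i)]

end Eigen

section Transport

variable {k : Type u} [Field k] {K K' : Type} [Group K] [Group K']

theorem asAlgebraHom_sum [Fintype K] {V : Type*} [AddCommGroup V] [Module k V]
    (ρ : Representation k K V) (z : MonoidAlgebra k K) :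
    ρ.asAlgebraHom z = ∑ x : K, z.coeff x • ρ x := by
  have h1 : z = ∑ x : K, single x (z.coeff x) := by
    apply MonoidAlgebra.ext
    ext x
    simp [MonoidAlgebra.coeff_sum]
  conv_lhs => rw [h1]
  rw [map_sum]
  exact Finset.sum_congr rfl fun x _ => Representation.asAlgebraHom_single _ _ _

/-- pull back of an irreducible representation along an isomorphism -/
noncomputable def pullIrr (f : K ≃* K') (a : IrrRep k K') : IrrRep k K :=
  ⟨⟨a.1.1, a.1.2.comp (f : K →* K')⟩,
    (isIrreducible_comp_iff a.1.2 (f : K →* K') f.surjective).2 a.2⟩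

theorem pullIrr_iso {f : K ≃* K'} {a b : IrrRep k K'} (h : a.Iso b) :
    (pullIrr f a).Iso (pullIrr f b) := by
  obtain ⟨e⟩ := h
  exact ⟨Representation.Equiv.mk e.toLinearEquiv fun g => e.isIntertwining' (f g)⟩

theorem pullIrr_pullIrr (f : K ≃* K') (a : IrrRep k K) : pullIrr f (pullIrr f.symm a) = a := by
  rcases a with ⟨⟨n, ρ⟩, hρ⟩
  apply Subtype.ext
  change (⟨n, (ρ.comp (f.symm : K' →* K)).comp (f : K →* K')⟩ :
    Σ n : ℕ, Representation k K (Fin n → k)) = ⟨n, ρ⟩
  congr 1
  ext g : 1
  change ρ (f.symm (f g)) = ρ g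
  rw [f.symm_apply_apply]

theorem asAlgebraHom_pull [Finite K] (f : K ≃* K') {z : MonoidAlgebra k K}
    {z' : MonoidAlgebra k K'} (h : ∀ x, z'.coeff (f x) = z.coeff x) {V : Type*}
    [AddCommGroup V] [Module k V] (ρ : Representation k K' V) :
    Representation.asAlgebraHom (ρ.comp (f : K →* K') : Representation k K V) z =
      ρ.asAlgebraHom z' := by
  have := Fintype.ofFinite K
  have : Finite K' := Finite.of_equiv K f.toEquiv
  have := Fintype.ofFinite K'
  rw [asAlgebraHom_sum, asAlgebraHom_sum, ← f.toEquiv.sum_comp]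
  refine Finset.sum_congr rfl fun x _ => ?_
  rw [← h x]
  rfl

/-- **transport** of the number of simple modules on which an element acts as the identity -/
theorem numSimpleIn_congr [Finite K] (f : K ≃* K') {z : MonoidAlgebra k K}
    {z' : MonoidAlgebra k K'} (h : ∀ x, z'.coeff (f x) = z.coeff x) :
    numSimpleIn z = numSimpleIn z' := by
  symm
  unfold numSimpleIn
  have hin : ∀ a : IrrRep k K', InBlock (pullIrr f a) z ↔ InBlock a z' := by
    intro a
    unfold InBlock
    rw [← asAlgebraHom_pull f h]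
    rfl
  have hE : ∀ (K : Type) [Group K] (P : IrrRep k K → Prop),
      Equivalence (fun a b : {a : IrrRep k K // P a} => IrrRep.Iso a.1 b.1) := fun K _ P =>
    ⟨fun a => (isoEqv k K).refl _, fun h => (isoEqv k K).symm h,
      fun h h' => (isoEqv k K).trans h h'⟩
  let F : (Quot fun a b : {a : IrrRep k K' // InBlock a z'} => IrrRep.Iso a.1 b.1) →
      (Quot fun a b : {a : IrrRep k K // InBlock a z} => IrrRep.Iso a.1 b.1) :=
    Quot.map (fun a => ⟨pullIrr f a.1, (hin a.1).2 a.2⟩) fun a b h => pullIrr_iso h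
  refine Nat.card_congr (Equiv.ofBijective F ⟨?_, ?_⟩)
  · rintro ⟨a⟩ ⟨b⟩ h
    have h1 := ((hE K _).quot_mk_eq_iff _ _).1 h
    have h2 : (pullIrr f.symm (pullIrr f a.1)).Iso (pullIrr f.symm (pullIrr f b.1)) :=
      pullIrr_iso h1
    have h3 := pullIrr_pullIrr f.symm a.1
    have h4 := pullIrr_pullIrr f.symm b.1
    rw [MulEquiv.symm_symm] at h3 h4
    rw [h3, h4] at h2
    exact Quot.sound h2
  · rintro ⟨b, hb⟩
    refine ⟨Quot.mk _ ⟨pullIrr f.symm b, (hin _).1 ?_⟩, ?_⟩
    · rw [pullIrr_pullIrr]
      exact hb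
    · change Quot.mk _ _ = _
      congr 1
      exact Subtype.ext (pullIrr_pullIrr f b)

/-- the condition to act as `0` or `1` is transported -/
theorem zo_congr [Finite K] (f : K ≃* K') {z : MonoidAlgebra k K}
    {z' : MonoidAlgebra k K'} (h : ∀ x, z'.coeff (f x) = z.coeff x)
    (hz : ∀ a : IrrRep k K, a.1.2.asAlgebraHom z = 0 ∨ a.1.2.asAlgebraHom z = 1)
    (a : IrrRep k K') : a.1.2.asAlgebraHom z' = 0 ∨ a.1.2.asAlgebraHom z' = 1 := by
  have h1 := hz (pullIrr f a)
  rw [← asAlgebraHom_pull f h]
  exact h1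

end Transport

section Prod

variable {k : Type*} [Field k] {Q : Type} [Fintype Q] [DecidableEq Q] {Ω : Q → Type*}
  [∀ q, Fintype (Ω q)] {r : Q → ℕ}

/-- the expansion map -/
noncomputable def prodMapD (v : ∀ q, Module.Basis (Fin (r q)) k (Ω q → k)) :
    ((∀ q, Fin (r q)) → k) →ₗ[k] ((∀ q, Ω q) → k) where
  toFun a := fun ω => ∑ c : ∀ q, Fin (r q), a c * ∏ q, v q (c q) (ω q)
  map_add' a b := by
    funext ω
    simp only [Pi.add_apply, add_mul, Finset.sum_add_distrib]
  map_smul' t a := by
    funext ω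
    simp only [Pi.smul_apply, smul_eq_mul, RingHom.id_apply, Finset.mul_sum, mul_assoc]

omit [∀ q, Fintype (Ω q)] in
theorem prodMapD_apply (v : ∀ q, Module.Basis (Fin (r q)) k (Ω q → k))
    (a : (∀ q, Fin (r q)) → k) (ω : ∀ q, Ω q) :
    prodMapD v a ω = ∑ c : ∀ q, Fin (r q), a c * ∏ q, v q (c q) (ω q) := rfl

theorem prodMapD_bijective (v : ∀ q, Module.Basis (Fin (r q)) k (Ω q → k)) :
    Function.Bijective (prodMapD v) := by
  classical
  have hsurj : Function.Surjective (prodMapD v) := by
    rw [← LinearMap.range_eq_top, eq_top_iff]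
    intro F _
    rw [← Finset.univ_sum_single F]
    refine Submodule.sum_mem _ fun ω _ => ?_
    refine ⟨fun c => F ω * ∏ q, (v q).repr (Pi.single (ω q) 1) (c q), ?_⟩
    funext ω'
    rw [prodMapD_apply]
    have h1 : ∀ q, (Pi.single (ω q) (1 : k) : Ω q → k) (ω' q) =
        ∑ i, (v q).repr (Pi.single (ω q) 1) i * v q i (ω' q) := by
      intro q
      conv_lhs => rw [← (v q).sum_repr (Pi.single (ω q) (1 : k))]
      rw [Finset.sum_apply]
      rfl
    have h2 : ∑ c : ∀ q, Fin (r q), (F ω * ∏ q, (v q).repr (Pi.single (ω q) 1) (c q)) *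
        ∏ q, v q (c q) (ω' q) = F ω * ∏ q, (Pi.single (ω q) (1 : k) : Ω q → k) (ω' q) := by
      simp only [h1]
      rw [Finset.prod_univ_sum, Finset.mul_sum]
      rw [Fintype.piFinset_univ]
      refine Finset.sum_congr rfl fun c _ => ?_
      rw [mul_assoc, ← Finset.prod_mul_distrib]
    rw [h2]
    by_cases h : ω' = ω
    · subst h
      have h3 : ∏ q, (Pi.single (ω' q) (1 : k) : Ω q → k) (ω' q) = 1 :=
        Finset.prod_eq_one fun q _ => Pi.single_eq_same _ _
      rw [Pi.single_eq_same, h3, mul_one]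
    · rw [Pi.single_eq_of_ne h]
      obtain ⟨q, hq⟩ := Function.ne_iff.1 h
      have h3 : ∏ q, (Pi.single (ω q) (1 : k) : Ω q → k) (ω' q) = 0 :=
        Finset.prod_eq_zero (mem_univ q) (Pi.single_eq_of_ne hq _)
      rw [h3, mul_zero]
  refine ⟨?_, hsurj⟩
  have hcard : Module.finrank k ((∀ q, Fin (r q)) → k) = Module.finrank k ((∀ q, Ω q) → k) := by
    have h1 : ∀ q, Fintype.card (Ω q) = r q := by
      intro q
      have h2 := Module.finrank_eq_card_basis (v q)
      rw [Module.finrank_fintype_fun_eq_card, Fintype.card_fin] at h2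
      exact h2
    rw [Module.finrank_fintype_fun_eq_card, Module.finrank_fintype_fun_eq_card,
      Fintype.card_pi, Fintype.card_pi]
    exact Finset.prod_congr rfl fun q _ => by rw [h1 q, Fintype.card_fin]
  exact (LinearMap.injective_iff_surjective_of_finrank_eq_finrank hcard).2 hsurj

end Prod

section PiGroup

variable {p : ℕ} [hp : Fact p.Prime] {Q : Type} [Fintype Q] {K : Q → Type}
  [∀ q, Group (K q)] [∀ q, Finite (K q)]

theorem pr_pi (y : ∀ q, K q) : pr p y = fun q => pr p (y q) := by
  funext q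
  exact P179C905.map_pr p (Pi.evalMonoidHom K q) y

theorem cls_pi_iff (y y' : ∀ q, K q) :
    cls p y = cls p y' ↔ ∀ q, cls p (y q) = cls p (y' q) := by
  constructor
  · intro h q
    obtain ⟨t, ht⟩ := (cls_eq_iff _ _).1 h
    rw [cls_eq_iff]
    refine ⟨t q, ?_⟩
    rw [pr_pi, pr_pi] at ht
    exact congrFun ht q
  · intro h
    choose t ht using fun q => (cls_eq_iff (p := p) (y q) (y' q)).1 (h q)
    rw [cls_eq_iff]
    refine ⟨t, ?_⟩
    rw [pr_pi, pr_pi]
    exact funext ht

theorem cls_out (ω : Om p (∀ q, K q)) : cls p ω.out.1 = ω := by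
  rw [C2.cls_reg]
  exact Quotient.out_eq' ω

variable (p K) in
/-- the classes of a product -/
noncomputable def omPi : Om p (∀ q, K q) ≃ ∀ q, Om p (K q) :=
  Equiv.ofBijective (fun ω q => cls p (ω.out.1 q)) ⟨by
    intro ω ω' h
    rw [← cls_out ω, ← cls_out ω', cls_pi_iff]
    exact fun q => congrFun h q, by
    intro η
    choose y hy hyη using fun q => cls_surj' (p := p) (η q)
    refine ⟨cls p y, ?_⟩
    funext q
    rw [← hyη q]
    exact (cls_pi_iff _ _).1 (cls_out (cls p y)) q⟩

theorem omPi_cls (y : ∀ q, K q) : omPi p K (cls p y) = fun q => cls p (y q) := by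
  funext q
  exact (cls_pi_iff _ _).1 (cls_out (cls p y)) q

end PiGroup

section Main

variable {k : Type u} [Field k] [IsAlgClosed k]
  {Q : Type} [Fintype Q] {K : Q → Type} [∀ q, Group (K q)] [∀ q, Finite (K q)]

/-- **the number of simple modules of a product**: for central elements `z q` which act as `0` or
`1` on the simple modules -/
theorem numSimpleIn_pi (p : ℕ) [hp : Fact p.Prime] [CharP k p] (z : ∀ q, MonoidAlgebra k (K q))
    (hz : ∀ q, z q ∈ Subalgebra.center k (MonoidAlgebra k (K q)))
    (hZO : ∀ q, ∀ a : IrrRep k (K q),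
      a.1.2.asAlgebraHom (z q) = 0 ∨ a.1.2.asAlgebraHom (z q) = 1)
    (Z : MonoidAlgebra k (∀ q, K q)) (hZ : ∀ x, Z.coeff x = ∏ q, (z q).coeff (x q)) :
    numSimpleIn Z = ∏ q, numSimpleIn (z q) := by
  classical
  have := fun q => Fintype.ofFinite (K q)
  choose r v l h1 h2 h3 using fun q => exists_eigen p (z q) (hz q)
  have hl := fun q => h3 q (hZO q)
  have : ∀ q, Finite (Om p (K q)) := fun q => Quotient.finite _
  have := fun q => Fintype.ofFinite (Om p (K q))
  have hZc : Z ∈ Subalgebra.center k (MonoidAlgebra k (∀ q, K q)) := by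
    rw [P179C.mem_center_iff]
    intro g x
    change Z.coeff (g * x * g⁻¹) = Z.coeff x
    rw [hZ, hZ]
    exact Finset.prod_congr rfl fun q _ => (P179C.mem_center_iff _).1 (hz q) (g q) (x q)
  let E : ((∀ q, Fin (r q)) → k) ≃ₗ[k] (Om p (∀ q, K q) → k) :=
    (LinearEquiv.ofBijective (prodMapD v) (prodMapD_bijective v)).trans
      (LinearEquiv.funCongrLeft k k (omPi p K))
  let w : Module.Basis (∀ q, Fin (r q)) k (Om p (∀ q, K q) → k) :=
    (Pi.basisFun k (∀ q, Fin (r q))).map E
  have hw : ∀ (c : ∀ q, Fin (r q)) (y : ∀ q, K q),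
      w c (cls p y) = ∏ q, v q (c q) (cls p (y q)) := by
    intro c y
    change (E (Pi.basisFun k (∀ q, Fin (r q)) c)) (cls p y) = _
    rw [Pi.basisFun_apply]
    change prodMapD v (Pi.single c 1) (omPi p K (cls p y)) = _
    rw [omPi_cls, prodMapD_apply, Finset.sum_eq_single c]
    · rw [Pi.single_eq_same, one_mul]
    · intro c' _ hc'
      rw [Pi.single_eq_of_ne hc', zero_mul]
    · intro h
      exact absurd (Finset.mem_univ _) h
  rw [numSimpleIn_eq_of_eigen p Z hZc w (fun c => ∏ q, l q (c q)) ?_]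
  · simp only [h1]
    rw [← Nat.card_pi]
    refine Nat.card_congr
      { toFun := fun c q => ⟨c.1 q, ?_⟩
        invFun := fun c => ⟨fun q => (c q).1, ?_⟩
        left_inv := fun _ => rfl
        right_inv := fun _ => rfl }
    · rcases hl q (c.1 q) with h | h
      · have h4 := c.2
        rw [Finset.prod_eq_zero (mem_univ q) h] at h4
        exact absurd h4 zero_ne_one
      · exact h
    · exact Finset.prod_eq_one fun q _ => (c q).2
  · intro c y
    rw [hw]
    have h4 : ∀ g : ∀ q, K q, Z.coeff g * w c (cls p (g * y)) =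
        ∏ q, ((z q).coeff (g q) * v q (c q) (cls p (g q * y q))) := by
      intro g
      rw [hZ, hw, Finset.prod_mul_distrib]
      rfl
    rw [Finset.sum_congr rfl fun g _ => h4 g, ← Fintype.piFinset_univ, ← Finset.prod_univ_sum
      (fun _ => univ) (fun q g => (z q).coeff g * v q (c q) (cls p (g * y q))),
      ← Finset.prod_mul_distrib]
    exact Finset.prod_congr rfl fun q _ => h2 q (c q) (y q)

end Main

end P179H967
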