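import Vale.Agent.P179.R2.H843.Clf4
import Vale.Agent.P179.R2.H854.EqD
import Vale.Agent.P179.R2.H12.Half

/-!
# Conjugation of the functions on the cosets of a normal subgroup
-/

namespace P179H967

open P179H524 P179C P179A P179R P179H872 P179H843 P179P P179H12 Finset MonoidAlgebra

universe u

section

variable {k : Type u} [Field k] {Γ : Type} [Group Γ] [Fintype Γ] {N : Subgroup Γ} [hN : N.Normal]
  {c : MonoidAlgebra k N}

omit hN in
/-- the functions on a coset depend only on the coset -/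
theorem sm_LX_coset {p : ℕ} {g g' : Γ} (h : g⁻¹ * g' ∈ N) {ψ : Γ → k} (hψ : ψ ∈ LX p c g) :
    ψ ∈ LX p c g' := by
  refine ⟨fun x hx => hψ.1 x fun h1 => hx ?_, hψ.2⟩
  have h2 : g'⁻¹ * x = (g⁻¹ * g')⁻¹ * (g⁻¹ * x) := by group
  rw [h2]
  exact mul_mem (inv_mem h) h1

omit hN in
theorem sm_LK_coset {p : ℕ} {g g' : Γ} (h : g⁻¹ * g' ∈ N) {K : XK c} {ψ : Γ → k}
    (hψ : ψ ∈ LK p c g K.1) : ψ ∈ LK p c g' K.1 := by
  refine ⟨sm_LX_coset h hψ.1, fun x hx => ?_⟩
  have h2 : g' = g * (⟨_, h⟩ : N) := by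
    change _ = g * (g⁻¹ * g')
    group
  rw [h2, cf_mul_right]
  apply hψ.2
  obtain ⟨n, hn, A, hA, hA1, hK⟩ := K.2
  rw [hK] at hx ⊢
  have h3 : A x = 0 := hx
  change A _ = 0
  rw [map_mul, h3, mul_zero]

/-- the functions on the cosets are permuted by the conjugations -/
theorem sm_cj_LX {p : ℕ} [hp : Fact p.Prime] (hc : ∀ g : Γ, cjA g c = c)
    {g : Γ} (y : Γ) {ψ : Γ → k} (hψ : ψ ∈ LX p c g) : cjF y ψ ∈ LX p c (y * g * y⁻¹) := by
  refine ⟨fun h hh => hψ.1 _ fun h1 => hh ?_, fun m hm h => ?_, fun h => ?_, fun z => ?_⟩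
  · have h2 : (y * g * y⁻¹)⁻¹ * h = y * (g⁻¹ * (y⁻¹ * h * y)) * y⁻¹ := by group
    rw [h2]
    exact hN.conj_mem _ h1 y
  · have h1 := hψ.2.1 _ (hN.conj_mem m hm y⁻¹) (y⁻¹ * h * y)
    unfold cjF
    rw [← h1]
    congr 1
    group
  · have h1 := hψ.2.2.1 (y⁻¹ * h * y)
    unfold cjF
    rw [← h1]
    congr 1
    have h2 := Q7.map_pr p (MulAut.conj y⁻¹).toMonoidHom h (C2.ord_ne h)
    have h3 : ∀ z : Γ, (MulAut.conj y⁻¹).toMonoidHom z = y⁻¹ * z * y := by
      intro z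
      simp
    rw [h3, h3] at h2
    exact h2
  · have := Fintype.ofFinite N
    have h1 := hψ.2.2.2 (y⁻¹ * z * y)
    have h2 : ∀ w : Γ, ∑ g : Γ, (inc N c).coeff g * ψ (g * w) = P179H872.lin ψ (inc N c * single w 1) := by
      intro w
      rw [P179H872.lin_mul_single]
    have h3 : ∑ g : Γ, (inc N c).coeff g * cjF y ψ (g * z) =
        P179H872.lin (cjF y ψ) (inc N c * single z 1) := by
      rw [P179H872.lin_mul_single]
    rw [h3, lin_cjF]
    rw [h2] at h1
    change _ = ψ (y⁻¹ * z * y)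
    rw [← h1]
    congr 1
    have h4 : inc N c = single y⁻¹ 1 * inc N c * single y 1 := by
      have h5 := inc_cjA y⁻¹ c
      rw [hc, inv_inv] at h5
      exact h5
    conv_rhs => rw [h4]
    simp only [mul_assoc, single_mul_single, mul_one]
    congr 3
    group

theorem sm_cj_LK {p : ℕ} [hp : Fact p.Prime] (hc : ∀ g : Γ, cjA g c = c)
    {g : Γ} (y : Γ) {K : XK c} {ψ : Γ → k} (hψ : ψ ∈ LK p c g K.1) :
    cjF y ψ ∈ LK p c (y * g * y⁻¹) (smX hc y K).1 := by
  refine ⟨sm_cj_LX hc y hψ.1, fun x hx => ?_⟩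
  rw [mem_smX] at hx
  rw [cf_cjF]
  have h2 : y⁻¹ * (y * g * y⁻¹) * y = g := by group
  rw [h2]
  exact hψ.2 _ hx

open scoped Classical in
/-- `LG` and `LX` agree for a normal subgroup of index prime to `p` -/
theorem sm_LG_eq {p : ℕ} [hp : Fact p.Prime] (hidx : ¬ p ∣ N.index) {e : Γ → k}
    (he : ∀ x, x ∉ N → e x = 0) (g : Γ) :
    P179H854.LG p N e g = LX p (P179Y.mkF fun x : N => e x) g := by
  have hinc : ∀ x, (inc N (P179Y.mkF fun x : N => e x)).coeff x = e x := by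
    intro x
    rw [P179H12.inc_mkF N e he, P179Y.coeff_mkF]
  ext ψ
  rw [P179H854.mem_LG, mem_LX]
  refine and_congr_right fun h1 => and_congr_right fun _ => and_congr ?_ ?_
  · constructor
    · intro h x
      by_cases hx : g⁻¹ * x ∈ N
      · exact h x hx
      · rw [h1 x hx]
        apply h1
        intro h2
        apply hx
        rw [← QuotientGroup.eq] at h2 ⊢
        rw [h2]
        exact pr_coset p hidx x
    · intro h x _
      exact h x
  · simp only [hinc]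

end

end P179H967
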