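import Vale.Agent.P179.R2.H854.Mono2

/-!
# Counting the invariants of a monomial action on pairs
-/

namespace P179H967

open Finset Module P179H854

open scoped Classical

/-- the pairs `(a, x)` with `a x = x` -/
abbrev FY (A X : Type*) [Group A] [MulAction A X] : Type _ := {z : A × X // z.1 • z.2 = z.2}

/-- the conjugation action on the pairs -/
@[reducible] def actFY (A X : Type*) [Group A] [MulAction A X] : MulAction A (FY A X) where
  smul q z := ⟨(q * z.1.1 * q⁻¹, q • z.1.2), by
    rw [mul_smul, mul_smul, inv_smul_smul, z.2]⟩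
  one_smul z := Subtype.ext (Prod.ext (by
    change 1 * z.1.1 * 1⁻¹ = z.1.1
    rw [one_mul, inv_one, mul_one]) (one_smul _ _))
  mul_smul q q' z := Subtype.ext (Prod.ext (by
    change q * q' * z.1.1 * (q * q')⁻¹ = q * (q' * z.1.1 * q'⁻¹) * q⁻¹
    group) (mul_smul _ _ _))

section

variable {k : Type*} [Field k] {A X V : Type*} [Group A] [Fintype A] [Fintype X] [MulAction A X]
  [AddCommGroup V] [Module k V] {v : FY A X → V} {C : A → V →ₗ[k] V} {κ : A → FY A X → k}
  {L : k → ℂ}

omit [Fintype A] [Fintype X] in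
theorem actFY_fst (q : A) (z : FY A X) : ((actFY A X).toSMul.smul q z).1.1 = q * z.1.1 * q⁻¹ := rfl

omit [Fintype A] [Fintype X] in
theorem actFY_snd (q : A) (z : FY A X) : ((actFY A X).toSMul.smul q z).1.2 = q • z.1.2 := rfl

/-- the vectors of the first component `a` -/
def va (v : FY A X → V) (a : A) (K : {K : X // a • K = K}) : V := v ⟨(a, K.1), K.2⟩

omit [Fintype A] [Fintype X] in
theorem va_li (hv : LinearIndependent k v) (a : A) : LinearIndependent k (va v a) := by
  refine hv.comp (fun K : {K : X // a • K = K} => (⟨(a, K.1), K.2⟩ : FY A X)) fun K K' h => ?_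
  exact Subtype.ext (congrArg (fun z : FY A X => z.1.2) h)

/-- the count of the invariants -/
theorem abs_inv (hv : LinearIndependent k v)
    (hC1 : ∀ z, C 1 (v z) = v z) (hCm : ∀ q q' z, C (q * q') (v z) = C q (C q' (v z)))
    (hκ : ∀ q z, C q (v z) = κ q z • v ((actFY A X).toSMul.smul q z))
    (hA : (Nat.card A : k) ≠ 0) (hL : Lift k (Nat.card A) L) {I : Submodule k V}
    (hI : ∀ w, w ∈ I ↔ w ∈ Submodule.span k (Set.range v) ∧ ∀ q, C q w = w) :
    (Nat.card A : ℂ) * finrank k I =
      ∑ q : A, ∑ z : FY A X, if (actFY A X).toSMul.smul q z = z then L (κ q z) else 0 := by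
  let _ := actFY A X
  set W : Submodule k V := Submodule.span k (Set.range v) with hW
  have hCW : ∀ q, ∀ w ∈ W, C q w ∈ W := by
    intro q w hw
    have h1 : W ≤ W.comap (C q) := by
      rw [hW, Submodule.span_le]
      rintro _ ⟨z, rfl⟩
      change C q (v z) ∈ W
      rw [hκ]
      exact Submodule.smul_mem _ _ (Submodule.subset_span ⟨_, rfl⟩)
    exact h1 hw
  have hCm' : ∀ q q', ∀ w ∈ W, C (q * q') w = C q (C q' w) := by
    intro q q' w hw
    have h1 : W ≤ LinearMap.eqLocus (C (q * q')) (C q ∘ₗ C q') := by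
      rw [hW, Submodule.span_le]
      rintro _ ⟨z, rfl⟩
      exact hCm q q' z
    exact h1 hw
  have hC1' : ∀ w ∈ W, C 1 w = w := by
    intro w hw
    have h1 : W ≤ LinearMap.eqLocus (C 1) LinearMap.id := by
      rw [hW, Submodule.span_le]
      rintro _ ⟨z, rfl⟩
      exact hC1 z
    exact h1 hw
  let τ : Representation k A W :=
    { toFun := fun q => (C q).restrict (hCW q)
      map_one' := by
        ext w
        exact hC1' w w.2
      map_mul' := fun q q' => by
        ext w
        exact hCm' q q' w w.2 }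
  have hτ : ∀ q (w : W), ((τ q w : W) : V) = C q w := fun q w => rfl
  let b : Basis (FY A X) k W := Basis.span hv
  have hb : ∀ z, (b z : V) = v z := fun z =>
    congrArg Subtype.val (Basis.span_apply hv z)
  have hτb : ∀ q z, τ q (b z) = κ q z • b (q • z) := by
    intro q z
    apply Subtype.ext
    rw [hτ, hb, hκ]
    change _ = κ q z • (b (q • z) : V)
    rw [hb]
    rfl
  have hmono : Mono b τ := fun q z => ⟨κ q z, hτb q z⟩
  have h1 := card_mul_finrank_inv hA hL hmono
  have h2 : finrank k τ.invariants = finrank k I := by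
    refine LinearEquiv.finrank_eq
      { toFun := fun w => ⟨(w.1 : V), (hI _).2 ⟨w.1.2, fun q => congrArg Subtype.val (w.2 q)⟩⟩
        map_add' := fun _ _ => rfl
        map_smul' := fun _ _ => rfl
        invFun := fun w => ⟨⟨w.1, ((hI _).1 w.2).1⟩, fun q =>
          Subtype.ext (((hI _).1 w.2).2 q)⟩
        left_inv := fun _ => rfl
        right_inv := fun _ => rfl }
  rw [← h2, h1]
  refine Finset.sum_congr rfl fun q _ => ?_
  unfold trL
  refine Finset.sum_congr rfl fun z _ => ?_
  have h3 : dg b (τ q) z = if q • z = z then κ q z else 0 := by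
    unfold dg
    rw [hτb, map_smul, Finsupp.smul_apply, Basis.repr_self]
    by_cases h : q • z = z
    · rw [h, if_pos rfl, Finsupp.single_eq_same, smul_eq_mul, mul_one]
    · rw [if_neg h, Finsupp.single_eq_of_ne (Ne.symm h), smul_zero]
  rw [h3]
  by_cases h : q • z = z
  · rw [if_pos h]
    exact (if_pos h).symm
  · rw [if_neg h, hL.zero]
    exact (if_neg h).symm

omit [Fintype A] in
/-- the lifted trace on the span of the vectors of the first component `a` -/
theorem abs_trL (hv : LinearIndependent k v)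
    (hκ : ∀ q z, C q (v z) = κ q z • v ((actFY A X).toSMul.smul q z)) (hL0 : L 0 = 0)
    {a q : A} (haq : a * q = q * a)
    (f : Submodule.span k (Set.range (va v a)) →ₗ[k] Submodule.span k (Set.range (va v a)))
    (hf : ∀ w, (f w : V) = C q w) :
    (∀ K : {K : X // a • K = K}, ∃ K', ∃ c : k, f (Basis.span (va_li hv a) K) =
      c • Basis.span (va_li hv a) K') ∧
    trL L (Basis.span (va_li hv a)) f = ∑ K : {K : X // a • K = K},
      if q • K.1 = K.1 then L (κ q ⟨(a, K.1), K.2⟩) else 0 := by
  let b := Basis.span (va_li hv a)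
  have hb : ∀ K, (b K : V) = va v a K := fun K =>
    congrArg Subtype.val (Basis.span_apply (va_li hv a) K)
  have hst : ∀ K : {K : X // a • K = K}, a • (q • K.1) = q • K.1 := by
    intro K
    rw [← mul_smul, haq, mul_smul, K.2]
  have hfb : ∀ K : {K : X // a • K = K}, f (b K) = κ q ⟨(a, K.1), K.2⟩ • b ⟨q • K.1, hst K⟩ := by
    intro K
    apply Subtype.ext
    rw [hf, hb]
    change C q (v _) = κ q ⟨(a, K.1), K.2⟩ • (b ⟨q • K.1, hst K⟩ : V)
    rw [hκ, hb]
    congr 2
    apply Subtype.ext
    refine Prod.ext ?_ rfl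
    change q * a * q⁻¹ = a
    rw [← haq, mul_inv_cancel_right]
  refine ⟨fun K => ⟨_, _, hfb K⟩, ?_⟩
  unfold trL
  refine Finset.sum_congr rfl fun K _ => ?_
  have h3 : dg b f K = if q • K.1 = K.1 then κ q ⟨(a, K.1), K.2⟩ else 0 := by
    unfold dg
    rw [hfb, map_smul, Finsupp.smul_apply, Basis.repr_self]
    by_cases h : q • K.1 = K.1
    · have h4 : (⟨q • K.1, hst K⟩ : {K : X // a • K = K}) = K := Subtype.ext h
      rw [h4, if_pos h, Finsupp.single_eq_same, smul_eq_mul, mul_one]
    · rw [if_neg h, Finsupp.single_eq_of_ne, smul_zero]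
      intro h4
      exact h (congrArg Subtype.val h4).symm
  change L (dg b f K) = _
  rw [h3]
  split_ifs with h
  · rfl
  · exact hL0

/-- the two counts together -/
theorem abs_sum (F : A → FY A X → ℂ) (T : A → A → ℂ)
    (hT : ∀ a q : A, a * q = q * a → T a q = ∑ K : {K : X // a • K = K},
      if q • K.1 = K.1 then F q ⟨(a, K.1), K.2⟩ else 0) :
    (∑ q : A, ∑ z : FY A X, if (actFY A X).toSMul.smul q z = z then F q z else 0) =
      ∑ᶠ z : A × A, if z.1 * z.2 = z.2 * z.1 then T z.1 z.2 else 0 := by
  let σ : FY A X ≃ (Σ a : A, {K : X // a • K = K}) :=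
    { toFun := fun z => ⟨z.1.1, z.1.2, z.2⟩
      invFun := fun s => ⟨(s.1, s.2.1), s.2.2⟩
      left_inv := fun _ => rfl
      right_inv := fun _ => rfl }
  rw [finsum_eq_sum_of_fintype, Fintype.sum_prod_type_right]
  refine Finset.sum_congr rfl fun q _ => ?_
  rw [← Equiv.sum_comp σ.symm (fun z : FY A X =>
    if (actFY A X).toSMul.smul q z = z then F q z else 0), Fintype.sum_sigma]
  refine Finset.sum_congr rfl fun a _ => ?_
  dsimp only
  by_cases haq : a * q = q * a
  · rw [if_pos haq, hT a q haq]
    refine Finset.sum_congr rfl fun K _ => ?_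
    have h1 : (actFY A X).toSMul.smul q (σ.symm ⟨a, K⟩) = σ.symm ⟨a, K⟩ ↔ q • K.1 = K.1 := by
      constructor
      · intro h
        exact congrArg (fun z : FY A X => z.1.2) h
      · intro h
        apply Subtype.ext
        refine Prod.ext ?_ h
        change q * a * q⁻¹ = a
        rw [← haq, mul_inv_cancel_right]
    exact if_congr h1 rfl rfl
  · rw [if_neg haq]
    refine Finset.sum_eq_zero fun K _ => if_neg fun h => haq ?_
    have h1 : q * a * q⁻¹ = a := congrArg (fun z : FY A X => z.1.1) h
    exact (mul_inv_eq_iff_eq_mul.1 h1).symm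

end

end P179H967
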