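import Vale.Agent.P179.R2.H967.SmB1
import Vale.Agent.P179.R2.H967.SmB2
import Vale.Agent.P179.R2.H872.FB

/-!
# The number of simple modules in terms of commuting pairs
-/

namespace P179H967

open P179H524 P179C P179A P179R P179H872 P179H843 P179P P179H12 Finset MonoidAlgebra P179H854

open scoped Classical

universe u

section

variable {k : Type u} [Field k] {Γ : Type} [Group Γ] [Fintype Γ] {N : Subgroup Γ} [hN : N.Normal]
  {c : MonoidAlgebra k N}

theorem sm_smul (hc : ∀ g : Γ, cjA g c = c) (q : Γ ⧸ N) (g : Γ) (hg : (g : Γ ⧸ N) = q) (K : XK c) :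
    (actQ hc).toSMul.smul q K = smX hc g K := by
  rw [← hg]
  rfl

omit hN in
/-- conjugation by an element of `N` -/
theorem sm_cj_of_mem {p : ℕ} {g : Γ} {ψ : Γ → k} (hψ : ψ ∈ LX p c g) {m : Γ} (hm : m ∈ N) :
    cjF m ψ = ψ := by
  funext h
  have h1 := hψ.2.1 m⁻¹ (inv_mem hm) h
  rw [inv_inv] at h1
  exact h1

variable (hcc : c ∈ Subalgebra.center k (MonoidAlgebra k N)) (hc2 : c * c = c)

include hcc hc2

/-- the vectors of the lines -/
theorem sm_exists (p : ℕ) [hp : Fact p.Prime] [IsAlgClosed k] [CharP k p]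
    (hidx : ¬ p ∣ N.index) (hc : ∀ g : Γ, cjA g c = c) (r : Γ ⧸ N → Γ)
    (hr : ∀ a, (r a : Γ ⧸ N) = a) [Fintype (XK c)] :
    letI := actQ hc
    ∃ (v : FY (Γ ⧸ N) (XK c) → Γ → k) (κ : Γ ⧸ N → FY (Γ ⧸ N) (XK c) → k),
      LinearIndependent k v ∧ (∀ z, v z ∈ LK p c (r z.1.1) z.1.2.1) ∧
      (∀ q z, cjL (r q) (v z) = κ q z • v ((actFY (Γ ⧸ N) (XK c)).toSMul.smul q z)) ∧
      (∀ a, LX p c (r a) = Submodule.span k (Set.range (va v a))) ∧
      ∀ ψ : Γ → k, ψ ∈ Submodule.span k (Set.range v) ↔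
        (∀ m ∈ N, ∀ g, ψ (m * g * m⁻¹) = ψ g) ∧ (∀ g, ψ (pr p g) = ψ g) ∧
        ∀ y, ∑ g : Γ, (inc N c).coeff g * ψ (g * y) = ψ y := by
  let iA := actQ hc
  have hsm : ∀ (q : Γ ⧸ N) (K : XK c), q • K = smX hc (r q) K := fun q K =>
    sm_smul hc q (r q) (hr q) K
  have hmemr : ∀ (a : Γ ⧸ N) (h : Γ), (r a)⁻¹ * h ∈ N ↔ (h : Γ ⧸ N) = a := by
    intro a h
    rw [← QuotientGroup.eq, hr, eq_comm]
  have hex : ∀ z : FY (Γ ⧸ N) (XK c), ∃ ψ ∈ LK p c (r z.1.1) z.1.2.1, ψ ≠ 0 := by
    intro z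
    refine LK_ex p hidx hc ?_
    rw [← hsm]
    exact z.2
  choose v hv hv0 using hex
  have hcoset : ∀ (q a : Γ ⧸ N), (r q * r a * (r q)⁻¹)⁻¹ * r (q * a * q⁻¹) ∈ N := by
    intro q a
    rw [← QuotientGroup.eq, QuotientGroup.mk_mul, QuotientGroup.mk_mul, QuotientGroup.mk_inv, hr,
      hr, hr]
  have hκ : ∀ q z, ∃ κ : k, cjL (r q) (v z) =
      κ • v ((actFY (Γ ⧸ N) (XK c)).toSMul.smul q z) := by
    intro q z
    refine LK_line' (hv _) (hv0 _) ?_
    have h1 := sm_LK_coset (hcoset q z.1.1) (sm_cj_LK hc (r q) (hv z))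
    have h2 : ((actFY (Γ ⧸ N) (XK c)).toSMul.smul q z).1.2 = smX hc (r q) z.1.2 := hsm q _
    rw [h2]
    exact h1
  choose κ hκ using hκ
  -- independence on a coset
  have hind : ∀ (a : Γ ⧸ N) (t : {K : XK c // a • K = K} → k),
      (∑ K, t K • va v a K) = 0 → ∀ K, t K = 0 := by
    intro a t ht K
    let w : XK c → Γ → k := fun K => if h : a • K = K then t ⟨K, h⟩ • va v a ⟨K, h⟩ else 0
    have hw : ∀ K, w K ∈ LK p c (r a) K.1 := by
      intro K
      by_cases h : a • K = K
      · have h2 : w K = t ⟨K, h⟩ • va v a ⟨K, h⟩ := dif_pos h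
        rw [h2]
        exact Submodule.smul_mem _ _ (hv ⟨(a, K), h⟩)
      · have h2 : w K = 0 := dif_neg h
        rw [h2]
        exact zero_mem _
    have h0 : ∑ K, w K = 0 := by
      rw [← Finset.sum_filter_of_ne (p := fun K : XK c => a • K = K)
        (fun K _ hK => by_contra fun h => hK (dif_neg h)),
        Finset.sum_subtype (p := fun K : XK c => a • K = K) _ fun x => by simp]
      refine Eq.trans (Finset.sum_congr rfl fun K _ => dif_pos K.2) ht
    have h2 := XK_indep hcc hc2 hw h0 K.1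
    have h3 : w K.1 = t K • va v a K := dif_pos K.2
    rw [h3] at h2
    exact (smul_eq_zero.1 h2).resolve_right (hv0 ⟨(a, K.1), K.2⟩)
  -- spanning on a coset
  have hspan : ∀ a, LX p c (r a) = Submodule.span k (Set.range (va v a)) := by
    intro a
    apply le_antisymm
    · intro ψ hψ
      obtain ⟨w, hw, hsum⟩ := XK_dec hcc hc2 p hidx hψ
      rw [hsum]
      refine Submodule.sum_mem _ fun K _ => ?_
      by_cases h0 : w K = 0
      · rw [h0]
        exact zero_mem _
      · have h1 : a • K = K := by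
          rw [hsm]
          exact LK_stable hc (hw K) h0
        obtain ⟨s, hs⟩ := LK_line' (hv ⟨(a, K), h1⟩) (hv0 _) (hw K)
        rw [hs]
        exact Submodule.smul_mem _ _ (Submodule.subset_span ⟨⟨K, h1⟩, rfl⟩)
    · rw [Submodule.span_le]
      rintro _ ⟨K, rfl⟩
      exact (hv ⟨(a, K.1), K.2⟩).1
  refine ⟨v, κ, ?_, hv, hκ, hspan, fun ψ => ⟨fun hψ => ?_, ?_⟩⟩
  · -- linear independence
    rw [Fintype.linearIndependent_iff]
    intro t ht z
    have h1 := hind z.1.1 (fun K => t ⟨(z.1.1, K.1), K.2⟩) ?_ ⟨z.1.2, z.2⟩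
    · exact h1
    · funext h
      rw [Finset.sum_apply, Pi.zero_apply]
      by_cases hh : (h : Γ ⧸ N) = z.1.1
      · have h2 := congrFun ht h
        rw [Finset.sum_apply, Pi.zero_apply] at h2
        rw [← h2]
        refine Finset.sum_of_injOn (fun K : {K : XK c // z.1.1 • K = K} =>
          (⟨(z.1.1, K.1), K.2⟩ : FY (Γ ⧸ N) (XK c))) ?_ (fun _ _ => Finset.mem_coe.2 (mem_univ _))
          ?_ fun K _ => rfl
        · intro K _ K' _ hKK
          exact Subtype.ext (congrArg (fun z : FY (Γ ⧸ N) (XK c) => z.1.2) hKK)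
        · intro z' _ hz'
          have h3 : v z' h = 0 := by
            refine (hv z').1.1 h fun h4 => hz' ?_
            rw [hmemr, hh] at h4
            refine ⟨⟨z'.1.2, by rw [h4]; exact z'.2⟩, Finset.mem_coe.2 (mem_univ _), ?_⟩
            apply Subtype.ext
            exact Prod.ext h4 rfl
          rw [Pi.smul_apply, h3, smul_zero]
      · refine Finset.sum_eq_zero fun K _ => ?_
        have h3 : va v z.1.1 K h = 0 := by
          refine (hv ⟨(z.1.1, K.1), K.2⟩).1.1 h fun h4 => hh ?_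
          rwa [hmemr] at h4
        rw [Pi.smul_apply, h3, smul_zero]
  · -- the functions in the span
    have key : Submodule.span k (Set.range v) ≤
        { carrier := {ψ : Γ → k | (∀ m ∈ N, ∀ g, ψ (m * g * m⁻¹) = ψ g) ∧
            (∀ g, ψ (pr p g) = ψ g) ∧
            ∀ y, ∑ g : Γ, (inc N c).coeff g * ψ (g * y) = ψ y}
          add_mem' := by
            rintro a b ⟨ha', ha'', ha'''⟩ ⟨hb', hb'', hb'''⟩
            refine ⟨fun m hm g => ?_, fun x => ?_, fun y => ?_⟩
            · simp only [Pi.add_apply, ha' m hm, hb' m hm]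
            · simp only [Pi.add_apply, ha'', hb'']
            · simp only [Pi.add_apply, mul_add, Finset.sum_add_distrib]
              rw [ha''', hb''']
          zero_mem' := ⟨fun _ _ _ => rfl, fun _ => rfl, fun y => by simp⟩
          smul_mem' := by
            rintro t a ⟨ha', ha'', ha'''⟩
            refine ⟨fun m hm g => ?_, fun x => ?_, fun y => ?_⟩
            · simp only [Pi.smul_apply, ha' m hm]
            · simp only [Pi.smul_apply, ha'']
            · simp only [Pi.smul_apply, smul_eq_mul]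
              conv_rhs => rw [← ha''' y, Finset.mul_sum]
              exact Finset.sum_congr rfl fun g _ => by ring } := by
      rw [Submodule.span_le]
      rintro _ ⟨z, rfl⟩
      exact (hv z).1.2
    exact key hψ
  · rintro ⟨h1, h2, h3⟩
    let w : Γ ⧸ N → Γ → k := fun a h => if (h : Γ ⧸ N) = a then ψ h else 0
    have hw1 : ∀ (a : Γ ⧸ N) (h : Γ), (h : Γ ⧸ N) = a → w a h = ψ h := fun a h hh => if_pos hh
    have hw2 : ∀ (a : Γ ⧸ N) (h : Γ), (h : Γ ⧸ N) ≠ a → w a h = 0 := fun a h hh => if_neg hh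
    have hsum : ψ = ∑ a, w a := by
      funext h
      rw [Finset.sum_apply, Finset.sum_eq_single (h : Γ ⧸ N)]
      · exact (hw1 _ h rfl).symm
      · intro a _ ha
        exact hw2 a h (Ne.symm ha)
      · intro hh
        exact absurd (mem_univ _) hh
    have hle : ∀ a, Submodule.span k (Set.range (va v a)) ≤ Submodule.span k (Set.range v) := by
      intro a
      apply Submodule.span_mono
      rintro _ ⟨K, rfl⟩
      exact ⟨_, rfl⟩
    rw [hsum]
    refine Submodule.sum_mem _ fun a _ => hle a ?_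
    rw [← hspan]
    have hconjN : ∀ m ∈ N, ∀ g : Γ, ((m * g * m⁻¹ : Γ) : Γ ⧸ N) = g := by
      intro m hm g
      rw [QuotientGroup.mk_mul, QuotientGroup.mk_mul, QuotientGroup.mk_inv,
        (QuotientGroup.eq_one_iff m).2 hm, one_mul, inv_one, mul_one]
    refine ⟨fun h hh => hw2 a h fun h' => hh ((hmemr a h).2 h'), fun m hm h => ?_, fun h => ?_,
      fun y => ?_⟩
    · by_cases hh : (h : Γ ⧸ N) = a
      · rw [hw1 a h hh, hw1 a _ ((hconjN m hm h).trans hh), h1 m hm]
      · rw [hw2 a h hh, hw2 a _ fun h' => hh ((hconjN m hm h).symm.trans h')]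
    · by_cases hh : (h : Γ ⧸ N) = a
      · rw [hw1 a h hh, hw1 a _ ((pr_coset p hidx h).trans hh), h2]
      · rw [hw2 a h hh, hw2 a _ fun h' => hh ((pr_coset p hidx h).symm.trans h')]
    · have := Fintype.ofFinite N
      have hmul : ∀ (m : N) (b : Γ), (((m : Γ) * b : Γ) : Γ ⧸ N) = b := by
        intro m b
        rw [QuotientGroup.mk_mul, (QuotientGroup.eq_one_iff _).2 m.2, one_mul]
      rw [sum_inc_coeff_mul N c (fun g => w a (g * y))]
      by_cases hh : (y : Γ ⧸ N) = a
      · have h4 := h3 y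
        rw [sum_inc_coeff_mul N c (fun g => ψ (g * y))] at h4
        rw [hw1 a y hh, ← h4]
        exact Finset.sum_congr rfl fun m _ => by rw [hw1 a _ ((hmul m y).trans hh)]
      · rw [hw2 a y hh]
        refine Finset.sum_eq_zero fun m _ => ?_
        rw [hw2 a _ fun h' => hh ((hmul m y).symm.trans h'), mul_zero]

end

end P179H967
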