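import Vale.Agent.P179.R2.H452.X1
import Vale.Agent.P179.R2.H12.Tst
import Vale.Agent.P179.R2.H443.F5
import Vale.Agent.P179.R2.H967.Eig

/-!
# The conjugates of the blocks below a functional
-/

namespace P179H967

open Subgroup Finset P179H524 P179C P179A P179P P179Y P179I P179H12 P179H452

open P179X (pp SameSec IrrB Srat)

open scoped Classical

universe u

section Conj

variable {k : Type u} [Field k] {G : Type} [Group G] [Fintype G]

omit [Field k] [Fintype G] in
theorem conj_mem_cz {g u v : G} (h : g * u * g⁻¹ = v) {x : G} (hx : x ∈ centralizer {u}) :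
    g * x * g⁻¹ ∈ centralizer {v} := by
  subst h
  rw [mem_centralizer_singleton_iff] at hx ⊢
  calc g * x * g⁻¹ * (g * u * g⁻¹) = g * (x * u) * g⁻¹ := by group
    _ = g * u * g⁻¹ * (g * x * g⁻¹) := by rw [hx]; group

omit [Field k] [Fintype G] in
theorem conj_mem_cz' {g u v : G} (h : g * u * g⁻¹ = v) {x : G} (hx : x ∈ centralizer {v}) :
    g⁻¹ * x * g ∈ centralizer {u} := by
  have h1 : g⁻¹ * v * (g⁻¹)⁻¹ = u := by rw [← h]; group
  have h2 := conj_mem_cz h1 hx
  rwa [inv_inv] at h2

/-- conjugation `C_G(u) ≃ C_G(g u g⁻¹)` -/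
def cEq (g u v : G) (h : g * u * g⁻¹ = v) : centralizer {u} ≃* centralizer {v} where
  toFun x := ⟨g * x * g⁻¹, conj_mem_cz h x.2⟩
  invFun x := ⟨g⁻¹ * x * g, conj_mem_cz' h x.2⟩
  left_inv x := Subtype.ext (by
    change g⁻¹ * (g * x * g⁻¹) * g = x
    group)
  right_inv x := Subtype.ext (by
    change g * (g⁻¹ * x * g) * g⁻¹ = x
    group)
  map_mul' x y := Subtype.ext (by
    change g * (x * y) * g⁻¹ = g * x * g⁻¹ * (g * y * g⁻¹)
    group)

omit [Fintype G] in
theorem invOn_cjc {g u v : G} (h : g * u * g⁻¹ = v) {z : G → k} (hz : InvOn (centralizer {v}) z) :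
    InvOn (centralizer {u}) (cj g⁻¹ z) := by
  constructor
  · intro c hc x
    have h1 := hz.1 _ (conj_mem_cz h hc) (g * x * g⁻¹)
    unfold cj
    calc z ((g⁻¹)⁻¹ * (c * x * c⁻¹) * g⁻¹)
        = z (g * c * g⁻¹ * (g * x * g⁻¹) * (g * c * g⁻¹)⁻¹) := by congr 1; group
      _ = z ((g⁻¹)⁻¹ * x * g⁻¹) := by
          rw [h1]
          congr 1
          group
  · intro x hx
    unfold cj
    refine hz.2 _ fun hcon => hx ?_
    have h3 := conj_mem_cz' h hcon
    have h4 : g⁻¹ * ((g⁻¹)⁻¹ * x * g⁻¹) * g = x := by group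
    rwa [h4] at h3

omit [Fintype G] in
theorem invOn_cjc' {g u v : G} (h : g * u * g⁻¹ = v) {z : G → k}
    (hz : InvOn (centralizer {u}) z) : InvOn (centralizer {v}) (cj g z) := by
  have h1 : g⁻¹ * v * (g⁻¹)⁻¹ = u := by rw [← h]; group
  have h2 := invOn_cjc h1 hz
  rwa [inv_inv] at h2

/-- the functional of the conjugate block -/
def mu (l : (G → k) → k) (g : G) : (G → k) → k := fun z => l (cj g⁻¹ z)

theorem mulH_mu {l : (G → k) → k} {g u v : G} (h : g * u * g⁻¹ = v)
    (hl : MulH (centralizer {u}) l) : MulH (centralizer {v}) (mu l g) where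
  add a b := by
    unfold mu
    rw [cj_add, hl.add]
  smul r a := by
    unfold mu
    rw [cj_smul, hl.smul]
  one := by
    unfold mu
    rw [cj_delta, hl.one]
  mul a b ha hb := by
    unfold mu
    rw [cj_conv, hl.mul _ _ (invOn_cjc h ha) (invOn_cjc h hb)]

end Conj

section Block

variable {k : Type u} [Field k] [IsAlgClosed k] {G : Type} [Group G] [Fintype G]

/-- the conjugate block -/
theorem exists_conj_block {l : (G → k) → k} {g u v : G} (h : g * u * g⁻¹ = v)
    (hl : MulH (centralizer {u}) l) {b : MonoidAlgebra k (centralizer {u})} (hb : IsBlock b)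
    (hlb : Low (centralizer {u}) l b) :
    ∃ b' : MonoidAlgebra k (centralizer {v}), IsBlock b' ∧ Low (centralizer {v}) (mu l g) b' ∧
      numSimpleIn b' = numSimpleIn b := by
  obtain ⟨b', hb', hlb'⟩ := exists_blk (mulH_mu h hl)
  refine ⟨b', hb', hlb', ?_⟩
  set θ := cEq g u v h with hθ
  have h1 : IsBlock (MonoidAlgebra.domCongr k k θ b) := P179H443.isBlock_map' _ hb
  have hco : ∀ x, (MonoidAlgebra.domCongr k k θ b).coeff (θ x) = b.coeff x := by
    intro x
    refine (MonoidAlgebra.coeff_domCongr _ _ _).trans ?_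
    rw [MulEquiv.symm_apply_apply]
  have h2 : bF (centralizer {v}) (MonoidAlgebra.domCongr k k θ b) =
      cj g (bF (centralizer {u}) b) := by
    have h3 : MonoidAlgebra.domCongr k k θ b =
        mkF fun x : centralizer {v} => cj g (bF (centralizer {u}) b) x := by
      ext y
      rw [coeff_mkF]
      refine (MonoidAlgebra.coeff_domCongr _ _ _).trans ?_
      unfold cj
      exact (ext_coe (centralizer {u}) (fun h => b.coeff h) (θ.symm y)).symm
    rw [h3]
    exact bF_mkF _ (invOn_cjc' h (invOn_bF hb.1)).2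
  have h3 : MonoidAlgebra.domCongr k k θ b = b' := by
    refine hlb'.unique hb' h1 ?_
    unfold mu
    rw [h2, ← cj_mul, inv_mul_cancel, cj_one, hlb.one hb]
    exact one_ne_zero
  rw [← h3]
  exact (numSimpleIn_congr θ hco).symm

end Block

end P179H967
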