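import Vale.Agent.P179.R2.H967.Sub1

/-!
# Counting the subsections
-/

namespace P179H967

open Subgroup Finset P179H524 P179C P179A P179P P179Y P179I P179H12 P179H452

open P179X (pp SameSec IrrB Srat)

open scoped Classical

universe u

section DC

variable {G : Type} [Group G] [Finite G]

omit [Finite G] in
theorem mem_cz {a x : G} : x ∈ centralizer {a} ↔ x * a = a * x := mem_centralizer_singleton_iff

/-- the double coset count -/
theorem dc_count (v : G) (T : Subgroup G) (S : Finset G)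
    (hS : ∀ g ∈ S, ∀ g' ∈ S, ∃ t ∈ T, g' * t⁻¹ * g⁻¹ ∈ centralizer {v}) :
    ∑ g ∈ S, Nat.card (T ⊓ centralizer {g⁻¹ * v * g} : Subgroup G) ≤
      Nat.card (centralizer {v} : Subgroup G) * Nat.card T := by
  rcases S.eq_empty_or_nonempty with rfl | ⟨g₀, hg₀⟩
  · simp
  choose! t ht ht' using hS g₀ hg₀
  rw [← Nat.card_prod, ← Finset.sum_coe_sort, ← Nat.card_sigma]
  have hmem : ∀ x : (Σ g : S, (T ⊓ centralizer {(g : G)⁻¹ * v * g} : Subgroup G)),
      (x.1 : G) * (t x.1 * x.2)⁻¹ * g₀⁻¹ ∈ centralizer {v} := by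
    rintro ⟨⟨g, hg⟩, c, hc⟩
    change g * (t g * c)⁻¹ * g₀⁻¹ ∈ centralizer {v}
    have hc2 : c ∈ centralizer {g⁻¹ * v * g} := hc.2
    have he : g * (g⁻¹ * v * g) * g⁻¹ = v := by group
    have h1 : g * c⁻¹ * g⁻¹ ∈ centralizer {v} := conj_mem_cz he (inv_mem hc2)
    have h2 := mul_mem h1 (ht' g hg)
    have h3 : g * c⁻¹ * g⁻¹ * (g * (t g)⁻¹ * g₀⁻¹) = g * (t g * c)⁻¹ * g₀⁻¹ := by group
    rwa [h3] at h2
  let f : (Σ g : S, (T ⊓ centralizer {(g : G)⁻¹ * v * g} : Subgroup G)) →
      (centralizer {v} : Subgroup G) × T :=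
    fun x => (⟨(x.1 : G) * (t x.1 * x.2)⁻¹ * g₀⁻¹, hmem x⟩,
      ⟨t x.1 * x.2, mul_mem (ht _ x.1.2) x.2.2.1⟩)
  refine Nat.card_le_card_of_injective f ?_
  rintro ⟨⟨g, hg⟩, c, hc⟩ ⟨⟨g', hg'⟩, c', hc'⟩ h
  have h1 : g * (t g * c)⁻¹ * g₀⁻¹ = g' * (t g' * c')⁻¹ * g₀⁻¹ :=
    congrArg (fun y => ((y.1 : (centralizer {v} : Subgroup G)) : G)) h
  have h2 : t g * c = t g' * c' := congrArg (fun y => ((y.2 : T) : G)) h
  rw [h2] at h1
  have h3 : g = g' := by simpa using h1
  subst h3
  have h4 : c = c' := mul_left_cancel h2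
  subst h4
  rfl

end DC

section NN

variable (p : ℕ) [hp : Fact p.Prime]

/-- the norm on the `p`-regular elements -/
noncomputable def nn {X : Type*} [Group X] [Fintype X] (f : X → ℂ) : ℝ :=
  ∑ s : X, if ¬ p ∣ orderOf s then Complex.normSq (f s) else 0

omit hp in
theorem nn_nonneg {X : Type*} [Group X] [Fintype X] (f : X → ℂ) : 0 ≤ nn p f :=
  Finset.sum_nonneg fun s _ => by
    split_ifs
    · exact le_rfl
    · exact Complex.normSq_nonneg _

variable {k : Type u} [Field k] [IsAlgClosed k] [CharP k p] (red : integralClosure ℤ ℂ →+* k)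

/-- the number of simple modules and the norms of the characters of a block -/
theorem block_sum {X : Type} [Group X] [Fintype X] {b : MonoidAlgebra k X} (hb : IsBlock b)
    {m : (X → k) → k} (hm : ∀ z : X → k, IsCF z → m z = centralChar b (mkF z)) :
    (numSimpleIn b : ℝ) * Nat.card X ≤ ∑ ψ : Irr X, if InL red m ψ.1 then nn p ψ.1 else 0 := by
  have hl := inL_iff (l := m) red hb hm
  have h2 : ∀ x y : X, ¬ SameSec p x y → ∑ χ ∈ IrrB red b, χ x * χ y⁻¹ = 0 :=
    fun x y hxy => sec_orth p red b x y hxy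
  obtain ⟨r, hr, hr2⟩ := P179P.N3 p red hb h2
  have h3 : (r : ℝ) * Nat.card X = ∑ ψ : Irr X, if InL red m ψ.1 then nn p ψ.1 else 0 := by
    have h4 : ((r : ℝ) * Nat.card X : ℂ) =
        ((∑ ψ : Irr X, if InL red m ψ.1 then nn p ψ.1 else 0 : ℝ) : ℂ) := by
      push_cast
      rw [show ((r : ℕ) : ℂ) * (Nat.card X : ℂ) = _ from hr2, Finset.sum_comm,
        sum_IrrB red b (fun χ => ∑ g ∈ univ.filter (fun g : X => ¬ p ∣ orderOf g), χ g * χ g⁻¹)]
      refine Finset.sum_congr rfl fun χ _ => ?_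
      by_cases hχ : CharInBlock red χ.1 b
      · rw [if_pos hχ, if_pos ((hl χ).2 hχ)]
        unfold nn
        push_cast
        rw [Finset.sum_filter]
        refine Finset.sum_congr rfl fun g _ => ?_
        split_ifs
        · rw [Complex.ofReal_zero]
        · rw [Irr.inv_eq_conj χ g, Complex.mul_conj]
      · rw [if_neg hχ, if_neg (fun h => hχ ((hl χ).1 h)), Complex.ofReal_zero]
    exact_mod_cast h4
  rw [← h3]
  exact mul_le_mul_of_nonneg_right (by exact_mod_cast hr) (Nat.cast_nonneg _)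

/-- the norm on the `p`-section of `v` -/
noncomputable def NN {G : Type} [Group G] [Fintype G] (l : (G → k) → k) (v : G) : ℝ :=
  ∑ g ∈ univ.filter (fun g : G => pp p g = v),
    ∑ χ : Irr G, if InL red l χ.1 then Complex.normSq (χ.1 g) else 0

/-- the norm on a section in terms of the centraliser -/
theorem NN_eq {G : Type} [Group G] [Fintype G] (l : (G → k) → k) {v : G}
    (hv : ∃ n : ℕ, v ^ p ^ n = 1) : NN p red l v =
      ∑ ψ : Irr (centralizer {v} : Subgroup G),
        if IndL red (centralizer {v}) l ψ.1 then nn p ψ.1 else 0 := by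
  have h1 : ∀ s : (centralizer {v} : Subgroup G), ¬ p ∣ orderOf s →
      (∑ χ : Irr G, if InL red l χ.1 then Complex.normSq (χ.1 ((s : G) * v)) else 0) =
      ∑ ψ : Irr (centralizer {v} : Subgroup G),
        if IndL red (centralizer {v}) l ψ.1 then Complex.normSq (ψ.1 s) else 0 := by
    intro s hs
    have h2 := P179P.kernel_form p red v hv (centralizer {v}) (fun x => mem_cz) l s s hs hs
    have h3 : ((∑ χ : Irr G, if InL red l χ.1 then
        Complex.normSq (χ.1 ((s : G) * v)) else 0 : ℝ) : ℂ) =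
        ((∑ ψ : Irr (centralizer {v} : Subgroup G),
        if IndL red (centralizer {v}) l ψ.1 then Complex.normSq (ψ.1 s) else 0 : ℝ) : ℂ) := by
      push_cast
      refine (Finset.sum_congr rfl fun χ _ => ?_).trans (h2.trans
        (Finset.sum_congr rfl fun ψ _ => ?_))
      · split_ifs
        · rw [Irr.inv_eq_conj χ, Complex.mul_conj]
        · exact Complex.ofReal_zero
      · split_ifs
        · rw [Irr.inv_eq_conj ψ, Complex.mul_conj]
        · exact Complex.ofReal_zero.symm
    exact_mod_cast h3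
  have h2 : NN p red l v = ∑ s : (centralizer {v} : Subgroup G), if ¬ p ∣ orderOf s then
      ∑ ψ : Irr (centralizer {v} : Subgroup G),
        (if IndL red (centralizer {v}) l ψ.1 then Complex.normSq (ψ.1 s) else 0) else 0 := by
    unfold NN
    rw [← Finset.sum_filter]
    symm
    refine Finset.sum_bij (fun s _ => (s : G) * v) ?_ ?_ ?_ ?_
    · intro s hs
      rw [mem_filter] at hs ⊢
      refine ⟨mem_univ _, ?_⟩
      have h4 : (s : G) * v = v * s := mem_cz.1 s.2
      rw [h4]
      exact P179P.pp_eq h4.symm hv (by rw [Subgroup.orderOf_coe]; exact hs.2)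
    · intro a _ b _ hab
      exact Subtype.ext (mul_right_cancel hab)
    · intro g hg
      rw [mem_filter] at hg
      have h5 : pp p g * P179C.pr p g = P179C.pr p g * pp p g := P179P.pp_comm g
      rw [hg.2] at h5
      refine ⟨⟨P179C.pr p g, mem_cz.2 h5.symm⟩, ?_, ?_⟩
      · rw [mem_filter]
        refine ⟨mem_univ _, ?_⟩
        rw [← Subgroup.orderOf_coe]
        exact P179P.pr_regular' g
      · simp only
        rw [← h5, ← hg.2, P179P.pp_mul_pr]
    · intro s hs
      rw [mem_filter] at hs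
      exact (h1 s hs.2).symm
  rw [h2]
  have h3 : ∀ s : (centralizer {v} : Subgroup G), (if ¬ p ∣ orderOf s then
      ∑ ψ : Irr (centralizer {v} : Subgroup G),
        (if IndL red (centralizer {v}) l ψ.1 then Complex.normSq (ψ.1 s) else 0) else 0) =
      ∑ ψ : Irr (centralizer {v} : Subgroup G), if IndL red (centralizer {v}) l ψ.1 then
        (if ¬ p ∣ orderOf s then Complex.normSq (ψ.1 s) else 0) else 0 := by
    intro s
    by_cases hs : ¬ p ∣ orderOf s
    · simp only [if_pos hs]
    · simp only [if_neg hs]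
      symm
      exact Finset.sum_eq_zero fun ψ _ => by split_ifs <;> rfl
  rw [Finset.sum_congr rfl fun s _ => h3 s, Finset.sum_comm]
  refine Finset.sum_congr rfl fun ψ _ => ?_
  by_cases hψ : IndL red (centralizer {v}) l ψ.1
  · simp only [if_pos hψ]
    rfl
  · simp only [if_neg hψ, Finset.sum_const_zero]

end NN

end P179H967
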