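import Vale.Agent.P179.R2.H967.Sub2

/-!
# The number of `m`-rational characters and the subsections
-/

namespace P179H967

open Subgroup Finset P179H524 P179C P179A P179P P179Y P179I P179H12 P179H452

open P179X (pp SameSec IrrB Srat)

open scoped Classical

universe u

section Total

variable {p : ℕ} [hp : Fact p.Prime] {k : Type u} [Field k] [IsAlgClosed k] [CharP k p]
  (red : integralClosure ℤ ℂ →+* k) {G : Type} [Group G] [Fintype G]

/-- the sum of the section norms over the elements fixed by the power map -/
theorem total {B : MonoidAlgebra k G} (hB : IsBlock B) {D : Subgroup G}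
    (hDp : IsPGroup p D) (hab : ∀ a ∈ D, ∀ b ∈ D, a * b = b * a)
    {l : (G → k) → k} (hl : BP p D l) (hlz : ∀ z : G → k, IsCF z → l z = centralChar B (mkF z))
    (hT : ¬ p ∣ (centralizer (D : Set G)).relIndex (stabT D l)) {m : ℕ}
    (hmc : m.Coprime (Nat.card G)) (hm1 : m ≡ 1 [MOD ordCompl[p] (Nat.card G)])
    (hmp : m ≡ 1 [MOD p]) :
    ∑ v ∈ univ.filter (fun v : G => v ^ m = v), NN p red l v =
      ((X1 red l m).card : ℝ) * Nat.card G := by
  have hlB : ∀ χ : Irr G, InL red l χ.1 ↔ CharInBlock red χ.1 B := inL_iff red hB hlz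
  have hK : K7Pm p red l m := K7m red hl hDp hab hT hmc hmp
  have h2 : ∀ x y : G, ¬ SameSec p x y → ∑ χ ∈ IrrB red B, χ x * χ y⁻¹ = 0 :=
    fun x y hxy => sec_orth p red B x y hxy
  set F : G → ℂ := fun g => ∑ χ : Irr G,
      (if InL red l χ.1 then χ.1 (g ^ m) * χ.1 g⁻¹ else 0) with hF
  have hFB : ∀ g : G, F g = ∑ χ ∈ IrrB red B, χ (g ^ m) * χ g⁻¹ := by
    intro g
    simp only [hF]
    rw [sum_IrrB red B (fun χ => χ (g ^ m) * χ g⁻¹)]
    exact Finset.sum_congr rfl fun χ _ => if_congr (hlB χ) rfl rfl
  have e1 : ∑ g : G, F g = ((X1 red l m).card : ℂ) * Nat.card G := by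
    simp only [hF]
    rw [Finset.sum_comm]
    have e2 : ∀ χ : Irr G, (∑ g : G, if InL red l χ.1 then χ.1 (g ^ m) * χ.1 g⁻¹ else 0) =
        if χ ∈ X1 red l m then (Nat.card G : ℂ) else 0 := by
      intro χ
      by_cases hχ : InL red l χ.1
      · simp only [if_pos hχ]
        have e3 := irrChar_inner (irr_pow χ.2 hmc) χ.2
        beta_reduce at e3
        rw [e3]
        by_cases h : ∀ g, χ.1 (g ^ m) = χ.1 g
        · rw [if_pos ((P179H452.mem_X1 red).2 ⟨hχ, h⟩), if_pos (funext h),
            Nat.card_eq_fintype_card]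
        · rw [if_neg (fun h' => h ((P179H452.mem_X1 red).1 h').2),
            if_neg (fun h' => h (congrFun h'))]
      · simp only [if_neg hχ, Finset.sum_const_zero]
        rw [if_neg (fun h => hχ ((P179H452.mem_X1 red).1 h).1)]
    rw [Finset.sum_congr rfl fun χ _ => e2 χ, ← Finset.sum_filter, Finset.sum_const,
      nsmul_eq_mul]
    congr 2
    rw [Finset.filter_mem_eq_inter, Finset.univ_inter]
  -- the section of `u`
  have hsec : ∀ u : G, u ^ m ≠ u → ∑ g ∈ univ.filter (fun g : G => pp p g = u), F g = 0 := by
    intro u hu1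
    by_cases hup : ∃ n : ℕ, u ^ p ^ n = 1
    · by_cases hc : IsConj u (u ^ m)
      · obtain ⟨h, hh⟩ := isConj_iff.1 hc
        have h3 := sec_zero red l m hm1 hmc u hup h hh (centralizer {u})
          (fun x => by rw [mem_centralizer_singleton_iff])
          (hK u hup hu1 h hh (centralizer {u})
            (fun x => by rw [mem_centralizer_singleton_iff]))
        rw [← h3, ← Finset.sum_filter]
        symm
        refine Finset.sum_bij (fun s _ => (s : G) * u) ?_ ?_ ?_ ?_
        · intro s hs
          rw [mem_filter] at hs ⊢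
          refine ⟨mem_univ _, ?_⟩
          have h4 : (s : G) * u = u * s := mem_centralizer_singleton_iff.1 s.2
          rw [h4]
          exact pp_eq h4.symm hup (by rw [Subgroup.orderOf_coe]; exact hs.2)
        · intro a _ b _ hab
          exact Subtype.ext (mul_right_cancel hab)
        · intro g hg
          rw [mem_filter] at hg
          have h5 : pp p g * pr p g = pr p g * pp p g := pp_comm g
          rw [hg.2] at h5
          refine ⟨⟨pr p g, mem_centralizer_singleton_iff.2 h5.symm⟩, ?_, ?_⟩
          · rw [mem_filter]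
            refine ⟨mem_univ _, ?_⟩
            rw [← Subgroup.orderOf_coe]
            exact pr_regular' g
          · simp only
            rw [← h5, ← hg.2, pp_mul_pr]
        · intro s _
          rfl
      · refine Finset.sum_eq_zero fun g hg => ?_
        rw [mem_filter] at hg
        rw [hFB]
        refine h2 _ _ fun hs => hc ?_
        unfold SameSec at hs
        rw [pp_pow, hg.2] at hs
        exact hs.symm
    · refine Finset.sum_eq_zero fun g hg => ?_
      rw [mem_filter] at hg
      exact absurd (hg.2 ▸ pp_pow_eq_one g) hup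
  -- the sections of the elements with `u ^ m = u`
  have hpos : ∀ u : G, u ^ m = u →
      ∑ g ∈ univ.filter (fun g : G => pp p g = u), F g = NN p red l u := by
    intro u hum
    unfold NN
    push_cast
    refine Finset.sum_congr rfl fun g hg => ?_
    rw [mem_filter] at hg
    simp only [hF]
    refine Finset.sum_congr rfl fun χ _ => ?_
    have h5 : pp p g * pr p g = pr p g * pp p g := pp_comm g
    have hgm : g ^ m = g := by
      have h6 : g = pp p g * pr p g := (pp_mul_pr g).symm
      have h7 : (pr p g) ^ m = pr p g := pow_eq_of_modEq_of_dvd hm1 (pr_regular' g)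
      have h8 : (pp p g * pr p g) ^ m = pp p g * pr p g := by
        have h9 : Commute (pp p g) (pr p g) := h5
        rw [h9.mul_pow, h7, hg.2, hum]
      rw [← h6] at h8
      exact h8
    rw [hgm]
    by_cases hχ : InL red l χ.1
    · rw [if_pos hχ, if_pos hχ, Irr.inv_eq_conj χ g, Complex.mul_conj]
    · rw [if_neg hχ, if_neg hχ, Complex.ofReal_zero]
  have e4 : ∑ g : G, F g = ((∑ v ∈ univ.filter (fun v : G => v ^ m = v), NN p red l v : ℝ) : ℂ) := by
    rw [← Finset.sum_fiberwise_of_maps_to (t := univ) (g := fun g : G => pp p g)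
      (fun _ _ => mem_univ _) F, Finset.sum_filter]
    push_cast
    refine Finset.sum_congr rfl fun v _ => ?_
    by_cases hv : v ^ m = v
    · rw [if_pos hv, hpos v hv]
    · rw [if_neg hv, hsec v hv, Complex.ofReal_zero]
  rw [e4] at e1
  exact_mod_cast e1

end Total

end P179H967
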