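import Vale.Agent.P179.R2.H967.Sub3

/-!
# The subsection inequality
-/

namespace P179H967

open Subgroup Finset P179H524 P179C P179A P179P P179Y P179I P179H12 P179H452

open P179X (pp SameSec IrrB Srat)

open scoped Classical

universe u

section

variable {p : ℕ} [hp : Fact p.Prime] {k : Type u} [Field k] [IsAlgClosed k] [CharP k p]
  (red : integralClosure ℤ ℂ →+* k) {G : Type} [Group G] [Fintype G]

omit [IsAlgClosed k] in
/-- two conjugates with the same functional -/
theorem fuse {D : Subgroup G} {l : (G → k) → k} (hl : BP p D l) (hDp : IsPGroup p D)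
    (hab' : D ≤ centralizer (D : Set G))
    (hT : ¬ p ∣ (centralizer (D : Set G)).relIndex (stabT D l)) {v g g' : G}
    (hg : g⁻¹ * v * g ∈ D) (hg' : g'⁻¹ * v * g' ∈ D)
    (h : ∀ z, InvOn (centralizer {v}) z → mu l g z = mu l g' z) :
    ∃ t ∈ stabT D l, g' * t⁻¹ * g⁻¹ ∈ centralizer {v} := by
  set u : G := g⁻¹ * v * g with hu
  have hDH : D ≤ centralizer {u} := by
    intro x hx
    rw [mem_cz]
    exact (mem_centralizer_iff.1 (hab' hx) u hg).symm
  have hCH : centralizer (D : Set G) ≤ centralizer {u} := by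
    intro x hx
    rw [mem_cz]
    exact (mem_centralizer_iff.1 hx u hg).symm
  have hgu : g * u * g⁻¹ = v := by rw [hu]; group
  obtain ⟨c, hc, hn⟩ := fusionH hl hDp hab' hDH hCH
    (fun h => hT (h.trans (relIndex_stabT_lres_dvd hDH hCH))) (g := g⁻¹ * g') (by
      intro d hd
      rw [mem_cz]
      have h2 := mem_centralizer_iff.1 (hab' hg') d hd
      calc g⁻¹ * g' * d * (g⁻¹ * g')⁻¹ * u
          = g⁻¹ * g' * (d * (g'⁻¹ * v * g')) * (g⁻¹ * g')⁻¹ := by rw [hu]; group
        _ = u * (g⁻¹ * g' * d * (g⁻¹ * g')⁻¹) := by rw [h2, hu]; group) (by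
      intro z hz
      have h1 := h (cj g z) (invOn_cjc' hgu hz)
      unfold mu at h1
      rw [← cj_mul, ← cj_mul, inv_mul_cancel, cj_one] at h1
      rw [h1]
      congr 2
      group)
  refine ⟨_, hn, ?_⟩
  have h3 : g' * (c⁻¹ * (g⁻¹ * g'))⁻¹ * g⁻¹ = g * c * g⁻¹ := by group
  rw [h3]
  exact conj_mem_cz hgu hc

omit [IsAlgClosed k] [Fintype G] in
theorem lres_mu (l : (G → k) → k) (g v : G) {z : G → k} (hz : InvOn (centralizer {v}) z) :
    lres (centralizer {v}) (mu l g) (fun x => z x) = mu l g z := by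
  unfold lres
  rw [ext_of_supp hz.2]

omit hp [IsAlgClosed k] [CharP k p] in
/-- the characters of the conjugate block lie over `l` -/
theorem indL_of_mu {D : Subgroup G} {l : (G → k) → k} (hl : BP p D l) {v g : G}
    (hg : g⁻¹ * v * g ∈ D) {ψ : Irr (centralizer {v} : Subgroup G)}
    (h : InL red (lres (centralizer {v}) (mu l g)) ψ.1) : IndL red (centralizer {v}) l ψ.1 := by
  intro z hz
  rw [h _ (fun c x => hz c x)]
  unfold lres mu
  refine hl.congr fun x hx => ?_
  have hxu : x ∈ centralizer {g⁻¹ * v * g} := by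
    rw [mem_cz]
    exact (mem_centralizer_iff.1 hx _ hg).symm
  have he : g * (g⁻¹ * v * g) * g⁻¹ = v := by group
  have h1 := conj_mem_cz he hxu
  unfold cj
  rw [inv_inv, ext_of_mem _ _ h1]
  exact hz g x

/-- the inequality in one centraliser -/
theorem cent_ineq {D : Subgroup G} {l : (G → k) → k} (hl : BP p D l) (hDp : IsPGroup p D)
    (hab' : D ≤ centralizer (D : Set G))
    (hT : ¬ p ∣ (centralizer (D : Set G)).relIndex (stabT D l)) (P : Finset G)
    (hP : ∀ u ∈ P, u ∈ D) (L : G → ℕ)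
    (hL : ∀ u ∈ P, ∀ b : MonoidAlgebra k (centralizer {u} : Subgroup G), IsBlock b →
      Low (centralizer {u}) l b → L u ≤ numSimpleIn b) {v : G} (hv : ∃ n : ℕ, v ^ p ^ n = 1) :
    ∑ g ∈ univ.filter (fun g : G => g⁻¹ * v * g ∈ P),
      (Nat.card (stabT D l ⊓ centralizer {g⁻¹ * v * g} : Subgroup G) : ℝ) * L (g⁻¹ * v * g) ≤
      (Nat.card (stabT D l) : ℝ) * NN p red l v := by
  set H : Subgroup G := centralizer {v} with hH
  set T : Subgroup G := stabT D l with hTdef
  set c : G → ℝ := fun g => ∑ ψ : Irr H, if InL red (lres H (mu l g)) ψ.1 then nn p ψ.1 else 0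
    with hc
  have hHpos : (0 : ℝ) < Nat.card H := by exact_mod_cast Nat.card_pos
  have hcg : ∀ g ∈ univ.filter (fun g : G => g⁻¹ * v * g ∈ P),
      (Nat.card H : ℝ) * L (g⁻¹ * v * g) ≤ c g := by
    intro g hg
    have hgP := (mem_filter.1 hg).2
    have hgD := hP _ hgP
    have hgu : g * (g⁻¹ * v * g) * g⁻¹ = v := by group
    have hCH : centralizer (D : Set G) ≤ centralizer {g⁻¹ * v * g} := by
      intro x hx
      rw [mem_cz]
      exact (mem_centralizer_iff.1 hx _ hgD).symm
    have hml : MulH (centralizer {g⁻¹ * v * g}) l := BP.mulH hl hDp hab' hCH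
    obtain ⟨b, hb, hlb⟩ := exists_blk hml
    obtain ⟨b', hb', hlb', hn⟩ := exists_conj_block hgu hml hb hlb
    have h1 := block_sum p red (m := lres H (mu l g)) hb' (by
      intro z hz
      unfold lres
      rw [hlb' _ (invOn_ext0 hz)]
      congr 2
      funext h
      exact ext_coe H z h)
    have h2 := hL _ hgP b hb hlb
    rw [hn] at h1
    refine le_trans ?_ h1
    rw [mul_comm]
    exact mul_le_mul_of_nonneg_right (by exact_mod_cast h2) hHpos.le
  have h1 : (Nat.card H : ℝ) * ∑ g ∈ univ.filter (fun g : G => g⁻¹ * v * g ∈ P),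
      (Nat.card (T ⊓ centralizer {g⁻¹ * v * g} : Subgroup G) : ℝ) * L (g⁻¹ * v * g) ≤
      ∑ g ∈ univ.filter (fun g : G => g⁻¹ * v * g ∈ P),
        (Nat.card (T ⊓ centralizer {g⁻¹ * v * g} : Subgroup G) : ℝ) * c g := by
    rw [Finset.mul_sum]
    refine Finset.sum_le_sum fun g hg => ?_
    have h2 := hcg g hg
    calc (Nat.card H : ℝ) * ((Nat.card (T ⊓ centralizer {g⁻¹ * v * g} : Subgroup G) : ℝ) *
          L (g⁻¹ * v * g))
        = (Nat.card (T ⊓ centralizer {g⁻¹ * v * g} : Subgroup G) : ℝ) *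
          ((Nat.card H : ℝ) * L (g⁻¹ * v * g)) := by ring
      _ ≤ _ := mul_le_mul_of_nonneg_left h2 (Nat.cast_nonneg _)
  have h2 : ∑ g ∈ univ.filter (fun g : G => g⁻¹ * v * g ∈ P),
        (Nat.card (T ⊓ centralizer {g⁻¹ * v * g} : Subgroup G) : ℝ) * c g ≤
      (Nat.card H : ℝ) * Nat.card T * NN p red l v := by
    rw [NN_eq p red l hv, Finset.mul_sum]
    simp only [hc, Finset.mul_sum]
    rw [Finset.sum_comm]
    refine Finset.sum_le_sum fun ψ _ => ?_
    set S : Finset G := (univ.filter (fun g : G => g⁻¹ * v * g ∈ P)).filter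
      (fun g => InL red (lres H (mu l g)) ψ.1) with hS
    have h3 : ∑ g ∈ univ.filter (fun g : G => g⁻¹ * v * g ∈ P),
        (Nat.card (T ⊓ centralizer {g⁻¹ * v * g} : Subgroup G) : ℝ) *
          (if InL red (lres H (mu l g)) ψ.1 then nn p ψ.1 else 0) =
        ((∑ g ∈ S, Nat.card (T ⊓ centralizer {g⁻¹ * v * g} : Subgroup G) : ℕ) : ℝ) *
          nn p ψ.1 := by
      have h30 : ∑ g ∈ S, Nat.card (T ⊓ centralizer {g⁻¹ * v * g} : Subgroup G) =
          ∑ g ∈ univ.filter (fun g : G => g⁻¹ * v * g ∈ P),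
            if InL red (lres H (mu l g)) ψ.1 then
              Nat.card (T ⊓ centralizer {g⁻¹ * v * g} : Subgroup G) else 0 :=
        Finset.sum_filter _ _
      rw [h30, Nat.cast_sum, Finset.sum_mul]
      refine Finset.sum_congr rfl fun g _ => ?_
      by_cases h : InL red (lres H (mu l g)) ψ.1
      · rw [if_pos h, if_pos h]
      · rw [if_neg h, if_neg h, mul_zero, Nat.cast_zero, zero_mul]
    rw [h3]
    rcases S.eq_empty_or_nonempty with hS0 | ⟨g₀, hg₀⟩
    · rw [hS0, Finset.sum_empty, Nat.cast_zero, zero_mul]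
      split_ifs
      · exact mul_nonneg (by positivity) (nn_nonneg p _)
      · rw [mul_zero]
    · have hS' : ∀ g ∈ S, g⁻¹ * v * g ∈ P ∧ InL red (lres H (mu l g)) ψ.1 := by
        intro g hg
        rw [hS, mem_filter, mem_filter] at hg
        exact ⟨hg.1.2, hg.2⟩
      have hind : IndL red (centralizer {v}) l ψ.1 :=
        indL_of_mu red hl (hP _ (hS' g₀ hg₀).1) (hS' g₀ hg₀).2
      rw [if_pos hind]
      refine mul_le_mul_of_nonneg_right ?_ (nn_nonneg p _)
      have h4 := dc_count v T S (by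
        intro g hg g' hg'
        obtain ⟨h5, h6⟩ := hS' g hg
        obtain ⟨h7, h8⟩ := hS' g' hg'
        refine fuse hl hDp hab' hT (hP _ h5) (hP _ h7) fun z hz => ?_
        rw [← lres_mu l g v hz, ← lres_mu l g' v hz, ← h6 _ (isCF_of_invOn hz),
          ← h8 _ (isCF_of_invOn hz)])
      exact_mod_cast h4
  have h3 : (Nat.card H : ℝ) * ∑ g ∈ univ.filter (fun g : G => g⁻¹ * v * g ∈ P),
      (Nat.card (T ⊓ centralizer {g⁻¹ * v * g} : Subgroup G) : ℝ) * L (g⁻¹ * v * g) ≤
      (Nat.card H : ℝ) * (Nat.card T * NN p red l v) := by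
    rw [← mul_assoc]
    exact h1.trans h2
  exact le_of_mul_le_mul_left h3 hHpos

/-- **the subsection inequality** -/
theorem sub_count {B : MonoidAlgebra k G} (hB : IsBlock B) {D : Subgroup G}
    (hDp : IsPGroup p D) (hab : ∀ a ∈ D, ∀ b ∈ D, a * b = b * a)
    {l : (G → k) → k} (hl : BP p D l) (hlz : ∀ z : G → k, IsCF z → l z = centralChar B (mkF z))
    (hT : ¬ p ∣ (centralizer (D : Set G)).relIndex (stabT D l)) {m : ℕ}
    (hmc : m.Coprime (Nat.card G)) (hm1 : m ≡ 1 [MOD ordCompl[p] (Nat.card G)])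
    (hmp : m ≡ 1 [MOD p]) (P : Finset G) (hP : ∀ u ∈ P, u ∈ D ∧ u ^ m = u) (L : G → ℕ)
    (hL : ∀ u ∈ P, ∀ b : MonoidAlgebra k (centralizer {u} : Subgroup G), IsBlock b →
      Low (centralizer {u}) l b → L u ≤ numSimpleIn b) :
    ∑ u ∈ P, Nat.card (stabT D l ⊓ centralizer {u} : Subgroup G) * L u ≤
      Nat.card (stabT D l) * (X1 red l m).card := by
  have hab' : D ≤ centralizer (D : Set G) := by
    intro x hx
    rw [mem_centralizer_iff]
    intro y hy
    exact hab y hy x hx
  have htot := total red hB hDp hab hl hlz hT hmc hm1 hmp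
  have hv : ∀ v ∈ univ.filter (fun v : G => v ^ m = v),
      ∑ g ∈ univ.filter (fun g : G => g⁻¹ * v * g ∈ P),
      (Nat.card (stabT D l ⊓ centralizer {g⁻¹ * v * g} : Subgroup G) : ℝ) * L (g⁻¹ * v * g) ≤
      (Nat.card (stabT D l) : ℝ) * NN p red l v := by
    intro v _
    by_cases hne : ∃ g : G, g⁻¹ * v * g ∈ P
    · refine cent_ineq red hl hDp hab' hT P (fun u hu => (hP u hu).1) L hL ?_
      obtain ⟨g, hg⟩ := hne
      obtain ⟨n, hn⟩ := hDp ⟨_, (hP _ hg).1⟩
      have hn' : (g⁻¹ * v * g) ^ p ^ n = 1 := congrArg Subtype.val hn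
      refine ⟨n, ?_⟩
      have h1 : (g⁻¹ * v * g) ^ p ^ n = g⁻¹ * v ^ p ^ n * g := by
        have := conj_pow (a := g⁻¹) (b := v) (i := p ^ n)
        rwa [inv_inv] at this
      rw [h1] at hn'
      calc v ^ p ^ n = g * (g⁻¹ * v ^ p ^ n * g) * g⁻¹ := by group
        _ = 1 := by rw [hn']; group
    · rw [Finset.filter_false_of_mem fun g _ h => hne ⟨g, h⟩, Finset.sum_empty]
      refine mul_nonneg (Nat.cast_nonneg _) ?_
      unfold NN
      refine Finset.sum_nonneg fun g _ => Finset.sum_nonneg fun χ _ => ?_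
      split_ifs
      · exact Complex.normSq_nonneg _
      · exact le_rfl
  have h1 := Finset.sum_le_sum hv
  rw [← Finset.mul_sum, htot] at h1
  -- the left hand side
  set f : G → ℝ := fun u => (Nat.card (stabT D l ⊓ centralizer {u} : Subgroup G) : ℝ) * L u
    with hf
  have h2 : ∑ v ∈ univ.filter (fun v : G => v ^ m = v),
      ∑ g ∈ univ.filter (fun g : G => g⁻¹ * v * g ∈ P), f (g⁻¹ * v * g) =
      (Nat.card G : ℝ) * ∑ u ∈ P, f u := by
    have h3 : ∑ v ∈ univ.filter (fun v : G => v ^ m = v),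
      ∑ g ∈ univ.filter (fun g : G => g⁻¹ * v * g ∈ P), f (g⁻¹ * v * g) =
      ∑ v : G, ∑ g : G, if g⁻¹ * v * g ∈ P then f (g⁻¹ * v * g) else 0 := by
      rw [Finset.sum_filter]
      refine Finset.sum_congr rfl fun v _ => ?_
      by_cases hvm : v ^ m = v
      · rw [if_pos hvm, Finset.sum_filter]
      · rw [if_neg hvm]
        symm
        refine Finset.sum_eq_zero fun g _ => if_neg fun hg => hvm ?_
        have h4 := (hP _ hg).2
        have h5 : (g⁻¹ * v * g) ^ m = g⁻¹ * v ^ m * g := by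
          have := conj_pow (a := g⁻¹) (b := v) (i := m)
          rwa [inv_inv] at this
        rw [h5] at h4
        have h6 := mul_left_cancel (mul_right_cancel h4)
        exact h6
    rw [h3, Finset.sum_comm]
    have h4 : ∀ g : G, (∑ v : G, if g⁻¹ * v * g ∈ P then f (g⁻¹ * v * g) else 0) =
        ∑ u ∈ P, f u := by
      intro g
      rw [← Finset.sum_filter]
      refine Finset.sum_bij (fun v _ => g⁻¹ * v * g) ?_ ?_ ?_ ?_
      · intro v hv
        exact (mem_filter.1 hv).2
      · intro a _ b _ h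
        exact mul_left_cancel (mul_right_cancel h)
      · intro u hu
        refine ⟨g * u * g⁻¹, ?_, by group⟩
        rw [mem_filter]
        refine ⟨mem_univ _, ?_⟩
        have : g⁻¹ * (g * u * g⁻¹) * g = u := by group
        rwa [this]
      · intro v _
        rfl
    rw [Finset.sum_congr rfl fun g _ => h4 g, Finset.sum_const, nsmul_eq_mul,
      Finset.card_univ, Nat.card_eq_fintype_card]
  rw [h2] at h1
  have hG : (0 : ℝ) < Nat.card G := by exact_mod_cast Nat.card_pos
  have h3 : (Nat.card G : ℝ) * ∑ u ∈ P, f u ≤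
      (Nat.card G : ℝ) * (Nat.card (stabT D l) * (X1 red l m).card) := by
    refine h1.trans (le_of_eq ?_)
    ring
  have h4 := le_of_mul_le_mul_left h3 hG
  have h5 : ∑ u ∈ P, f u =
      ((∑ u ∈ P, Nat.card (stabT D l ⊓ centralizer {u} : Subgroup G) * L u : ℕ) : ℝ) := by
    simp only [hf]
    push_cast
    rfl
  rw [h5] at h4
  exact_mod_cast h4

end

end P179H967
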