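import Vale.Agent.P179.R2.H967.Sur2
import Vale.Agent.P179.R2.H364.Sec

/-!
# (SUR) `l(b_x) ≤ l(B)` for `x ∈ D` fixed by the inertial group
-/

namespace P179H967

open Subgroup Finset P179H524 P179C P179A P179P P179Y P179I P179H12 P179H452 P179H872 P179H364

open scoped Classical

universe u

section

variable {p : ℕ} [hp : Fact p.Prime] {k : Type u} [Field k] [IsAlgClosed k] [CharP k p]
  {G : Type} [Group G] [Fintype G]

omit hp [IsAlgClosed k] [CharP k p] in
/-- the block condition in `FB` in terms of the dual block -/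
theorem cv_eq_conv_dual (B : MonoidAlgebra k G) (ψ : G → k) (y : G) :
    ∑ g : G, B.coeff g * ψ (g * y) = conv (fun g => (dual B).coeff g) ψ y := by
  unfold conv
  rw [← Equiv.sum_comp (Equiv.inv G)]
  refine Finset.sum_congr rfl fun g _ => ?_
  change B.coeff g⁻¹ * ψ (g⁻¹ * y) = (dual B).coeff g * ψ (g⁻¹ * y)
  rw [coeff_dual]

include hp in
/-- an injective trace gives an inequality between the numbers of simple modules -/
theorem sur_aux {K : Subgroup G} {b : MonoidAlgebra k K} (hb : IsBlock b)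
    {B : MonoidAlgebra k G} (hB : IsBlock B)
    (hinj : ∀ f : G → k, InvOn K f → conv (bF K (dual b)) f = f →
      conv (fun g => (dual B).coeff g) (trG K f) = 0 → f = 0) :
    numSimpleIn b ≤ numSimpleIn B := by
  have hB' := isBlock_dual hB
  have hb' := isBlock_dual hb
  set b₁ : K → k := fun h => (dual b).coeff h with hb₁
  set B₁ : G → k := fun g => (dual B).coeff g with hB₁
  have hb₁cf : IsCF b₁ := (P179C.mem_center_iff _).1 hb'.1
  have hB₁cf : IsCF B₁ := (P179C.mem_center_iff _).1 hB'.1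
  have hb₁i : conv b₁ b₁ = b₁ := by
    funext h
    rw [hb₁, ← coeff_mul_eq_conv, hb'.2.1]
  have hB₁i : conv B₁ B₁ = B₁ := by
    funext h
    rw [hB₁, ← coeff_mul_eq_conv, hB'.2.1]
  have hbF : bF K (dual b) = P179Y.ext K b₁ := rfl
  -- the data of `ψ ∈ FB(b)`
  have hψ : ∀ ψ ∈ FB p b, IsCF ψ ∧ conv b₁ ψ = ψ := by
    intro ψ hψ
    refine ⟨hψ.1, ?_⟩
    funext y
    rw [hb₁, ← cv_eq_conv_dual]
    exact hψ.2.2 y
  have hreg : ∀ ψ ∈ FB p b, conv b₁ (reg p ψ) = reg p ψ := by
    intro ψ h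
    rw [conv_reg p hb₁cf hb₁i (hψ ψ h).1, (hψ ψ h).2]
  -- the map
  set Φ : (K → k) → G → k := fun ψ => conv B₁ (trG K (P179Y.ext K (reg p ψ))) with hΦ
  have hinvψ : ∀ ψ : K → k, IsCF ψ → InvOn K (P179Y.ext K (reg p ψ)) := fun ψ h =>
    invOn_ext0 (isCF_reg p h)
  have htr : ∀ ψ : K → k, IsCF ψ → IsCF (trG K (P179Y.ext K (reg p ψ))) := fun ψ h =>
    isCF_trG K (hinvψ ψ h).1
  have htrreg : ∀ ψ : K → k,
      reg p (trG K (P179Y.ext K (reg p ψ))) = trG K (P179Y.ext K (reg p ψ)) := by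
    intro ψ
    funext g
    by_cases hg : pr p g = g
    · rw [reg_of p hg]
    · rw [reg_of_not p hg]
      symm
      unfold trG
      refine Finset.sum_eq_zero fun c _ => ?_
      by_cases hc : c.out⁻¹ * g * c.out ∈ K
      · rw [ext_of_mem K _ hc]
        apply reg_of_not
        intro h
        apply hg
        have h1 := congrArg Subtype.val h
        rw [P179C.pr_coe] at h1
        change pr p (c.out⁻¹ * g * c.out) = c.out⁻¹ * g * c.out at h1
        have h2 := Q7.pr_conj p c.out⁻¹ g (orderOf_pos _).ne'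
        rw [inv_inv] at h2
        rw [h2] at h1
        exact mul_left_cancel (mul_right_cancel h1)
      · exact ext_of_not_mem K _ hc
  have hΦcf : ∀ ψ : K → k, IsCF ψ → IsCF (Φ ψ) := by
    intro ψ h
    exact isCF_conv hB₁cf (htr ψ h)
  have hΦreg : ∀ ψ : K → k, IsCF ψ → ∀ g, pr p g ≠ g → Φ ψ g = 0 := by
    intro ψ h g hg
    rw [hΦ]
    change conv B₁ (trG K (P179Y.ext K (reg p ψ))) g = 0
    rw [← htrreg, conv_reg p hB₁cf hB₁i (htr ψ h), reg_of_not p hg]
  have hΦB : ∀ ψ : K → k, conv B₁ (Φ ψ) = Φ ψ := by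
    intro ψ
    rw [hΦ]
    change conv B₁ (conv B₁ _) = conv B₁ _
    rw [← P179I.conv_assoc', hB₁i]
  have hmem : ∀ ψ ∈ FB p b, (fun g => Φ ψ (pr p g)) ∈ FB p B := by
    intro ψ h
    have h1 := exists_pr_ext p hB₁cf hB₁i (hΦcf ψ (hψ ψ h).1) (hΦreg ψ (hψ ψ h).1) (hΦB ψ)
    refine ⟨isCF_pr p (hΦcf ψ (hψ ψ h).1), fun g => by
      change Φ ψ (pr p (pr p g)) = Φ ψ (pr p g)
      rw [P179H364.pr_pr], fun y => ?_⟩
    refine (cv_eq_conv_dual B (fun g => Φ ψ (pr p g)) y).trans ?_
    exact congrFun h1 y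
  have hadd : ∀ ψ φ : K → k, Φ (ψ + φ) = Φ ψ + Φ φ := by
    intro ψ φ
    have h1 : reg p (ψ + φ) = reg p ψ + reg p φ := by
      funext y
      rw [Pi.add_apply]
      unfold reg
      by_cases h : pr p y = y
      · rw [if_pos h, if_pos h, if_pos h, Pi.add_apply]
      · rw [if_neg h, if_neg h, if_neg h, add_zero]
    have h2 : trG K (P179Y.ext K (reg p (ψ + φ))) =
        trG K (P179Y.ext K (reg p ψ)) + trG K (P179Y.ext K (reg p φ)) := by
      rw [h1, P179Y.ext_add]
      funext y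
      unfold trG
      simp only [Pi.add_apply, Finset.sum_add_distrib]
    change conv B₁ _ = conv B₁ _ + conv B₁ _
    rw [h2]
    funext y
    unfold conv
    simp only [Pi.add_apply, mul_add, Finset.sum_add_distrib]
  have hsmul : ∀ (c : k) (ψ : K → k), Φ (c • ψ) = c • Φ ψ := by
    intro c ψ
    have h1 : reg p (c • ψ) = c • reg p ψ := by
      funext y
      rw [Pi.smul_apply]
      unfold reg
      by_cases h : pr p y = y
      · rw [if_pos h, if_pos h, Pi.smul_apply]
      · rw [if_neg h, if_neg h, smul_zero]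
    have h2 : trG K (P179Y.ext K (reg p (c • ψ))) = c • trG K (P179Y.ext K (reg p ψ)) := by
      rw [h1, ext_smul]
      funext y
      unfold trG
      simp only [Pi.smul_apply, smul_eq_mul, Finset.mul_sum]
    change conv B₁ _ = c • conv B₁ _
    rw [h2, P179I.conv_smul_right]
  let L : FB p b →ₗ[k] FB p B :=
    { toFun := fun ψ => ⟨fun g => Φ ψ.1 (pr p g), hmem ψ.1 ψ.2⟩
      map_add' := fun ψ φ => by
        apply Subtype.ext
        funext g
        change Φ (ψ.1 + φ.1) (pr p g) = _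
        rw [hadd]
        rfl
      map_smul' := fun c ψ => by
        apply Subtype.ext
        funext g
        change Φ (c • ψ.1) (pr p g) = _
        rw [hsmul]
        rfl }
  have hL : Function.Injective L := by
    rw [injective_iff_map_eq_zero]
    intro ψ h0
    have h1 : Φ ψ.1 = 0 := by
      funext g
      by_cases hg : pr p g = g
      · have h2 := congrFun (congrArg Subtype.val h0) g
        change Φ ψ.1 (pr p g) = 0 at h2
        rwa [hg] at h2
      · exact hΦreg ψ.1 (hψ ψ.1 ψ.2).1 g hg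
    have h2 := hinj _ (hinvψ ψ.1 (hψ ψ.1 ψ.2).1) (by
        rw [hbF, ← ext_conv, hreg ψ.1 ψ.2]) h1
    apply Subtype.ext
    funext y
    have h3 : reg p ψ.1 (pr p y) = 0 := by
      rw [← P179Y.ext_coe K (reg p ψ.1) (pr p y), h2]
      rfl
    rw [reg_of p (P179H364.pr_pr p y), ψ.2.2.1] at h3
    exact h3
  rw [← finrank_FB (p := p) hb.1 hb.2.1, ← finrank_FB (p := p) hB.1 hB.2.1]
  exact LinearMap.finrank_le_finrank_of_injective hL

variable {D : Subgroup G} {l : (G → k) → k}

/-- **(SUR)** -/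
theorem sur (hl : BP p D l) (hD : IsPGroup p D) (hab : D ≤ centralizer (D : Set G))
    (hT : ¬ p ∣ (centralizer (D : Set G)).relIndex (stabT D l)) {x : G} (hx : x ∈ D)
    (hxT : ∀ t ∈ stabT D l, t * x * t⁻¹ = x) {B : MonoidAlgebra k G} (hB : IsBlock B)
    (hlB : ∀ z : G → k, IsCF z → l z = centralChar B (mkF z))
    {b : MonoidAlgebra k (centralizer {x} : Subgroup G)} (hb : IsBlock b)
    (hlb : Low (centralizer {x}) l b) : numSimpleIn b ≤ numSimpleIn B := by
  refine sur_aux (p := p) hb hB fun f hf hbf h0 => ?_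
  refine trace_inj (bp_dl hl) hD hab (by rw [stabT_dl]; exact hT) hx
    (fun t ht => hxT t ((mem_stabT_dl D t).1 ht)) (isBlock_dual hB) ?_ (isBlock_dual hb)
    (low_dual hb hlb) hf hbf h0
  intro z hz
  unfold dl
  rw [hlB _ (isCF_du hz), centralChar_dual hB (mkF_mem hz), dual_mkF]

end

end P179H967
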