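import Vale.Agent.P179.H143.Cong
import Vale.Agent.P179.H524.SimpleIn
import Vale.Agent.P179.H526.KDef
import Vale.Agent.P179.H234.Nil
import Mathlib.LinearAlgebra.Charpoly.ToMatrix

/-!
# Twisted class functions in a block: their dimension is the number of the stable characters
-/

namespace P179H967

open P179H524 P179C P179A P179P P179Y Finset Polynomial

open scoped Classical

section Idem

variable {F : Type*} [Field F] {V : Type*} [AddCommGroup V] [Module F V] [Module.Finite F V]

/-- the characteristic polynomial of a multiple of a projection -/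
theorem charpoly_smul_proj {f : V →ₗ[F] V} (hf : f * f = f) (b : F) :
    (b • f).charpoly = (X - C b) ^ Module.finrank F (LinearMap.range f) *
      X ^ Module.finrank F (LinearMap.ker f) := by
  have hp : LinearMap.IsProj (LinearMap.range f) f :=
    LinearMap.IsIdempotentElem.isProj_range f hf
  have h1 : b • f = ((LinearMap.range f).prodEquivOfIsCompl (LinearMap.ker f) hp.isCompl).conj
      (LinearMap.prodMap (b • LinearMap.id) 0) := by
    conv_lhs => rw [hp.eq_conj_prodMap]
    rw [← map_smul]
    congr 1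
    ext x <;> simp
  rw [h1, LinearEquiv.charpoly_conj, LinearMap.charpoly_prodMap]
  congr 1
  · have h2 : (b • LinearMap.id : LinearMap.range f →ₗ[F] LinearMap.range f) =
        algebraMap F (Module.End F (LinearMap.range f)) b := by
      rw [Algebra.algebraMap_eq_smul_one]
      rfl
    let bs := Module.finBasis F (LinearMap.range f)
    rw [← LinearMap.charpoly_toMatrix _ bs]
    have h3 : LinearMap.toMatrix bs bs (b • LinearMap.id) = Matrix.diagonal fun _ => b := by
      rw [map_smul, LinearMap.toMatrix_id]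
      ext i j
      simp [Matrix.one_apply, Matrix.diagonal_apply]
    rw [h3, Matrix.charpoly_diagonal]
    simp
  · let bs := Module.finBasis F (LinearMap.ker f)
    rw [← LinearMap.charpoly_toMatrix _ bs, map_zero, Matrix.charpoly_zero]
    simp

theorem charpoly_smul_idem {L : Type*} [Field L] {n : Type*} [Fintype n] [DecidableEq n] (P : Matrix n n L)
    (c : L) (hP : P * P = P) :
    (c • P).charpoly = (X - C c) ^ Module.finrank L (LinearMap.range P.toLin') *
      X ^ Module.finrank L (LinearMap.ker P.toLin') := by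
  have h1 : P.toLin' * P.toLin' = P.toLin' := by
    change P.toLin'.comp P.toLin' = P.toLin'
    rw [← Matrix.toLin'_mul, hP]
  rw [← charpoly_smul_proj h1 c, ← map_smul, Matrix.charpoly_toLin']

theorem rootMult_aux {L : Type*} [Field L] {c : L} (hc : c ≠ 0) (r s : ℕ) :
    rootMultiplicity c ((X - C c) ^ r * X ^ s) = r := by
  rw [rootMultiplicity_mul (mul_ne_zero (pow_ne_zero _ (X_sub_C_ne_zero c))
    (pow_ne_zero _ X_ne_zero)), rootMultiplicity_X_sub_C_pow,
    rootMultiplicity_eq_zero (p := X ^ s) (by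
      rw [IsRoot, eval_pow, eval_X]
      exact pow_ne_zero _ hc), add_zero]

/-- two idempotent matrices with a common lift have the same rank -/
theorem finrank_range_of_lift {A : Type*} [CommRing A] {F K : Type*} [Field F] [Field K]
    (f : A →+* F) (hf : Function.Injective f) (g : A →+* K) {n : Type*} [Fintype n] [DecidableEq n]
    (N : Matrix n n A) (b : A) (M : Matrix n n F) (hM : M * M = M) (hN : N.map f = f b • M)
    (M' : Matrix n n K) (hM' : M' * M' = M') (hN' : N.map g = g b • M') (hb : g b ≠ 0) :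
    Module.finrank K (LinearMap.range M'.toLin') = Module.finrank F (LinearMap.range M.toLin') := by
  have h1 := charpoly_smul_idem M (f b) hM
  have h2 := charpoly_smul_idem M' (g b) hM'
  rw [← hN, Matrix.charpoly_map] at h1
  rw [← hN', Matrix.charpoly_map] at h2
  set r := Module.finrank F (LinearMap.range M.toLin')
  set t := Module.finrank F (LinearMap.ker M.toLin')
  set r' := Module.finrank K (LinearMap.range M'.toLin')
  set t' := Module.finrank K (LinearMap.ker M'.toLin')
  have h3 : N.charpoly = (X - C b) ^ r * X ^ t := by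
    apply Polynomial.map_injective f hf
    rw [h1]
    simp
  rw [h3] at h2
  have h4 : (X - C (g b)) ^ r * X ^ t = (X - C (g b)) ^ r' * X ^ t' := by
    rw [← h2]
    simp
  have h5 := congrArg (rootMultiplicity (g b)) h4
  rw [rootMult_aux hb, rootMult_aux hb] at h5
  exact h5.symm

/-- the rank of an idempotent matrix is its trace -/
theorem finrank_range_eq_trace {L : Type*} [Field L] {n : Type*} [Fintype n] [DecidableEq n]
    (P : Matrix n n L)
    (hP : P * P = P) : (Module.finrank L (LinearMap.range P.toLin') : L) = P.trace := by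
  have h1 : P.toLin' * P.toLin' = P.toLin' := by
    change P.toLin'.comp P.toLin' = P.toLin'
    rw [← Matrix.toLin'_mul, hP]
  have hp : LinearMap.IsProj (LinearMap.range P.toLin') P.toLin' :=
    LinearMap.IsIdempotentElem.isProj_range _ h1
  rw [← hp.trace, Matrix.trace_toLin'_eq]

end Idem

section Twist

/-- the group `K` with the twisted conjugation `c • x = c x s(c)⁻¹` -/
def Tw {K : Type} [Group K] (_ : K ≃* K) : Type _ := K

variable {K : Type} [Group K] (s : K ≃* K)

variable {s} in
/-- the underlying element -/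
def toK (x : Tw s) : K := x

/-- an element as an element of the twisted set -/
def ofK (x : K) : Tw s := x

instance : MulAction K (Tw s) where
  smul c x := ofK s (c * toK x * (s c)⁻¹)
  one_smul x := by
    have h : ∀ y : K, 1 * y * (s 1)⁻¹ = y := fun y => by
      rw [map_one, inv_one, one_mul, mul_one]
    exact h x
  mul_smul c d x := by
    have h : ∀ y : K, c * d * y * (s (c * d))⁻¹ = c * (d * y * (s d)⁻¹) * (s c)⁻¹ := fun y => by
      rw [map_mul, mul_inv_rev]
      simp only [mul_assoc]
    exact h x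

/-- the twisted classes -/
abbrev Cl := MulAction.orbitRel.Quotient K (Tw s)

/-- the twisted class of an element -/
def tc (x : K) : Cl s := Quotient.mk'' (ofK s x)

/-- a representative of a twisted class -/
noncomputable def rp (ω : Cl s) : K := toK ω.out

theorem tc_rp (ω : Cl s) : tc s (rp s ω) = ω := Quotient.out_eq' ω

theorem tc_eq_iff {x y : K} : tc s x = tc s y ↔ ∃ c, c * y * (s c)⁻¹ = x := by
  unfold tc
  rw [Quotient.eq'']
  rfl

theorem tc_tw (c x : K) : tc s (c * x * (s c)⁻¹) = tc s x := (tc_eq_iff s).2 ⟨c, rfl⟩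

instance [Finite K] : Finite (Cl s) :=
  have : Finite (Tw s) := inferInstanceAs (Finite K)
  Quotient.finite _

noncomputable instance [Finite K] : Fintype (Cl s) := Fintype.ofFinite _

/-- the twisted class functions -/
def IsTw {R : Type*} (m : K → R) : Prop := ∀ c x, m (c * x * (s c)⁻¹) = m x

variable {R : Type*} [CommRing R] [Fintype K]

/-- the matrix of the convolution with `a` on the twisted class functions -/
noncomputable def TM (a : K → R) : Matrix (Cl s) (Cl s) R := Matrix.of fun ω ω' =>
  ∑ g : K, a g * (if tc s (g⁻¹ * rp s ω) = ω' then 1 else 0)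

variable {s}

omit s in
theorem conv_assoc (a b c : K → R) : conv (conv a b) c = conv a (conv b c) := by
  funext g
  unfold conv
  simp only [Finset.sum_mul, Finset.mul_sum]
  rw [Finset.sum_comm]
  refine Finset.sum_congr rfl fun t _ => ?_
  rw [← Equiv.sum_comp (Equiv.mulLeft t)]
  refine Finset.sum_congr rfl fun h _ => ?_
  simp only [Equiv.coe_mulLeft, mul_inv_rev, inv_mul_cancel_left]
  rw [mul_assoc, mul_assoc]

theorem isTw_conv {a m : K → R} (ha : IsCF a) (hm : IsTw s m) : IsTw s (conv a m) := by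
  intro c x
  unfold conv
  rw [← (MulAut.conj c).toEquiv.sum_comp]
  refine Finset.sum_congr rfl fun g _ => ?_
  change a (c * g * c⁻¹) * m ((c * g * c⁻¹)⁻¹ * (c * x * (s c)⁻¹)) = _
  rw [ha c g, show (c * g * c⁻¹)⁻¹ * (c * x * (s c)⁻¹) = c * (g⁻¹ * x) * (s c)⁻¹ by group, hm]

theorem TM_mulVec (a : K → R) (ψ : Cl s → R) (ω : Cl s) :
    (TM s a).mulVec ψ ω = ∑ g : K, a g * ψ (tc s (g⁻¹ * rp s ω)) := by
  simp only [Matrix.mulVec, dotProduct, TM, Matrix.of_apply, Finset.sum_mul]
  rw [Finset.sum_comm]
  refine Finset.sum_congr rfl fun g _ => ?_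
  rw [Finset.sum_eq_single (tc s (g⁻¹ * rp s ω))]
  · rw [if_pos rfl, mul_one]
  · intro ω' _ h
    rw [if_neg (Ne.symm h), mul_zero, zero_mul]
  · intro h
    exact absurd (Finset.mem_univ _) h

theorem TM_mulVec_tc {a : K → R} (ha : IsCF a) (ψ : Cl s → R) (x : K) :
    (TM s a).mulVec ψ (tc s x) = conv a (fun y => ψ (tc s y)) x := by
  have h1 : IsTw s (conv a (fun y => ψ (tc s y))) :=
    isTw_conv ha fun c y => by rw [tc_tw]
  obtain ⟨c, hc⟩ := (tc_eq_iff s).1 (tc_rp s (tc s x)).symm
  rw [TM_mulVec]
  have h2 := h1 c (rp s (tc s x))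
  rw [hc] at h2
  rw [h2]
  rfl

theorem TM_idem {a : K → R} (ha : IsCF a) (haa : conv a a = a) : TM s a * TM s a = TM s a := by
  apply Matrix.ext_of_mulVec_single
  intro ω
  rw [← Matrix.mulVec_mulVec]
  funext η
  rw [← tc_rp s η, TM_mulVec_tc ha]
  have h1 : (fun y => (TM s a).mulVec (Pi.single ω 1) (tc s y)) =
      conv a (fun y => (Pi.single ω 1 : Cl s → R) (tc s y)) := by
    funext y
    rw [TM_mulVec_tc ha]
  rw [h1, TM_mulVec_tc ha, ← conv_assoc, haa]

theorem TM_map {S : Type*} [CommRing S] (f : R →+* S) (a : K → R) (c : S) (a' : K → S)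
    (h : ∀ x, f (a x) = c * a' x) : (TM s a).map f = c • TM s a' := by
  ext ω ω'
  simp only [Matrix.map_apply, TM, Matrix.of_apply, Matrix.smul_apply, smul_eq_mul, map_sum,
    map_mul, h, Finset.mul_sum]
  refine Finset.sum_congr rfl fun g _ => ?_
  split_ifs <;> simp

/-- the twisted class functions fixed by `e` -/
noncomputable def MS {k : Type*} [Field k] (s : K ≃* K) (e : K → k) : Submodule k (K → k) where
  carrier := {m | IsTw s m ∧ conv e m = m}
  add_mem' := by
    rintro a b ⟨ha, ha'⟩ ⟨hb, hb'⟩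
    refine ⟨fun c x => by simp only [Pi.add_apply, ha c x, hb c x], ?_⟩
    funext g
    have h1 := congrFun ha' g
    have h2 := congrFun hb' g
    rw [Pi.add_apply, ← h1, ← h2]
    simp only [conv, Pi.add_apply, mul_add, Finset.sum_add_distrib]
  zero_mem' := by
    refine ⟨fun c x => rfl, ?_⟩
    funext g
    simp [conv]
  smul_mem' := by
    rintro c a ⟨ha, ha'⟩
    refine ⟨fun t x => by simp only [Pi.smul_apply, ha t x], ?_⟩
    funext g
    have h1 := congrFun ha' g
    rw [Pi.smul_apply, ← h1]
    simp only [conv, Pi.smul_apply, smul_eq_mul, Finset.mul_sum]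
    exact Finset.sum_congr rfl fun h _ => by ring

theorem mem_MS {k : Type*} [Field k] {e m : K → k} :
    m ∈ MS s e ↔ IsTw s m ∧ conv e m = m := Iff.rfl

/-- the dimension of the twisted class functions fixed by `e` -/
theorem finrank_MS {k : Type*} [Field k] {e : K → k} (he : IsCF e) (hee : conv e e = e) :
    Module.finrank k (MS s e) = Module.finrank k (LinearMap.range (TM s e).toLin') := by
  have h1 : (TM s e).toLin' * (TM s e).toLin' = (TM s e).toLin' := by
    change (TM s e).toLin'.comp (TM s e).toLin' = (TM s e).toLin'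
    rw [← Matrix.toLin'_mul, TM_idem he hee]
  have hp : LinearMap.IsProj (LinearMap.range (TM s e).toLin') (TM s e).toLin' :=
    LinearMap.IsIdempotentElem.isProj_range _ h1
  refine LinearEquiv.finrank_eq
    { toFun := fun m => ⟨fun ω => m.1 (rp s ω), hp.mem_iff_map_id.2 ?_⟩
      invFun := fun ψ => ⟨fun x => ψ.1 (tc s x), ⟨fun c x => congrArg ψ.1 (tc_tw s c x), ?_⟩⟩
      map_add' := fun _ _ => rfl
      map_smul' := fun _ _ => rfl
      left_inv := fun m => ?_
      right_inv := fun ψ => ?_ }
  · have h2 : ∀ x, m.1 (rp s (tc s x)) = m.1 x := by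
      intro x
      obtain ⟨c, hc⟩ := (tc_eq_iff s).1 (tc_rp s (tc s x))
      rw [← hc, m.2.1 c x]
    funext ω
    rw [Matrix.toLin'_apply, ← tc_rp s ω, TM_mulVec_tc he]
    simp only [h2]
    exact congrFun m.2.2 _
  · have h2 := hp.mem_iff_map_id.1 ψ.2
    funext x
    rw [← TM_mulVec_tc he ψ.1 x, ← Matrix.toLin'_apply, h2]
  · apply Subtype.ext
    funext x
    obtain ⟨c, hc⟩ := (tc_eq_iff s).1 (tc_rp s (tc s x))
    change m.1 (rp s (tc s x)) = m.1 x
    rw [← hc, m.2.1 c x]
  · apply Subtype.ext
    funext ω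
    change ψ.1 (tc s (rp s ω)) = ψ.1 ω
    rw [tc_rp]

/-- the trace of the convolution -/
theorem card_mul_trace {a : K → R} (ha : IsCF a) :
    (Nat.card K : R) * (TM s a).trace = ∑ c : K, ∑ x : K, a (x * s c * x⁻¹ * c⁻¹) := by
  have hfin : Fintype (Tw s) := inferInstanceAs (Fintype K)
  let F : Tw s → R := fun x => ∑ g : K, a g * (if tc s (g⁻¹ * toK x) = tc s (toK x) then 1 else 0)
  have hF : ∀ (c : K) (x : Tw s), F (c • x) = F x := by
    intro c x
    change ∑ g : K, a g * (if tc s (g⁻¹ * (c * toK x * (s c)⁻¹)) =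
        tc s (c * toK x * (s c)⁻¹) then 1 else 0) = _
    rw [← Equiv.sum_comp (MulAut.conj c).toEquiv]
    refine Finset.sum_congr rfl fun g _ => ?_
    change a (c * g * c⁻¹) * (if tc s ((c * g * c⁻¹)⁻¹ * (c * toK x * (s c)⁻¹)) =
      tc s (c * toK x * (s c)⁻¹) then 1 else 0) = _
    rw [ha c g, show (c * g * c⁻¹)⁻¹ * (c * toK x * (s c)⁻¹) = c * (g⁻¹ * toK x) * (s c)⁻¹ by group,
      tc_tw, tc_tw]
  have h1 := orbSum (G := K) (X := Tw s) (R := R) F hF
  have h3 : (TM s a).trace = ∑ ω : Cl s, F ω.out := by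
    rw [Matrix.trace]
    refine Finset.sum_congr rfl fun ω _ => ?_
    rw [Matrix.diag_apply, TM, Matrix.of_apply]
    simp only [F]
    refine Finset.sum_congr rfl fun g _ => ?_
    have h4 : tc s (toK ω.out) = ω := tc_rp s ω
    rw [h4]
    rfl
  rw [h3, ← h1]
  have h5 : ∀ x : Tw s, (Nat.card (MulAction.stabilizer K x) : R) * F x =
      ∑ c : K, a (toK x * s c * (toK x)⁻¹ * c⁻¹) := by
    intro x
    have h6 : ∀ y : K, (Nat.card (MulAction.stabilizer K x) : R) *
        (if tc s y = tc s (toK x) then 1 else 0) =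
        ∑ c : K, if c * toK x * (s c)⁻¹ = y then 1 else 0 := by
      intro y
      have h7 := C2.card_fib (G := K) x (ofK s y)
      rw [Finset.sum_boole, ← Fintype.card_subtype, ← Nat.card_eq_fintype_card]
      have h8 : Nat.card {c : K // c * toK x * (s c)⁻¹ = y} =
          Nat.card {g : K // g • x = ofK s y} := rfl
      rw [h8, h7]
      have h9 : (tc s y = tc s (toK x)) ↔ ((Quotient.mk'' (ofK s y) :
          MulAction.orbitRel.Quotient K (Tw s)) = Quotient.mk'' x) := Iff.rfl
      by_cases h : tc s y = tc s (toK x)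
      · rw [if_pos h, if_pos (h9.1 h), mul_one]
      · rw [if_neg h, if_neg (fun h' => h (h9.2 h')), mul_zero, Nat.cast_zero]
    simp only [F]
    rw [Finset.mul_sum]
    have h7 : ∀ g : K, (Nat.card (MulAction.stabilizer K x) : R) *
        (a g * (if tc s (g⁻¹ * toK x) = tc s (toK x) then 1 else 0)) =
        ∑ c : K, a g * (if g = toK x * s c * (toK x)⁻¹ * c⁻¹ then 1 else 0) := by
      intro g
      rw [← Finset.mul_sum, mul_left_comm, h6]
      congr 1
      refine Finset.sum_congr rfl fun c _ => ?_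
      congr 1
      apply propext
      constructor
      · intro h
        have h8 : g⁻¹ = c * toK x * (s c)⁻¹ * (toK x)⁻¹ := by rw [h]; group
        rw [← inv_inv g, h8]
        group
      · intro h
        rw [h]
        group
    rw [Finset.sum_congr rfl fun g _ => h7 g, Finset.sum_comm]
    refine Finset.sum_congr rfl fun c _ => ?_
    rw [Finset.sum_eq_single (toK x * s c * (toK x)⁻¹ * c⁻¹)]
    · rw [if_pos rfl, mul_one]
    · intro g _ hg
      rw [if_neg hg, mul_zero]
    · intro h
      exact absurd (Finset.mem_univ _) h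
  rw [Finset.sum_congr rfl fun x _ => h5 x, Finset.sum_comm]
  refine Finset.sum_congr rfl fun c _ => ?_
  let E : K ≃ Tw s := Equiv.refl K
  rw [← Equiv.sum_comp E]
  rfl

end Twist

section Main

variable {k : Type*} [Field k] (p : ℕ) [hp : Fact p.Prime] [CharP k p]
  (red : integralClosure ℤ ℂ →+* k) {K : Type} [Group K] [Fintype K] (s : K ≃* K)

/-- the character `χ ∘ s` -/
noncomputable def twIrr (χ : Irr K) : Irr K :=
  ⟨fun x => χ.1 (s x), χ.2.comp s.toMonoidHom s.surjective⟩

/-- over `ℂ`: the trace of the block idempotent is the number of the stable characters -/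
theorem trace_Eid (l : (K → k) → k) : (TM s (Eid red l)).trace =
    (Nat.card {χ : Irr K // InL red l χ.1 ∧ ∀ x, χ.1 (s x) = χ.1 x} : ℂ) := by
  have hK0 : (Nat.card K : ℂ) ≠ 0 := by exact_mod_cast Nat.card_pos.ne'
  have h1 := card_mul_trace (s := s) (Eid_isCF red l)
  apply mul_left_cancel₀ hK0
  rw [h1]
  have h2 : ∀ c : K, ∑ x : K, Eid red l (x * s c * x⁻¹ * c⁻¹) =
      ∑ χ : Irr K, if InL red l χ.1 then χ.1 c * (twIrr s χ).1 c⁻¹ else 0 := by
    intro c
    have h3 : ∀ x : K, Eid red l (x * s c * x⁻¹ * c⁻¹) = ∑ χ : Irr K,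
        (if InL red l χ.1 then χ.1 1 / Nat.card K * χ.1 (x * (s c)⁻¹ * x⁻¹ * c) else 0) := by
      intro x
      rw [Eid, KK, Finset.sum_div]
      refine Finset.sum_congr rfl fun χ _ => ?_
      rw [show (x * s c * x⁻¹ * c⁻¹)⁻¹ = c * (x * (s c)⁻¹ * x⁻¹) by group, χ.mul_comm c]
      split_ifs
      · ring
      · ring
    rw [Finset.sum_congr rfl fun x _ => h3 x, Finset.sum_comm]
    refine Finset.sum_congr rfl fun χ _ => ?_
    split_ifs
    · rw [← Finset.mul_sum, sum_conj_irr]
      have h4 := χ.one_ne_zero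
      have h5 : (twIrr s χ).1 c⁻¹ = χ.1 (s c)⁻¹ := by
        change χ.1 (s c⁻¹) = _
        rw [map_inv]
      rw [h5, ← Nat.card_eq_fintype_card]
      field_simp
    · exact Finset.sum_const_zero
  rw [Finset.sum_congr rfl fun c _ => h2 c, Finset.sum_comm]
  have h3 : ∀ χ : Irr K, ∑ c : K, (if InL red l χ.1 then χ.1 c * (twIrr s χ).1 c⁻¹ else 0) =
      Nat.card K * (if InL red l χ.1 ∧ ∀ x, χ.1 (s x) = χ.1 x then 1 else 0) := by
    intro χ
    by_cases h : InL red l χ.1
    · simp only [if_pos h]
      rw [row_orth χ (twIrr s χ), Nat.card_eq_fintype_card]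
      have h6 : χ = twIrr s χ ↔ ∀ x, χ.1 (s x) = χ.1 x := by
        constructor
        · intro h7 x
          exact (congrFun (congrArg Subtype.val h7) x).symm
        · intro h7
          exact Subtype.ext (funext fun x => (h7 x).symm)
      by_cases h7 : χ = twIrr s χ
      · rw [if_pos h7, if_pos ⟨h, h6.1 h7⟩, mul_one]
      · rw [if_neg h7, if_neg (fun h8 => h7 (h6.2 h8.2)), mul_zero]
    · simp only [if_neg h]
      rw [if_neg (fun h8 => h h8.1), mul_zero, Finset.sum_const_zero]
  rw [Finset.sum_congr rfl fun χ _ => h3 χ, ← Finset.mul_sum, Finset.sum_boole,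
    ← Fintype.card_subtype, ← Nat.card_eq_fintype_card]

omit hp [CharP k p] in
theorem lamHom_mkF (χ : Irr K) {e : K → k} (he : IsCF e) :
    lamHom red χ.1 χ.2 ⟨mkF e, mkF_mem he⟩ = lam red χ.1 e := by
  rw [lamHom_apply]
  congr 1
  funext x
  exact coeff_mkF e x

omit hp in
theorem idem_aux {Z : Type*} [CommRing Z] {f f' : Z} (h1 : f * f = f) (h2 : f' * f' = f') :
    (f - f * f') * (f - f * f') = f - f * f' := by
  have : (f - f * f') * (f - f * f') = f * f - (f * f) * f' - (f * f) * f' +
      (f * f) * (f' * f') := by ring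
  rw [this, h1, h2]; ring

include hp in
/-- idempotent class functions are determined by the values of the central characters -/
theorem idem_le [IsAlgClosed k] {e e' : K → k} (he : IsCF e) (hee : conv e e = e)
    (he' : IsCF e') (hee' : conv e' e' = e')
    (h : ∀ ψ : Irr K, lam red ψ.1 e = lam red ψ.1 e') : conv e e' = e := by
  set f : Subalgebra.center k (MonoidAlgebra k K) := ⟨mkF e, mkF_mem he⟩ with hf
  set f' : Subalgebra.center k (MonoidAlgebra k K) := ⟨mkF e', mkF_mem he'⟩ with hf'
  have h1 : f * f = f := by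
    apply Subtype.ext
    change mkF e * mkF e = mkF e
    rw [← mkF_conv, hee]
  have h2 : f' * f' = f' := by
    apply Subtype.ext
    change mkF e' * mkF e' = mkF e'
    rw [← mkF_conv, hee']
  have h3 : (f - f * f') * (f - f * f') = f - f * f' := idem_aux h1 h2
  have h4 : f - f * f' = 0 := by
    by_contra h0
    obtain ⟨ν, hν⟩ := P179Y.exists_hom_of_idem _ h3 h0
    obtain ⟨χ, rfl⟩ := exists_lamHom p red ν
    rw [map_sub, map_mul, hf, hf', lamHom_mkF red χ he, lamHom_mkF red χ he', ← h χ] at hν
    have h5 : lam red χ.1 e * lam red χ.1 e = lam red χ.1 e := by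
      have := congrArg (lamHom red χ.1 χ.2) h1
      rw [map_mul, hf, lamHom_mkF red χ he] at this
      exact this
    rw [h5, sub_self] at hν
    exact zero_ne_one hν
  have h5 : mkF e = mkF e * mkF e' := congrArg Subtype.val (sub_eq_zero.1 h4)
  rw [← mkF_conv] at h5
  funext x
  rw [← coeff_mkF e x, h5, coeff_mkF]

include hp in
theorem idem_unique [IsAlgClosed k] {e e' : K → k} (he : IsCF e) (hee : conv e e = e)
    (he' : IsCF e') (hee' : conv e' e' = e')
    (h : ∀ ψ : Irr K, lam red ψ.1 e = lam red ψ.1 e') : e = e' := by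
  have h1 := idem_le p red he hee he' hee' h
  have h2 := idem_le p red he' hee' he hee fun ψ => (h ψ).symm
  rw [← h1]
  conv_rhs => rw [← h2]
  funext x
  rw [← coeff_mkF (conv e e') x, ← coeff_mkF (conv e' e) x, mkF_conv, mkF_conv]
  rw [(Subalgebra.mem_center_iff.1 (mkF_mem he) _)]

/-- **(3ab)** the dimension of the twisted class functions in a block with `ND` is the number of
the stable characters of the block -/
theorem finrank_MS_eq [IsAlgClosed k] {l : (K → k) → k} {q : ℕ} {φ : K → ℂ}
    (hφ : ND red p l q φ) {e : K → k} (he : IsCF e) (hee : conv e e = e)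
    (hlam : ∀ ψ : Irr K, lam red ψ.1 e = if InL red l ψ.1 then 1 else 0) :
    Module.finrank k (MS s e) =
      Nat.card {χ : Irr K // InL red l χ.1 ∧ ∀ x, χ.1 (s x) = χ.1 x} := by
  obtain ⟨a, b, ha, hb, hab⟩ := hφ.unit
  obtain ⟨E, e', hE, hE1, hE2, he', hee', -, -, hlam'⟩ := exists_idem p red hφ hb hab
  have h1 : e' = e := idem_unique p red he' hee' he hee fun ψ => by rw [hlam, hlam']
  rw [h1] at hE2
  rw [finrank_MS he hee]
  have hK0 : (Nat.card K : ℂ) ≠ 0 := by exact_mod_cast Nat.card_pos.ne'
  have hEE : ∀ x, algebraMap AA ℂ (E x) = algebraMap AA ℂ (b : AA) * Eid red l x := by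
    intro x
    change (E x : ℂ) = ((b : AA) : ℂ) * Eid red l x
    rw [hE1, Eid, KK_one_eq p red hφ]
    push_cast
    by_cases hx : ¬ p ∣ orderOf x
    · rw [if_pos hx, if_pos hx, eq_comm, mul_div_assoc', div_eq_iff hK0]
      linear_combination (-φ x⁻¹) * hab
    · rw [if_neg hx, if_neg hx]
      simp
  have h2 := finrank_range_of_lift (algebraMap AA ℂ) Subtype.val_injective red (TM s E) (b : AA)
    (TM s (Eid red l)) (TM_idem (Eid_isCF red l) (conv_Eid red l)) (TM_map _ E _ _ hEE)
    (TM s e) (TM_idem he hee) (TM_map _ E _ _ fun x => by rw [hE2, map_natCast]) (by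
      rw [map_natCast, Ne, CharP.cast_eq_zero_iff k p]
      exact hb)
  rw [h2]
  have h3 := finrank_range_eq_trace (TM s (Eid red l)) (TM_idem (Eid_isCF red l) (conv_Eid red l))
  rw [trace_Eid] at h3
  exact_mod_cast h3

end Main

end P179H967
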