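import Vale.Agent.P179.R2.H967.Tw

/-!
# The functions on a coset of a subgroup in a block: dimension
-/

namespace P179H967

open Subgroup P179H524 P179C P179A P179P P179Y Finset

open scoped Classical

section Amb

variable {k : Type*} [Field k] {G : Type} [Group G] [Fintype G]

/-- the `H`-invariant functions on the coset `H z` fixed by `e` -/
noncomputable def MzG (H : Subgroup G) (z : G) (e : G → k) : Submodule k (G → k) where
  carrier := {f | (∀ g, f g ≠ 0 → g * z⁻¹ ∈ H) ∧ (∀ h ∈ H, ∀ g, f (h * g * h⁻¹) = f g) ∧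
    conv e f = f}
  add_mem' := by
    rintro a b ⟨ha, ha', ha''⟩ ⟨hb, hb', hb''⟩
    refine ⟨fun g hg => ?_, fun h hh g => by simp only [Pi.add_apply, ha' h hh, hb' h hh], ?_⟩
    · by_contra h
      apply hg
      rw [Pi.add_apply, not_not.1 (fun h' => h (ha g h')), not_not.1 (fun h' => h (hb g h')),
        add_zero]
    · funext g
      have h1 := congrFun ha'' g
      have h2 := congrFun hb'' g
      rw [Pi.add_apply, ← h1, ← h2]
      simp only [conv, Pi.add_apply, mul_add, Finset.sum_add_distrib]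
  zero_mem' := by
    refine ⟨fun g hg => absurd rfl hg, fun h _ g => rfl, ?_⟩
    funext g
    simp [conv]
  smul_mem' := by
    rintro c a ⟨ha, ha', ha''⟩
    refine ⟨fun g hg => ?_, fun h hh g => by simp only [Pi.smul_apply, ha' h hh], ?_⟩
    · by_contra h
      apply hg
      rw [Pi.smul_apply, not_not.1 (fun h' => h (ha g h')), smul_zero]
    · funext g
      have h1 := congrFun ha'' g
      rw [Pi.smul_apply, ← h1]
      simp only [conv, Pi.smul_apply, smul_eq_mul, Finset.mul_sum]
      exact Finset.sum_congr rfl fun h _ => by ring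

theorem mem_MzG {H : Subgroup G} {z : G} {e f : G → k} : f ∈ MzG H z e ↔
    (∀ g, f g ≠ 0 → g * z⁻¹ ∈ H) ∧ (∀ h ∈ H, ∀ g, f (h * g * h⁻¹) = f g) ∧ conv e f = f := Iff.rfl

/-- conjugation by an element of the normaliser -/
def cjH (H : Subgroup G) {z : G} (hz : z ∈ normalizer (H : Set G)) : H ≃* H where
  toFun h := ⟨z * h * z⁻¹, (mem_normalizer_iff.1 hz _).1 h.2⟩
  invFun h := ⟨z⁻¹ * h * z, by
    rw [← SetLike.mem_coe]
    have h1 := (mem_normalizer_iff.1 hz (z⁻¹ * h * z)).2
    have h2 : z * (z⁻¹ * (h : G) * z) * z⁻¹ = h := by group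
    rw [h2] at h1
    exact h1 h.2⟩
  left_inv h := Subtype.ext (by
    change z⁻¹ * (z * (h : G) * z⁻¹) * z = h
    group)
  right_inv h := Subtype.ext (by
    change z * (z⁻¹ * (h : G) * z) * z⁻¹ = h
    group)
  map_mul' a b := Subtype.ext (by
    change z * ((a : G) * b) * z⁻¹ = z * a * z⁻¹ * (z * b * z⁻¹)
    group)

omit [Fintype G] in
theorem coe_cjH (H : Subgroup G) {z : G} (hz : z ∈ normalizer (H : Set G)) (h : H) :
    ((cjH H hz h : H) : G) = z * h * z⁻¹ := rfl

theorem conv_coset {H : Subgroup G} {e : G → k} (he : ∀ g, g ∉ H → e g = 0) (f : G → k) (z : G)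
    (x : H) : conv e f ((x : G) * z) = conv (fun h : H => e h) (fun h : H => f ((h : G) * z)) x := by
  unfold conv
  rw [← Finset.sum_subset (Finset.subset_univ (univ.filter fun x : G => x ∈ H))]
  · rw [Finset.sum_subtype (p := fun x => x ∈ H) (univ.filter fun x : G => x ∈ H)
      (fun x => by simp)]
    refine Finset.sum_congr rfl fun h _ => ?_
    rw [← mul_assoc]
    rfl
  · intro g _ hg
    rw [mem_filter, not_and] at hg
    rw [he g (hg (mem_univ _)), zero_mul]

/-- functions on `H` as functions on the coset `H z` -/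
noncomputable def exC (H : Subgroup G) (z : G) (m : H → k) : G → k :=
  fun g => if hg : g * z⁻¹ ∈ H then m ⟨g * z⁻¹, hg⟩ else 0

omit [Fintype G] in
theorem exC_pos {H : Subgroup G} {z : G} (m : H → k) {g : G} (hg : g * z⁻¹ ∈ H) :
    exC H z m g = m ⟨g * z⁻¹, hg⟩ := dif_pos hg

omit [Fintype G] in
theorem exC_neg {H : Subgroup G} {z : G} (m : H → k) {g : G} (hg : g * z⁻¹ ∉ H) :
    exC H z m g = 0 := dif_neg hg

omit [Fintype G] in
theorem exC_coset {H : Subgroup G} {z : G} (m : H → k) (h : H) :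
    exC H z m ((h : G) * z) = m h := by
  have h1 : (h : G) * z * z⁻¹ = h := by group
  have h2 : (h : G) * z * z⁻¹ ∈ H := by rw [h1]; exact h.2
  rw [exC_pos m h2]
  congr 1
  exact Subtype.ext h1

/-- passage to the twisted class functions of `H` -/
theorem finrank_MzG {H : Subgroup G} {z : G} (hz : z ∈ normalizer (H : Set G)) {e : G → k}
    (he : ∀ g, g ∉ H → e g = 0) :
    Module.finrank k (MzG H z e) = Module.finrank k (MS (cjH H hz) (fun h : H => e h)) := by
  refine LinearEquiv.finrank_eq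
    { toFun := fun f => ⟨fun h => f.1 ((h : G) * z), ⟨fun c x => ?_, ?_⟩⟩
      invFun := fun m => ⟨exC H z m.1, ⟨fun g hg => ?_, fun h hh g => ?_, ?_⟩⟩
      map_add' := fun _ _ => rfl
      map_smul' := fun _ _ => rfl
      left_inv := fun f => ?_
      right_inv := fun m => ?_ }
  · change f.1 (((c : G) * x * (z * c * z⁻¹)⁻¹) * z) = f.1 ((x : G) * z)
    rw [← f.2.2.1 c c.2 ((x : G) * z)]
    group
  · funext x
    rw [← conv_coset he f.1 z x, f.2.2.2]
  · by_contra h
    exact hg (exC_neg m.1 h)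
  · by_cases hg : g * z⁻¹ ∈ H
    · have h1 : h * g * h⁻¹ * z⁻¹ ∈ H := by
        have h2 : h * g * h⁻¹ * z⁻¹ = h * (g * z⁻¹) * (z * h * z⁻¹)⁻¹ := by group
        rw [h2]
        exact mul_mem (mul_mem hh hg) (inv_mem ((mem_normalizer_iff.1 hz _).1 hh))
      rw [exC_pos m.1 h1, exC_pos m.1 hg, ← m.2.1 ⟨h, hh⟩ ⟨g * z⁻¹, hg⟩]
      refine congrArg m.1 (Subtype.ext ?_)
      change h * g * h⁻¹ * z⁻¹ = h * (g * z⁻¹) * (z * h * z⁻¹)⁻¹
      group
    · have h1 : h * g * h⁻¹ * z⁻¹ ∉ H := by
        intro h2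
        apply hg
        have h3 : g * z⁻¹ = h⁻¹ * (h * g * h⁻¹ * z⁻¹) * (z * h * z⁻¹) := by group
        rw [h3]
        exact mul_mem (mul_mem (inv_mem hh) h2) ((mem_normalizer_iff.1 hz _).1 hh)
      rw [exC_neg m.1 h1, exC_neg m.1 hg]
  · funext g
    by_cases hg : g * z⁻¹ ∈ H
    · obtain ⟨x, hx⟩ : ∃ x : H, g = (x : G) * z := ⟨⟨g * z⁻¹, hg⟩, by group⟩
      rw [hx, conv_coset he _ z x, exC_coset]
      have h1 : (fun h : H => exC H z m.1 ((h : G) * z)) = m.1 :=
        funext fun h => exC_coset m.1 h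
      rw [h1, m.2.2]
    · rw [exC_neg m.1 hg]
      refine Finset.sum_eq_zero fun x _ => ?_
      by_cases hx : x ∈ H
      · have h1 : x⁻¹ * g * z⁻¹ ∉ H := by
          intro h2
          apply hg
          have h3 : g * z⁻¹ = x * (x⁻¹ * g * z⁻¹) := by group
          rw [h3]
          exact mul_mem hx h2
        rw [exC_neg m.1 h1, mul_zero]
      · rw [he x hx, zero_mul]
  · apply Subtype.ext
    funext g
    change exC H z (fun h : H => f.1 ((h : G) * z)) g = f.1 g
    by_cases hg : g * z⁻¹ ∈ H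
    · rw [exC_pos _ hg]
      change f.1 (g * z⁻¹ * z) = f.1 g
      group
    · rw [exC_neg _ hg]
      by_contra h
      exact hg (f.2.1 g (Ne.symm h))
  · apply Subtype.ext
    funext h
    exact exC_coset m.1 h

end Amb

section Block

variable {p : ℕ} [hp : Fact p.Prime] {k : Type*} [Field k] [IsAlgClosed k] [CharP k p]
  (red : integralClosure ℤ ℂ →+* k) {K : Type} [Group K] [Fintype K]

omit hp [IsAlgClosed k] [CharP k p] in
/-- the values of the central characters at a block idempotent -/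
theorem lam_prim {l : (K → k) → k} (hl : IsHomCF l) {e : K → k} (he : IsCF e)
    (hprim : Prim (⟨mkF e, mkF_mem he⟩ : Subalgebra.center k (MonoidAlgebra k K)))
    (hle : l e = 1) (ψ : Irr K) : lam red ψ.1 e = if InL red l ψ.1 then 1 else 0 := by
  split_ifs with h
  · rw [h e he, hle]
  · rcases apply_idem (lamHom red ψ.1 ψ.2) hprim.1 with h1 | h1
    · rw [lamHom_mkF red ψ he] at h1
      exact h1
    · exfalso
      apply h
      have h2 : lamHom red ψ.1 ψ.2 = hl.toAlgHom := by
        refine eq_of_prim hprim _ _ h1 ?_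
        rw [hl.toAlgHom_mkF he, hle]
      intro z hz
      rw [← lamHom_mkF red ψ hz, h2, hl.toAlgHom_mkF hz]

end Block

section Final

variable {p : ℕ} [hp : Fact p.Prime] {k : Type*} [Field k] [IsAlgClosed k] [CharP k p]
  (red : integralClosure ℤ ℂ →+* k) {G : Type} [Group G] [Fintype G]

/-- **(3ab)** in the ambient group: the dimension of the `H`-invariant functions on the coset `H z`
in a block of `H` with `ND` is the number of the characters of the block stable under `z` -/
theorem finrank_MzG_eq {H : Subgroup G} {z : G} (hz : z ∈ normalizer (H : Set G)) {e : G → k}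
    (he : ∀ g, g ∉ H → e g = 0) (heH : IsCF (fun h : H => e h))
    (hprim : Prim (⟨mkF (fun h : H => e h), mkF_mem heH⟩ :
      Subalgebra.center k (MonoidAlgebra k H)))
    {l : (H → k) → k} (hl : IsHomCF l) (hle : l (fun h : H => e h) = 1) {q : ℕ} {φ : H → ℂ}
    (hφ : ND red p l q φ) :
    Module.finrank k (MzG H z e) =
      Nat.card {χ : Irr H // InL red l χ.1 ∧ ∀ x, χ.1 (cjH H hz x) = χ.1 x} := by
  rw [finrank_MzG hz he]
  refine finrank_MS_eq p red (cjH H hz) hφ heH ?_ (lam_prim red hl heH hprim hle)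
  have h1 := congrArg Subtype.val hprim.1
  have h2 : mkF (fun h : H => e h) * mkF (fun h : H => e h) = mkF (fun h : H => e h) := h1
  rw [← mkF_conv] at h2
  funext x
  rw [← coeff_mkF (conv (fun h : H => e h) fun h : H => e h) x, h2, coeff_mkF]

end Final

end P179H967
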