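import Vale.Agent.P179.R2.H843.WatX
import Vale.Agent.P179.R2.H452.InjF
import Vale.Agent.P179.R2.H872.Cos
import Vale.Agent.P179.R2.H967.VG

/-!
# The graded Watanabe theorem, one step: the map on class functions
-/

namespace P179H967

open Subgroup Finset P179H524 P179A P179P P179Y P179H12 P179H872 P179R P179H843 MonoidAlgebra

open P179C hiding lin lin_mul_single

open P179C.C2 (Om phi)

open scoped Classical

universe u

section Gam

variable {p : ℕ} [hp : Fact p.Prime] {k : Type u} [Field k] [IsAlgClosed k] [CharP k p]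
  {G : Type} [Group G] [Fintype G] {K : Subgroup G}

omit hp [IsAlgClosed k] [CharP k p] in
/-- class functions in a block, as trace functions -/
theorem mem_FB_inv {B : MonoidAlgebra k G} {z : G → k} (hz : IsCF z)
    (hpr : ∀ x, z (pr p x) = z x) (hBz : conv (fun g => B.coeff g) z = z) :
    (fun g => z g⁻¹) ∈ FB p B := by
  have h1 : ∀ g x, (fun g => z g⁻¹) (g * x * g⁻¹) = (fun g => z g⁻¹) x := by
    intro g x
    beta_reduce
    rw [← hz g x⁻¹]
    congr 1
    group
  refine ⟨h1, fun x => ?_, fun y => ?_⟩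
  · beta_reduce
    rw [← pr_inv, hpr]
  · have h2 := lin_mul_eq_conv (ψ := fun g => z g⁻¹) h1 B y
    have h3 : (fun g => (fun g => z g⁻¹) g⁻¹) = z := by
      funext g
      change z g⁻¹⁻¹ = z g
      rw [inv_inv]
    rw [h3, hBz, lin_mul_single] at h2
    exact h2

/-- the product with the block below depends only on the regular parts -/
theorem gam_pr {B : MonoidAlgebra k G} {b : MonoidAlgebra k K} (hb : IsBlock b) {z : G → k}
    (hz : IsCF z) (hpr : ∀ x, z (pr p x) = z x) (hBz : conv (fun g => B.coeff g) z = z) {t : G}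
    (ht : t ∈ K) : conv z (bF K b) (pr p t) = conv z (bF K b) t := by
  have := Fintype.ofFinite K
  have h1 := mem_FB_inv (p := p) hz hpr hBz
  have h2 := (res0_mem p hb.1 hb.2.1 h1).2.1
  have h3 : (fun g => (fun g => z g⁻¹) g⁻¹) = z := by
    funext g
    change z g⁻¹⁻¹ = z g
    rw [inv_inv]
  have key : ∀ s : K, conv z (bF K b) (s : G) = res0 b (fun g => z g⁻¹) s⁻¹ := by
    intro s
    rw [res0_eq_conv, h3]
    congr 1
    change (s : G) = ((s : G)⁻¹)⁻¹
    rw [inv_inv]
  have h4 : pr p t = ((pr p (⟨t, ht⟩ : K) : K) : G) :=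
    (Q7.map_pr p K.subtype (⟨t, ht⟩ : K) (C2.ord_ne _)).symm
  rw [h4, key, key ⟨t, ht⟩, ← h2 (⟨t, ht⟩ : K)⁻¹, pr_inv]

/-- **surjectivity** of the restriction -/
theorem gam_sur {B : MonoidAlgebra k G} (hB : IsBlock B) {b : MonoidAlgebra k K} (hb : IsBlock b)
    (hinj : ∀ z : G → k, IsCF z → conv (fun g => B.coeff g) z = z →
      (∀ g ∈ K, conv z (bF K b) g = 0) → z = 0) (hn : numSimpleIn B = numSimpleIn b)
    {w : G → k} (hw : InvOn K w) (hwp : ∀ t ∈ K, w (pr p t) = w t)
    (hwb : conv w (bF K b) = w) :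
    ∃ z : G → k, IsCF z ∧ (∀ x, z (pr p x) = z x) ∧ conv (fun g => B.coeff g) z = z ∧
      ∀ t ∈ K, conv z (bF K b) t = w t := by
  have := Fintype.ofFinite K
  let F : FB p B →ₗ[k] FB p b :=
    { toFun := fun ψ => ⟨res0 b ψ.1, res0_mem p hb.1 hb.2.1 ψ.2⟩
      map_add' := fun a b' => by
        apply Subtype.ext
        funext t
        change res0 b (a.1 + b'.1) t = res0 b a.1 t + res0 b b'.1 t
        unfold res0
        rw [lin_apply, lin_apply, lin_apply, ← Finset.sum_add_distrib]
        exact Finset.sum_congr rfl fun _ _ => mul_add _ _ _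
      map_smul' := fun c a => by
        apply Subtype.ext
        funext t
        change res0 b (c • a.1) t = c * res0 b a.1 t
        unfold res0
        rw [lin_apply, lin_apply, Finset.mul_sum]
        refine Finset.sum_congr rfl fun _ _ => ?_
        rw [Pi.smul_apply, smul_eq_mul]
        ring }
  have hFinj : Function.Injective F := by
    rw [injective_iff_map_eq_zero]
    intro ψ hψ
    apply Subtype.ext
    have h0 : ∀ t : K, res0 b ψ.1 t = 0 := fun t => congrFun (congrArg Subtype.val hψ) t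
    have h1 := hinj (fun g => ψ.1 g⁻¹) (inv_cf ψ.2.1) (conv_mul_eq_lin ψ.2.1 ψ.2.2.2) (by
      intro g hg
      have h2 := res0_eq_conv b ψ.1 (⟨g, hg⟩ : K)⁻¹
      rw [h0] at h2
      have h3 : (((⟨g, hg⟩ : K)⁻¹ : K) : G)⁻¹ = g := by
        change (g⁻¹)⁻¹ = g
        exact inv_inv g
      rw [h3] at h2
      exact h2.symm)
    funext y
    have h4 := congrFun h1 y⁻¹
    beta_reduce at h4
    rw [inv_inv] at h4
    exact h4
  have hfr : Module.finrank k (FB p B) = Module.finrank k (FB p b) := by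
    rw [finrank_FB p hB.1 hB.2.1, finrank_FB p hb.1 hb.2.1, hn]
  have hFsur : Function.Surjective F :=
    (LinearMap.injective_iff_surjective_of_finrank_eq_finrank hfr).1 hFinj
  -- the function on `K`
  have hwK : conv (fun g => b.coeff g) (fun h : K => w h) = fun h : K => w h := by
    have h1 : conv (bF K b) w = w := by
      rw [← conv_comm_inv (H := K) hw.1 (invOn_bF hb.1).2, hwb]
    funext h
    have h2 := congrFun h1 (h : G)
    rw [← ext_restr' hw.2] at h2
    have h3 : bF K b = P179Y.ext K (fun g => b.coeff g) := rfl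
    rw [h3, ← ext_conv, P179Y.ext_coe, P179Y.ext_coe] at h2
    exact h2
  obtain ⟨ψ, hψ⟩ := hFsur ⟨_, mem_FB_inv (p := p) (isCF_of_invOn hw) (fun x => by
    have h4 : ((pr p x : K) : G) = pr p (x : G) := Q7.map_pr p K.subtype x (C2.ord_ne _)
    rw [h4]
    exact hwp _ x.2) hwK⟩
  refine ⟨fun g => ψ.1 g⁻¹, inv_cf ψ.2.1, fun x => ?_, conv_mul_eq_lin ψ.2.1 ψ.2.2.2, ?_⟩
  · beta_reduce
    rw [← pr_inv, ψ.2.2.1]
  · intro t ht
    have h2 := res0_eq_conv b ψ.1 (⟨t, ht⟩ : K)⁻¹
    have h3 : (((⟨t, ht⟩ : K)⁻¹ : K) : G)⁻¹ = t := by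
      change (t⁻¹)⁻¹ = t
      exact inv_inv t
    rw [h3] at h2
    rw [← h2]
    have h5 := congrFun (congrArg Subtype.val hψ) (⟨t, ht⟩ : K)⁻¹
    refine h5.trans ?_
    change w ((((⟨t, ht⟩ : K)⁻¹)⁻¹ : K) : G) = w t
    rw [inv_inv]

end Gam

section Wat

variable {p : ℕ} [hp : Fact p.Prime] {k : Type u} [Field k] [IsAlgClosed k] [CharP k p]
  {G : Type} [Group G] [Fintype G] {D : Subgroup G} {l : (G → k) → k}

/-- **surjectivity** of the map of Watanabe's theorem -/
theorem exists_pre (hl : BP p D l) (hD : IsPGroup p D) (hab : D ≤ centralizer (D : Set G))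
    (hT : ¬ p ∣ (centralizer (D : Set G)).relIndex (stabT D l)) {B : MonoidAlgebra k G}
    (hB : IsBlock B) (hlB : ∀ z : G → k, IsCF z → l z = centralChar B (mkF z)) {x : G}
    (hx : x ∈ D) (hxT : ∀ t ∈ stabT D l, t * x * t⁻¹ = x) {w : G → k}
    (hw : InvOn (centralizer ({x} : Set G)) w)
    (hwp : ∀ t ∈ centralizer ({x} : Set G), w (pr p t) = w t)
    (hwe : conv w (eH (centralizer ({x} : Set G)) l) = w) :
    ∃ z : G → k, IsCF z ∧ (∀ g, z (pr p g) = z g) ∧ conv (fun g => B.coeff g) z = z ∧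
      ∀ g ∈ centralizer ({x} : Set G), conv z (eH (centralizer ({x} : Set G)) l) g = w g := by
  have hCH : centralizer (D : Set G) ≤ centralizer ({x} : Set G) := cent_le_of_mem hx
  obtain ⟨b, hb, hlb, he⟩ := eH_spec (BP.mulH hl hD hab hCH)
  rw [he] at hwe ⊢
  refine gam_sur (p := p) hB hb (fun z hz hBz h0 => ?_)
    (watX p k G B D l hB hl hD hab hT hlB x hx hxT b hb hlb) hw hwp hwe
  refine P179H452.inj hl hD hab hT hB hlB hx hxT hz hBz fun g hg => ?_
  rw [he]
  exact h0 g (mem_centralizer_singleton_iff.2 hg)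

/-- the product with the block below depends only on the regular parts -/
theorem pre_pr (hl : BP p D l) (hD : IsPGroup p D) (hab : D ≤ centralizer (D : Set G))
    {B : MonoidAlgebra k G} {x : G} (hx : x ∈ D) {z : G → k} (hz : IsCF z)
    (hpr : ∀ x, z (pr p x) = z x) (hBz : conv (fun g => B.coeff g) z = z) {t : G}
    (ht : t ∈ centralizer ({x} : Set G)) :
    conv z (eH (centralizer ({x} : Set G)) l) (pr p t) =
      conv z (eH (centralizer ({x} : Set G)) l) t := by
  have hCH : centralizer (D : Set G) ≤ centralizer ({x} : Set G) := cent_le_of_mem hx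
  obtain ⟨b, hb, hlb, he⟩ := eH_spec (BP.mulH hl hD hab hCH)
  rw [he]
  exact gam_pr hb hz hpr hBz ht

end Wat

end P179H967
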