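import Vale.Agent.P179.R2.H967.W1b

/-!
# The graded Watanabe theorem, one step: subgroups
-/

namespace P179H967

open Subgroup Finset P179H524 P179A P179P P179Y P179C P179H12

open scoped Classical

universe u

section Sub

variable {p : ℕ} [hp : Fact p.Prime] {k : Type u} [Field k] [IsAlgClosed k] [CharP k p]
  {G : Type} [Group G] [Fintype G] {D H : Subgroup G} {l : (G → k) → k}

omit [Fintype G] in
theorem map_centH {x : G} (hxH : x ∈ H) :
    (centralizer ({⟨x, hxH⟩} : Set H)).map H.subtype = H ⊓ centralizer ({x} : Set G) := by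
  ext g
  constructor
  · rintro ⟨h, hh, rfl⟩
    exact ⟨h.2, mem_centralizer_singleton_iff.2
      (congrArg Subtype.val (mem_centralizer_singleton_iff.1 hh))⟩
  · rintro ⟨h1, h2⟩
    refine ⟨⟨g, h1⟩, ?_, rfl⟩
    refine mem_centralizer_singleton_iff.2 (Subtype.ext ?_)
    exact mem_centralizer_singleton_iff.1 h2

/-- the data of the step for the subgroup `H` -/
theorem step_data (hl : BP p D l) (hD : IsPGroup p D) (hab : D ≤ centralizer (D : Set G))
    (hDH : D ≤ H) (hCH : centralizer (D : Set G) ≤ H) {x : G} (hx : x ∈ D) :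
    P179Y.ext H (eH (centralizer ({⟨x, hDH hx⟩} : Set H)) (lres H l)) =
      eH (H ⊓ centralizer ({x} : Set G)) l := by
  have h1 := map_centH (H := H) (hDH hx)
  have hm : MulH ((centralizer ({⟨x, hDH hx⟩} : Set H)).map H.subtype) l := by
    rw [h1]
    exact BP.mulH hl hD hab (le_inf hCH (cent_le_of_mem hx))
  rw [ext_eH hm, h1]

/-- the restriction of a function of the block -/
theorem res_data (hl : BP p D l) (hD : IsPGroup p D) (hab : D ≤ centralizer (D : Set G))
    (hCH : centralizer (D : Set G) ≤ H) :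
    ∃ B : MonoidAlgebra k H, IsBlock B ∧ Low H l B ∧ eH H l = bF H B ∧
      ∀ z ∈ VG p H (eH H l) 1, P179Y.ext H (fun h : H => z h) = z ∧
        IsCF (fun h : H => z h) ∧ (∀ h : H, z (pr p h : H) = z h) ∧
        conv (fun g => B.coeff g) (fun h : H => z h) = fun h : H => z h := by
  obtain ⟨B, hB, hlB, he⟩ := eH_spec (BP.mulH hl hD hab hCH)
  refine ⟨B, hB, hlB, he, fun z hz => ?_⟩
  obtain ⟨h1, h2, h3, h4⟩ := mem_VG.1 hz
  have hs : ∀ y, y ∉ H → z y = 0 := fun y hy => h1 y (by rwa [inv_one, one_mul])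
  have he1 : P179Y.ext H (fun h : H => z h) = z := ext_restr' hs
  have hcf : IsCF (fun h : H => z h) := fun g y => h2 g g.2 y
  refine ⟨he1, hcf, fun h => ?_, ?_⟩
  · have h5 : ((pr p h : H) : G) = pr p (h : G) := Q7.map_pr p H.subtype h (C2.ord_ne _)
    rw [h5]
    exact h3 h (by rw [inv_one, one_mul]; exact h.2)
  · have h5 : conv z (bF H B) = conv (bF H B) z :=
      conv_comm_inv (H := H) h2 (invOn_bF hB.1).2
    rw [he, h5] at h4
    funext h
    have h6 := congrFun h4 (h : G)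
    have h7 : bF H B = P179Y.ext H (fun g => B.coeff g) := rfl
    rw [← he1, h7, ← ext_conv, P179Y.ext_coe, P179Y.ext_coe] at h6
    exact h6

omit [Fintype G] in
theorem conj_mem_iff {K : Subgroup G} {m : G} (hm : m ∈ K) (y : G) : m * y * m⁻¹ ∈ K ↔ y ∈ K := by
  constructor
  · intro h1
    have h2 := mul_mem (mul_mem (inv_mem hm) h1) hm
    have h3 : m⁻¹ * (m * y * m⁻¹) * m = y := by group
    rwa [h3] at h2
  · intro h1
    exact mul_mem (mul_mem hm h1) (inv_mem hm)

omit [Fintype G] [IsAlgClosed k] in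
theorem invOn_cutH' {C : Subgroup G} {z : G → k} (hs : ∀ y, y ∉ H → z y = 0)
    (hz : ∀ m ∈ H, ∀ y, z (m * y * m⁻¹) = z y) : InvOn (H ⊓ C) (cutH' C z) := by
  constructor
  · intro m hm y
    unfold cutH'
    simp only [conj_mem_iff hm.2, hz m hm.1]
  · intro y hy
    by_cases h : y ∈ C
    · rw [cutH'_pos h]
      exact hs y fun h' => hy ⟨h', h⟩
    · exact cutH'_neg h

/-- the map of the step in terms of functions on `H` -/
theorem step_val (hl : BP p D l) (hD : IsPGroup p D) (hab : D ≤ centralizer (D : Set G))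
    (hDH : D ≤ H) (hCH : centralizer (D : Set G) ≤ H) {x : G} (hx : x ∈ D) {z : G → k}
    (hz : P179Y.ext H (fun h : H => z h) = z) :
    conv (cutH' (centralizer ({x} : Set G)) z) (eH (H ⊓ centralizer ({x} : Set G)) l) =
      cutH' (H ⊓ centralizer ({x} : Set G)) (P179Y.ext H (conv (fun h : H => z h)
        (eH (centralizer ({⟨x, hDH hx⟩} : Set H)) (lres H l)))) := by
  have hmK : MulH (H ⊓ centralizer ({x} : Set G)) l :=
    BP.mulH hl hD hab (le_inf hCH (cent_le_of_mem hx))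
  rw [conv_cutH (H := H) (C := centralizer ({x} : Set G)) (K := H ⊓ centralizer ({x} : Set G))
    (fun y => Iff.rfl) (fun y hy => by rw [← hz]; exact P179Y.ext_of_not_mem H _ hy)
    (invOn_eH hmK).2, P179Y.ext_conv, step_data hl hD hab hDH hCH hx, hz]

theorem step_mem (hl : BP p D l) (hD : IsPGroup p D) (hab : D ≤ centralizer (D : Set G))
    (hDH : D ≤ H) (hCH : centralizer (D : Set G) ≤ H) {x : G} (hx : x ∈ D) {z : G → k}
    (hz : z ∈ VG p H (eH H l) 1) :
    conv (cutH' (centralizer ({x} : Set G)) z) (eH (H ⊓ centralizer ({x} : Set G)) l) ∈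
      VG p (H ⊓ centralizer ({x} : Set G)) (eH (H ⊓ centralizer ({x} : Set G)) l) 1 := by
  set K := H ⊓ centralizer ({x} : Set G) with hK
  obtain ⟨B, hB, hlB, he, hres⟩ := res_data (p := p) hl hD hab hCH
  obtain ⟨h1, h2, h3, h4⟩ := hres z hz
  have hmK : MulH K l := BP.mulH hl hD hab (le_inf hCH (cent_le_of_mem hx))
  have hval := step_val hl hD hab hDH hCH hx h1
  rw [← hK] at hval
  refine mem_VG.2 ⟨fun y hy => ?_, fun m hm y => ?_, fun y hy => ?_, ?_⟩
  · rw [inv_one, one_mul] at hy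
    rw [hval, cutH'_neg hy]
  · have hI : InvOn K (cutH' (centralizer ({x} : Set G)) z) :=
      invOn_cutH' (fun y hy => (mem_VG.1 hz).1 y (by rwa [inv_one, one_mul])) (mem_VG.1 hz).2.1
    exact (InvOn.conv K hI (invOn_eH hmK)).1 m hm y
  · rw [inv_one, one_mul] at hy
    have hyp : pr p y ∈ K := by
      unfold pr
      exact pow_mem hy _
    rw [hval, cutH'_pos hy, cutH'_pos hyp]
    have hyH : y ∈ H := hy.1
    have hyC : (⟨y, hyH⟩ : H) ∈ centralizer ({⟨x, hDH hx⟩} : Set H) :=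
      mem_centralizer_singleton_iff.2 (Subtype.ext (mem_centralizer_singleton_iff.1 hy.2))
    have h5 := pre_pr (p := p) (hl.restrict hDH hCH) hD.comap_subtype
      (show D.subgroupOf H ≤ centralizer ((D.subgroupOf H : Subgroup H) : Set H) from by
        intro d hd
        rw [mem_cent_subgroupOf hDH]
        exact hab (mem_subgroupOf.1 hd))
      (x := ⟨x, hDH hx⟩) (mem_subgroupOf.2 hx) h2 h3 h4 hyC
    have h6 : ((pr p (⟨y, hyH⟩ : H) : H) : G) = pr p y :=
      Q7.map_pr p H.subtype (⟨y, hyH⟩ : H) (C2.ord_ne _)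
    rw [← h6, P179Y.ext_coe, P179Y.ext_of_mem H _ hyH]
    exact h5
  · rw [conv_assoc', eH_idem hmK]

omit [IsAlgClosed k] [CharP k p] hp [Fintype G] in
theorem hxT_sub (hDH : D ≤ H) (hCH : centralizer (D : Set G) ≤ H) {x : G} (hx : x ∈ D)
    (hxT : ∀ t ∈ stabT D l, t ∈ H → t * x * t⁻¹ = x) :
    ∀ t ∈ stabT (D.subgroupOf H) (lres H l), t * (⟨x, hDH hx⟩ : H) * t⁻¹ = ⟨x, hDH hx⟩ :=
  fun t ht => Subtype.ext (hxT t ((mem_stabT_lres hDH hCH t).1 ht) t.2)

theorem step_inj (hl : BP p D l) (hD : IsPGroup p D) (hab : D ≤ centralizer (D : Set G))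
    (hT : ¬ p ∣ (centralizer (D : Set G)).relIndex (stabT D l))
    (hDH : D ≤ H) (hCH : centralizer (D : Set G) ≤ H) {x : G} (hx : x ∈ D)
    (hxT : ∀ t ∈ stabT D l, t ∈ H → t * x * t⁻¹ = x) {z : G → k} (hz : z ∈ VG p H (eH H l) 1)
    (h0 : conv (cutH' (centralizer ({x} : Set G)) z) (eH (H ⊓ centralizer ({x} : Set G)) l) = 0) :
    z = 0 := by
  obtain ⟨B, hB, hlB, he, hres⟩ := res_data (p := p) hl hD hab hCH
  obtain ⟨h1, h2, h3, h4⟩ := hres z hz
  rw [step_val hl hD hab hDH hCH hx h1] at h0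
  have h5 := P179H452.inj (hl.restrict hDH hCH) hD.comap_subtype
      (show D.subgroupOf H ≤ centralizer ((D.subgroupOf H : Subgroup H) : Set H) from by
        intro d hd
        rw [mem_cent_subgroupOf hDH]
        exact hab (mem_subgroupOf.1 hd)) (fun h => hT (h.trans (relIndex_stabT_lres_dvd hDH hCH)))
      hB (P179H854.Low.char hlB) (x := ⟨x, hDH hx⟩) (mem_subgroupOf.2 hx)
      (hxT_sub hDH hCH hx hxT) h2 h4 (fun g hg => by
        have h6 := congrFun h0 (g : G)
        have h7 : (g : G) ∈ H ⊓ centralizer ({x} : Set G) :=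
          ⟨g.2, mem_centralizer_singleton_iff.2 (congrArg Subtype.val hg)⟩
        rw [cutH'_pos h7, P179Y.ext_coe] at h6
        exact h6)
  rw [← h1]
  funext y
  by_cases hy : y ∈ H
  · rw [P179Y.ext_of_mem H _ hy]
    exact congrFun h5 ⟨y, hy⟩
  · rw [P179Y.ext_of_not_mem H _ hy]
    rfl

theorem step_sur (hl : BP p D l) (hD : IsPGroup p D) (hab : D ≤ centralizer (D : Set G))
    (hT : ¬ p ∣ (centralizer (D : Set G)).relIndex (stabT D l))
    (hDH : D ≤ H) (hCH : centralizer (D : Set G) ≤ H) {x : G} (hx : x ∈ D)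
    (hxT : ∀ t ∈ stabT D l, t ∈ H → t * x * t⁻¹ = x) {w : G → k}
    (hw : w ∈ VG p (H ⊓ centralizer ({x} : Set G)) (eH (H ⊓ centralizer ({x} : Set G)) l) 1) :
    ∃ z ∈ VG p H (eH H l) 1, conv (cutH' (centralizer ({x} : Set G)) z)
      (eH (H ⊓ centralizer ({x} : Set G)) l) = w := by
  set K := H ⊓ centralizer ({x} : Set G) with hK
  obtain ⟨B, hB, hlB, he, -⟩ := res_data (p := p) hl hD hab hCH
  obtain ⟨h1, h2, h3, h4⟩ := mem_VG.1 hw
  have hmK : MulH K l := BP.mulH hl hD hab (le_inf hCH (cent_le_of_mem hx))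
  have hs : ∀ y, y ∉ K → w y = 0 := fun y hy => h1 y (by rwa [inv_one, one_mul])
  have hsH : ∀ y, y ∉ H → w y = 0 := fun y hy => hs y fun h => hy h.1
  have hex : P179Y.ext H (fun h : H => w h) = w := ext_restr' hsH
  have hmap := map_centH (H := H) (hDH hx)
  have hmem : ∀ t : H, t ∈ centralizer ({⟨x, hDH hx⟩} : Set H) ↔ (t : G) ∈ K := by
    intro t
    rw [hK, ← hmap]
    constructor
    · intro ht
      exact ⟨t, ht, rfl⟩
    · rintro ⟨s, hs', e⟩
      have : s = t := Subtype.ext e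
      rwa [← this]
  obtain ⟨z, hz1, hz2, hz3, hz4⟩ := exists_pre (p := p) (hl.restrict hDH hCH) hD.comap_subtype
      (show D.subgroupOf H ≤ centralizer ((D.subgroupOf H : Subgroup H) : Set H) from by
        intro d hd
        rw [mem_cent_subgroupOf hDH]
        exact hab (mem_subgroupOf.1 hd)) (fun h => hT (h.trans (relIndex_stabT_lres_dvd hDH hCH)))
      hB (P179H854.Low.char hlB) (x := ⟨x, hDH hx⟩) (mem_subgroupOf.2 hx)
      (hxT_sub hDH hCH hx hxT) (w := fun h : H => w h)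
      ⟨fun m hm y => h2 m ((hmem m).1 hm) y, fun y hy => hs y fun h => hy ((hmem y).2 h)⟩
      (fun t ht => by
        have h6 : ((pr p t : H) : G) = pr p (t : G) := Q7.map_pr p H.subtype t (C2.ord_ne _)
        rw [h6]
        exact h3 t (by rw [inv_one, one_mul]; exact (hmem t).1 ht))
      (by
        have h6 : P179Y.ext H (conv (fun h : H => w h)
            (eH (centralizer ({⟨x, hDH hx⟩} : Set H)) (lres H l))) = w := by
          rw [P179Y.ext_conv, hex, step_data hl hD hab hDH hCH hx]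
          exact h4
        funext y
        rw [← P179Y.ext_coe H (conv (fun h : H => w h)
            (eH (centralizer ({⟨x, hDH hx⟩} : Set H)) (lres H l))) y, h6])
  have hzx : (fun h : H => P179Y.ext H z h) = z := by
    funext h
    exact P179Y.ext_coe H z h
  refine ⟨P179Y.ext H z, mem_VG.2 ⟨fun y hy => ?_, fun m hm y => ?_, fun y hy => ?_, ?_⟩, ?_⟩
  · rw [inv_one, one_mul] at hy
    exact P179Y.ext_of_not_mem H _ hy
  · by_cases hy : y ∈ H
    · rw [P179Y.ext_of_mem H _ hy, P179Y.ext_of_mem H _ ((conj_mem_iff hm y).2 hy)]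
      exact hz1 ⟨m, hm⟩ ⟨y, hy⟩
    · rw [P179Y.ext_of_not_mem H _ hy,
        P179Y.ext_of_not_mem H _ fun h => hy ((conj_mem_iff hm y).1 h)]
  · rw [inv_one, one_mul] at hy
    have h6 : ((pr p (⟨y, hy⟩ : H) : H) : G) = pr p y :=
      Q7.map_pr p H.subtype (⟨y, hy⟩ : H) (C2.ord_ne _)
    rw [← h6, P179Y.ext_coe, P179Y.ext_of_mem H _ hy, hz2]
  · have h6 : bF H B = P179Y.ext H (fun g => B.coeff g) := rfl
    have h7 : InvOn H (P179Y.ext H z) := invOn_ext0 hz1
    rw [he, conv_comm_inv (H := H) h7.1 (invOn_bF hB.1).2, h6, ← P179Y.ext_conv, hz3]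
  · rw [step_val hl hD hab hDH hCH hx (by rw [hzx]), hzx]
    funext y
    by_cases hy : y ∈ K
    · rw [cutH'_pos hy, P179Y.ext_of_mem H _ hy.1]
      exact hz4 ⟨y, hy.1⟩ ((hmem _).2 hy)
    · rw [cutH'_neg hy, hs y hy]

end Sub

end P179H967
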