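import Vale.Agent.P179.R2.H967.W1c
import Vale.Agent.P179.R2.H452.W1a

/-!
# The graded Watanabe theorem, one step
-/

namespace P179H967

open Subgroup Finset P179H524 P179A P179P P179Y P179C P179H12

open P179H452 (HN mem_HN le_HN self_mem_HN coset_mem_HN HN_le norm_cent cj_eH eH_up norm_sup
  cent_sup_eq eH_sup_zpowers cent_le_cent)

open scoped Classical

universe u

section Gen

variable {G : Type} [Group G]

theorem HN_eq {N : Subgroup G} {c : G} (hc : c ∈ normalizer (N : Set G)) :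
    HN N hc = N ⊔ zpowers c :=
  le_antisymm (HN_le hc le_sup_left (mem_sup_right (mem_zpowers c)))
    (sup_le (le_HN hc) ((zpowers_le).2 (self_mem_HN hc)))

/-- powers of the elements of `⟨N, c⟩` -/
theorem pow_mem_HN {N : Subgroup G} {c : G} (hc : c ∈ normalizer (N : Set G)) {g : G} {i : ℤ}
    (hg : (c ^ i)⁻¹ * g ∈ N) (j : ℕ) : (c ^ (i * j))⁻¹ * g ^ j ∈ N := by
  induction j with
  | zero => simp
  | succ j ih =>
    have h1 : c ^ i ∈ normalizer (N : Set G) := zpow_mem hc i
    have h2 : (c ^ i)⁻¹ * ((c ^ (i * j))⁻¹ * g ^ j) * (c ^ i)⁻¹⁻¹ ∈ N :=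
      (mem_normalizer_iff.1 (inv_mem h1) _).1 ih
    have h3 := mul_mem h2 hg
    have e1 : (c ^ i)⁻¹ * ((c ^ (i * j))⁻¹ * g ^ j) * (c ^ i)⁻¹⁻¹ * ((c ^ i)⁻¹ * g) =
        (c ^ (i * (j + 1 : ℕ)))⁻¹ * g ^ (j + 1) := by
      rw [pow_succ]
      push_cast
      rw [mul_add, mul_one, zpow_add]
      group
    rwa [e1] at h3

/-- the regular part lies in the same coset -/
theorem pr_coset (p : ℕ) [hp : Fact p.Prime] [Finite G] {N : Subgroup G} {c : G}
    (hc : c ∈ normalizer (N : Set G)) {m : ℕ} (hm : ¬ p ∣ m) (hcm : c ^ m ∈ N) {g : G} {i : ℤ}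
    (hg : (c ^ i)⁻¹ * g ∈ N) : (c ^ i)⁻¹ * pr p g ∈ N := by
  obtain ⟨v, hv1, hv2, ⟨n, hn⟩, -⟩ := P179C905.pr_decomp p g
  have hgH : g ∈ HN N hc := ⟨i, hg⟩
  have hprH : pr p g ∈ HN N hc := by
    unfold pr
    exact pow_mem hgH _
  have hvH : v ∈ HN N hc := by
    have h1 := mul_mem (inv_mem hprH) hgH
    have h2 : (pr p g)⁻¹ * g = v := by
      rw [inv_mul_eq_iff_eq_mul]
      exact hv1.symm
    rwa [h2] at h1
  obtain ⟨s, hs⟩ := hvH
  have h3 : v ^ m ∈ N := by
    have h4 := pow_mem_HN hc hs m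
    have h5 : c ^ (s * m) ∈ N := by
      rw [mul_comm, zpow_mul, zpow_natCast]
      exact zpow_mem hcm s
    have h6 := mul_mem h5 h4
    rwa [mul_inv_cancel_left] at h6
  have hcop : Nat.Coprime (p ^ n) m := Nat.Coprime.pow_left n ((Nat.Prime.coprime_iff_not_dvd hp.out).2 hm)
  have hvN : v ∈ N := by
    have h7 : v ^ Nat.gcd (p ^ n) m ∈ N := by
      rw [← zpow_natCast, Nat.gcd_eq_gcd_ab, zpow_add, zpow_mul, zpow_mul, zpow_natCast,
        zpow_natCast, hn, one_zpow, one_mul]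
      exact zpow_mem h3 _
    rwa [hcop.gcd_eq_one, pow_one] at h7
  have h8 : (c ^ i)⁻¹ * pr p g = (c ^ i)⁻¹ * g * v⁻¹ := by
    conv_rhs => rw [← hv1]
    group
  rw [h8]
  exact mul_mem hg (inv_mem hvN)

end Gen

section Grad

variable {p : ℕ} [hp : Fact p.Prime] {k : Type u} [Field k] {G : Type} [Group G] [Fintype G]

omit hp [Field k] [Fintype G] in
/-- conjugation of an element of the coset `c N` by the group `⟨N, c⟩` -/
theorem conj_HN {N : Subgroup G} {c : G} (hc : c ∈ normalizer (N : Set G)) {h y : G}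
    (hh : h ∈ HN N hc) (hy : c⁻¹ * y ∈ N) : ∃ n ∈ N, h * y * h⁻¹ = n * y * n⁻¹ := by
  obtain ⟨i, hi⟩ := hh
  have key : ∀ i : ℤ, (c ^ i)⁻¹ * y ^ i ∈ N := by
    intro i
    have hpos : ∀ j : ℕ, (c ^ (j : ℤ))⁻¹ * y ^ (j : ℤ) ∈ N := by
      intro j
      have h5 := pow_mem_HN hc (i := 1) (g := y) (by rwa [zpow_one]) j
      rwa [one_mul, ← zpow_natCast y j] at h5
    obtain ⟨j, rfl | rfl⟩ := i.eq_nat_or_neg
    · exact hpos j
    · have h5 := (mem_normalizer_iff.1 (zpow_mem hc (j : ℤ)) _).1 (inv_mem (hpos j))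
      have e1 : c ^ (j : ℤ) * ((c ^ (j : ℤ))⁻¹ * y ^ (j : ℤ))⁻¹ * (c ^ (j : ℤ))⁻¹ =
          (c ^ (-(j : ℤ)))⁻¹ * y ^ (-(j : ℤ)) := by
        rw [zpow_neg, zpow_neg]
        group
      rwa [e1] at h5
  have h5 : h * (y ^ i)⁻¹ ∈ N := by
    have h6 : (c ^ i)⁻¹ * h * ((c ^ i)⁻¹ * y ^ i)⁻¹ ∈ N := mul_mem hi (inv_mem (key i))
    have h7 := (mem_normalizer_iff.1 (zpow_mem hc i) _).1 h6
    have e1 : c ^ i * ((c ^ i)⁻¹ * h * ((c ^ i)⁻¹ * y ^ i)⁻¹) * (c ^ i)⁻¹ =
        h * (y ^ i)⁻¹ := by group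
    rwa [e1] at h7
  exact ⟨_, h5, by group⟩

omit hp [Field k] [Fintype G] in
theorem conj_coset {N : Subgroup G} {c : G} (hc : c ∈ normalizer (N : Set G)) {n y : G}
    (hn : n ∈ N) : c⁻¹ * (n * y * n⁻¹) ∈ N ↔ c⁻¹ * y ∈ N := by
  have h1 : c⁻¹ * n * c ∈ N := by
    have := (mem_normalizer_iff.1 (inv_mem hc) n).1 hn
    rwa [inv_inv] at this
  have e1 : c⁻¹ * (n * y * n⁻¹) = (c⁻¹ * n * c) * (c⁻¹ * y) * n⁻¹ := by group
  rw [e1, mul_mem_cancel_right (inv_mem hn), mul_mem_cancel_left h1]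

/-- functions on a coset are functions on the generated group -/
theorem VG_le {N : Subgroup G} {c : G} (hc : c ∈ normalizer (N : Set G)) {m : ℕ} (hm : ¬ p ∣ m)
    (hcm : c ^ m ∈ N) {e z : G → k} (hz : z ∈ VG p N e c) : z ∈ VG p (HN N hc) e 1 := by
  obtain ⟨h1, h2, h3, h4⟩ := mem_VG.1 hz
  refine mem_VG.2 ⟨fun y hy => ?_, fun h hh y => ?_, fun y hy => ?_, h4⟩
  · rw [inv_one, one_mul] at hy
    exact h1 y fun h => hy (coset_mem_HN hc h)
  · -- invariance
    by_cases hy : c⁻¹ * y ∈ N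
    · obtain ⟨n, hn, e⟩ := conj_HN hc hh hy
      rw [e]
      exact h2 n hn y
    · rw [h1 y hy, h1]
      intro h5
      apply hy
      obtain ⟨n, hn, e⟩ := conj_HN hc (inv_mem hh) h5
      have e1 : h⁻¹ * (h * y * h⁻¹) * h⁻¹⁻¹ = y := by group
      rw [e1] at e
      rw [e]
      exact (conj_coset hc hn).2 h5
  · rw [inv_one, one_mul] at hy
    by_cases hy1 : c⁻¹ * y ∈ N
    · exact h3 y hy1
    · rw [h1 y hy1, h1]
      intro h5
      apply hy1
      obtain ⟨i, hi⟩ := hy
      have h6 := pr_coset p hc hm hcm hi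
      have h7 := mul_mem h5 (mul_mem (inv_mem h6) hi)
      have e1 : c⁻¹ * pr p y * (((c ^ i)⁻¹ * pr p y)⁻¹ * ((c ^ i)⁻¹ * y)) = c⁻¹ * y := by group
      rwa [e1] at h7

/-- the component of a function on a coset -/
noncomputable def comp (N : Subgroup G) (c : G) (z : G → k) : G → k :=
  fun y => if c⁻¹ * y ∈ N then z y else 0

omit hp in
theorem conv_comp {N : Subgroup G} {c : G} {e z : G → k} (he : ∀ x, x ∉ N → e x = 0) :
    conv (comp N c z) e = comp N c (conv z e) := by
  funext y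
  unfold comp conv
  by_cases hy : c⁻¹ * y ∈ N
  · rw [if_pos hy]
    refine Finset.sum_congr rfl fun g _ => ?_
    by_cases h1 : g⁻¹ * y ∈ N
    · have h2 : c⁻¹ * g ∈ N := by
        have h3 := mul_mem hy (inv_mem h1)
        have e1 : c⁻¹ * y * (g⁻¹ * y)⁻¹ = c⁻¹ * g := by group
        rwa [e1] at h3
      beta_reduce
      rw [if_pos h2]
    · rw [he _ h1, mul_zero, mul_zero]
  · rw [if_neg hy]
    refine Finset.sum_eq_zero fun g _ => ?_
    by_cases h1 : g⁻¹ * y ∈ N
    · have h2 : c⁻¹ * g ∉ N := by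
        intro h2
        apply hy
        have h3 := mul_mem h2 h1
        have e1 : c⁻¹ * g * (g⁻¹ * y) = c⁻¹ * y := by group
        rwa [e1] at h3
      beta_reduce
      rw [if_neg h2, zero_mul]
    · rw [he _ h1, mul_zero]

theorem comp_mem {N : Subgroup G} {c : G} (hc : c ∈ normalizer (N : Set G)) {m : ℕ} (hm : ¬ p ∣ m)
    (hcm : c ^ m ∈ N) {e z : G → k} (he : ∀ x, x ∉ N → e x = 0) (hz : z ∈ VG p (HN N hc) e 1) :
    comp N c z ∈ VG p N e c := by
  obtain ⟨h1, h2, h3, h4⟩ := mem_VG.1 hz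
  refine mem_VG.2 ⟨fun y hy => if_neg hy, fun n hn y => ?_, fun y hy => ?_, ?_⟩
  · unfold comp
    simp only [conj_coset hc hn, h2 n (le_HN hc hn)]
  · have h5 : c⁻¹ * pr p y ∈ N := by
      have h6 := pr_coset p hc hm hcm (i := 1) (g := y) (by rwa [zpow_one])
      rwa [zpow_one] at h6
    unfold comp
    rw [if_pos hy, if_pos h5]
    exact h3 y (by rw [inv_one, one_mul]; exact coset_mem_HN hc hy)
  · rw [conv_comp he, h4]

end Grad

section Main

variable {p : ℕ} [hp : Fact p.Prime] {k : Type u} [Field k] [IsAlgClosed k] [CharP k p]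
  {G : Type} [Group G] [Fintype G] {D : Subgroup G} {l : (G → k) → k}

theorem inf_HN {P : Subgroup G} {a x : G} (haP : a ∈ normalizer (P : Set G)) (hax : a * x = x * a)
    (haP' : a ∈ normalizer ((P ⊔ zpowers x : Subgroup G) : Set G)) :
    HN (centralizer (P : Set G)) (norm_cent haP) ⊓ centralizer ({x} : Set G) =
      HN (centralizer ((P ⊔ zpowers x : Subgroup G) : Set G)) (norm_cent haP') := by
  have hcs : centralizer ((P ⊔ zpowers x : Subgroup G) : Set G) =
      centralizer (P : Set G) ⊓ centralizer {x} := cent_sup_eq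
  have hax' : a ∈ centralizer ({x} : Set G) := mem_centralizer_singleton_iff.2 hax
  apply le_antisymm
  · rintro g ⟨⟨i, hi⟩, hg⟩
    refine ⟨i, ?_⟩
    have hg' : g ∈ centralizer ({x} : Set G) := hg
    have hi' : a ^ i ∈ centralizer ({x} : Set G) := zpow_mem hax' i
    rw [hcs]
    exact mem_inf.2 ⟨hi, mul_mem (inv_mem hi') hg'⟩
  · refine le_inf (HN_le _ ?_ (self_mem_HN _)) (HN_le _ ?_ hax')
    · rw [hcs]
      exact inf_le_left.trans (le_HN _)
    · rw [hcs]
      exact inf_le_right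

/-- **one step of the graded Watanabe theorem** -/
theorem stepS (hl : BP p D l) (hD : IsPGroup p D) (hab : D ≤ centralizer (D : Set G))
    (hT : ¬ p ∣ (centralizer (D : Set G)).relIndex (stabT D l)) {P : Subgroup G} (hPD : P ≤ D)
    {a : G} (ha : a ∈ stabT D l) (haP : a ∈ normalizer (P : Set G)) {x : G} (hx : x ∈ D)
    (hax : a * x = x * a) (hxT : ∀ t ∈ stabT D l, t ∈ centralizer (P : Set G) → t * x = x * t) :
    Set.BijOn (fun z => conv (cutC (zpowers x) z)
        (eH (centralizer ((P ⊔ zpowers x : Subgroup G) : Set G)) l))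
      (VG p (centralizer (P : Set G)) (eH (centralizer (P : Set G)) l) a)
      (VG p (centralizer ((P ⊔ zpowers x : Subgroup G) : Set G))
        (eH (centralizer ((P ⊔ zpowers x : Subgroup G) : Set G)) l) a) := by
  set N := centralizer (P : Set G) with hN
  set N' := centralizer ((P ⊔ zpowers x : Subgroup G) : Set G) with hN'
  have hPxD : P ⊔ zpowers x ≤ D := sup_le hPD ((zpowers_le).2 hx)
  have haP' : a ∈ normalizer ((P ⊔ zpowers x : Subgroup G) : Set G) :=
    norm_sup haP (by rw [hax, mul_inv_cancel_right])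
  have hcN : a ∈ normalizer (N : Set G) := norm_cent haP
  have hcN' : a ∈ normalizer (N' : Set G) := norm_cent haP'
  have hN'N : N' ≤ N := cent_le_cent le_sup_left
  have hDN : D ≤ N := hab.trans (cent_le_cent hPD)
  have hCN : centralizer (D : Set G) ≤ N := cent_le_cent hPD
  have hCN' : centralizer (D : Set G) ≤ N' := cent_le_cent hPxD
  set H := HN N hcN with hH
  have hDH : D ≤ H := hDN.trans (le_HN _)
  have hCH : centralizer (D : Set G) ≤ H := hCN.trans (le_HN _)
  set C := centralizer ({x} : Set G) with hC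
  have hK : H ⊓ C = HN N' hcN' := inf_HN haP hax haP'
  have heH : eH H l = eH N l := by
    rw [hH, HN_eq]
    exact eH_sup_zpowers hl hD hab hPD ha haP
  have heK : eH (H ⊓ C) l = eH N' l := by
    rw [hK, HN_eq]
    exact eH_sup_zpowers hl hD hab hPxD ha haP'
  have hmN : MulH N l := BP.mulH hl hD hab hCN
  have hmN' : MulH N' l := BP.mulH hl hD hab hCN'
  -- the exponent
  set m := (centralizer (D : Set G)).relIndex (stabT D l) with hm
  have ham : a ^ m ∈ centralizer (D : Set G) :=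
    P179H725.pow_relIndex_mem (P179H725.subgroupOf_centralizer_normal (stabT_le_norm D l)) ha
  have hax' : a ∈ C := mem_centralizer_singleton_iff.2 hax
  have hxH : ∀ t ∈ stabT D l, t ∈ H → t * x * t⁻¹ = x := by
    rintro t ht ⟨i, hi⟩
    have h0 : a ^ i ∈ stabT D l := zpow_mem ha i
    have h1 : (a ^ i)⁻¹ * t ∈ C := mem_centralizer_singleton_iff.2
      (hxT _ (mul_mem (inv_mem h0) ht) hi)
    have h2 := mul_mem (zpow_mem hax' i) h1
    rw [mul_inv_cancel_left] at h2
    rw [mem_centralizer_singleton_iff.1 h2, mul_inv_cancel_right]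
  have hcut : ∀ z : G → k, cutC (zpowers x) z = cutH' C z := by
    intro z
    have h1 : centralizer ((zpowers x : Subgroup G) : Set G) = C := by
      rw [hC]
      ext g
      rw [mem_centralizer_iff, mem_centralizer_singleton_iff]
      constructor
      · intro h
        exact (h x (mem_zpowers x)).symm
      · intro h y hy
        obtain ⟨n, rfl⟩ := mem_zpowers_iff.1 hy
        exact ((show Commute g x from h).zpow_right n).symm.eq
    unfold cutC cutH'
    rw [h1]
  have hcoset : ∀ y, a⁻¹ * y ∈ N → y ∈ C → a⁻¹ * y ∈ N' := by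
    intro y h1 h2
    rw [hN', cent_sup_eq]
    exact mem_inf.2 ⟨h1, mul_mem (inv_mem hax') h2⟩
  refine ⟨fun z hz => ?_, fun z hz z' hz' h => ?_, fun w hw => ?_⟩
  · -- the image
    have h1 := VG_le hcN hT (hCN ham) hz
    rw [← heH] at h1
    have h2 := step_mem hl hD hab hDH hCH hx h1
    obtain ⟨g1, g2, g3, g4⟩ := mem_VG.1 h2
    rw [heK] at g1 g2 g3 g4
    change conv (cutC (zpowers x) z) (eH N' l) ∈ VG p N' (eH N' l) a
    rw [hcut]
    refine mem_VG.2 ⟨fun y hy => ?_, fun n hn y => ?_, fun y hy => ?_, g4⟩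
    · -- the support
      unfold conv
      refine Finset.sum_eq_zero fun g _ => ?_
      by_cases h3 : g⁻¹ * y ∈ N'
      · by_cases h4 : g ∈ C
        · by_cases h5 : a⁻¹ * g ∈ N
          · exfalso
            apply hy
            have h6 := mul_mem (hcoset g h5 h4) h3
            have e1 : a⁻¹ * g * (g⁻¹ * y) = a⁻¹ * y := by group
            rwa [e1] at h6
          · rw [cutH'_pos h4, (mem_VG.1 hz).1 g h5, zero_mul]
        · rw [cutH'_neg h4, zero_mul]
      · rw [(invOn_eH hmN').2 _ h3, mul_zero]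
    · refine g2 n ?_ y
      rw [hK]
      exact le_HN _ hn
    · refine g3 y ?_
      rw [inv_one, one_mul, hK]
      exact coset_mem_HN _ hy
  · -- injectivity
    have h1 : z - z' ∈ VG p N (eH N l) a := sub_mem hz hz'
    have h2 := VG_le hcN hT (hCN ham) h1
    rw [← heH] at h2
    have h3 : conv (cutH' C (z - z')) (eH (H ⊓ C) l) = 0 := by
      rw [heK]
      have h4 : conv (cutH' C z) (eH N' l) = conv (cutH' C z') (eH N' l) := by
        have h5 : conv (cutC (zpowers x) z) (eH N' l) = conv (cutC (zpowers x) z') (eH N' l) := h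
        rwa [hcut, hcut] at h5
      funext y
      have h5 := congrFun h4 y
      have h6 : conv (cutH' C (z - z')) (eH N' l) y =
          conv (cutH' C z) (eH N' l) y - conv (cutH' C z') (eH N' l) y := by
        unfold conv
        rw [← Finset.sum_sub_distrib]
        refine Finset.sum_congr rfl fun g _ => ?_
        unfold cutH'
        split_ifs
        · rw [Pi.sub_apply, sub_mul]
        · simp
      rw [h6, h5, sub_self]
      rfl
    have h7 := step_inj hl hD hab hT hDH hCH hx hxH h2 h3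
    exact sub_eq_zero.1 h7
  · -- surjectivity
    have h1 := VG_le hcN' hT (hCN' ham) hw
    rw [← heK, ← hK] at h1
    obtain ⟨z, hz, hzw⟩ := step_sur hl hD hab hT hDH hCH hx hxH h1
    rw [heH] at hz
    refine ⟨comp N a z, comp_mem hcN hT (hCN ham) (invOn_eH hmN).2 hz, ?_⟩
    change conv (cutC (zpowers x) (comp N a z)) (eH N' l) = w
    rw [heK] at hzw
    rw [hcut]
    have h2 : cutH' C (comp N a z) = comp N' a (cutH' C z) := by
      funext y
      by_cases hy : y ∈ C
      · rw [cutH'_pos hy]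
        unfold comp
        rw [cutH'_pos hy]
        by_cases h3 : a⁻¹ * y ∈ N
        · rw [if_pos h3, if_pos (hcoset y h3 hy)]
        · rw [if_neg h3, if_neg fun h => h3 (hN'N h)]
      · rw [cutH'_neg hy]
        unfold comp
        rw [cutH'_neg hy]
        split_ifs <;> rfl
    rw [h2, conv_comp (invOn_eH hmN').2, hzw]
    funext y
    unfold comp
    by_cases h3 : a⁻¹ * y ∈ N'
    · rw [if_pos h3]
    · rw [if_neg h3, (mem_VG.1 hw).1 y h3]

end Main

end P179H967
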